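import Mathlib

/-! The Thorp shuffle of a deck of `n = m + m` cards, positions numbered from zero. -/

namespace Vale.Agent.P162

/-- `σ` is the permutation of positions made by one shuffle with coins `c` -/
def IsShuffle (m : ℕ) (c : Fin m → Bool) (σ : Equiv.Perm (Fin (m + m))) : Prop :=
  ∀ i : Fin m, (σ (Fin.castAdd m i) : ℕ) = 2 * i + (c i).toNat ∧
    (σ (Fin.natAdd m i) : ℕ) = 2 * i + (!c i).toNat

open Classical in
/-- the law of one shuffle -/
noncomputable def q (m : ℕ) (σ : Equiv.Perm (Fin (m + m))) : ℝ :=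
  ((Finset.univ.filter fun c : Fin m → Bool => IsShuffle m c σ).card : ℝ) / 2 ^ m

/-- convolution powers of the law of one shuffle -/
noncomputable def qpow (m : ℕ) : ℕ → Equiv.Perm (Fin (m + m)) → ℝ
  | 0, g => if g = 1 then 1 else 0
  | t + 1, g => ∑ h, q m (g * h⁻¹) * qpow m t h

/-- total variation distance from the uniform law after `t` shuffles -/
noncomputable def tv (m t : ℕ) : ℝ :=
  1 / 2 * ∑ g, |qpow m t g - 1 / ((m + m).factorial : ℝ)|

/-- mixing time -/
noncomputable def tmix (m : ℕ) : ℕ := sInf {t : ℕ | tv m t ≤ 1 / 4}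

end Vale.Agent.P162
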