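import Vale.Agent.P162.Count
import Vale.Agent.P162.Defs

/-! The Thorp shuffle as a rotated butterfly network. -/

namespace Vale.Agent.P162

open Finset Equiv

section lay
variable {M : Type} [Ring M] [Algebra ℝ M]

theorem Ex_mul' {Ω : Type} [Fintype Ω] (f : Ω → M) (T : M) : Ex f * T = Ex fun ω => f ω * T := by
  unfold Ex
  rw [smul_mul_assoc, sum_mul]

theorem mul_Ex' {Ω : Type} [Fintype Ω] (f : Ω → M) (T : M) : T * Ex f = Ex fun ω => T * f ω := by
  unfold Ex
  rw [mul_smul_comm, mul_sum]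

/-- permutations moving each point at most along a map -/
def Gam {Y : Type} (φ : Y → Y) : Type := {σ : Perm Y // ∀ x, σ x = x ∨ σ x = φ x}

noncomputable instance {Y : Type} [Fintype Y] [DecidableEq Y] (φ : Y → Y) : Fintype (Gam φ) := by
  classical exact inferInstanceAs (Fintype {σ : Perm Y // ∀ x, σ x = x ∨ σ x = φ x})

variable {Y : Type} [Fintype Y] [DecidableEq Y]

/-- average over a layer -/
noncomputable def Pf (ρ : Perm Y →* M) (φ : Y → Y) : M := Ex fun σ : Gam φ => ρ σ.1

theorem Pf_conj (ρ : Perm Y →* M) {φ ψ : Y → Y} (g : Perm Y) (h : ∀ x, g (φ x) = ψ (g x)) :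
    ρ g * Pf ρ φ = Pf ρ ψ * ρ g := by
  let e : Gam φ ≃ Gam ψ := Equiv.subtypeEquiv (MulAut.conj g).toEquiv fun σ => by
    refine ⟨fun H x => ?_, fun H x => ?_⟩
    · obtain ⟨x, rfl⟩ := g.surjective x
      rcases H x with H | H
      · exact Or.inl (by simp [H])
      · exact Or.inr (by simp [H, h])
    · have := H (g x)
      simpa [← h] using this
  unfold Pf
  rw [mul_Ex', Ex_mul', ← Ex_equiv e]
  refine Ex_congr fun σ => ?_
  rw [← map_mul, ← map_mul]
  exact congrArg ρ (inv_mul_cancel_right (g * σ.1) g).symm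

theorem Pf_top (ρ : Perm (Y × Bool) →* M) :
    Pf ρ (fun x => (x.1, !x.2)) = Ex fun s : Y → Bool => ρ (sw s) := by
  let e : (Y → Bool) ≃ Gam fun x : Y × Bool => (x.1, !x.2) :=
    { toFun := fun s => ⟨sw s, fun x => by cases h : s x.1 <;> simp [h]⟩
      invFun := fun σ u => (σ.1 (u, false)).2
      left_inv := fun s => by ext u; simp
      right_inv := fun σ => Subtype.ext (by
        ext ⟨u, b⟩ : 1
        have h0 := σ.2 (u, false)
        have h1 := σ.2 (u, true)
        have h2 : σ.1 (u, false) ≠ σ.1 (u, true) := fun h => by simpa using σ.1.injective h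
        cases b <;> rcases h0 with h0 | h0 <;> rcases h1 with h1 | h1 <;> simp_all) }
  exact (Ex_equiv e fun σ => ρ σ.1).symm

theorem Pf_prod (ρ : Perm (Y × Bool) →* M) (φ : Y → Y) :
    Pf ρ (fun x => (φ x.1, x.2)) = Pf (ρ.comp (inc false)) φ * Pf (ρ.comp (inc true)) φ := by
  let f : Gam φ × Gam φ → Gam fun x : Y × Bool => (φ x.1, x.2) := fun p =>
    ⟨pair p.1.1 p.2.1, fun x => by
      obtain ⟨u, b⟩ := x
      rw [pair_apply]
      cases b
      · simpa using p.1.2 u
      · simpa using p.2.2 u⟩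
  have hf : Function.Bijective f := by
    constructor
    · intro p p' h
      have h' : ∀ u b, pair p.1.1 p.2.1 (u, b) = pair p'.1.1 p'.2.1 (u, b) := fun u b =>
        congrArg (fun σ : Gam fun x : Y × Bool => (φ x.1, x.2) => σ.1 (u, b)) h
      refine Prod.ext (Subtype.ext (Equiv.ext fun u => ?_)) (Subtype.ext (Equiv.ext fun u => ?_))
      · simpa [pair_apply] using h' u false
      · simpa [pair_apply] using h' u true
    · intro σ
      have h2 : ∀ u b, (σ.1 (u, b)).2 = b := fun u b => by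
        rcases σ.2 (u, b) with h | h <;> rw [h]
      have h : ∀ b, ∃ α : Gam φ, ∀ u, α.1 u = (σ.1 (u, b)).1 := by
        intro b
        have hi : Function.Injective fun u => (σ.1 (u, b)).1 := fun u v huv =>
          congrArg Prod.fst (σ.1.injective (Prod.ext huv ((h2 u b).trans (h2 v b).symm)))
        refine ⟨⟨Equiv.ofBijective _ (Finite.injective_iff_bijective.1 hi), fun u => ?_⟩,
          fun _ => rfl⟩
        rcases σ.2 (u, b) with h | h
        · exact Or.inl (congrArg Prod.fst h)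
        · exact Or.inr (congrArg Prod.fst h)
      obtain ⟨α, hα⟩ := h false
      obtain ⟨β, hβ⟩ := h true
      refine ⟨(α, β), Subtype.ext (Equiv.ext fun x => ?_)⟩
      obtain ⟨u, b⟩ := x
      refine (pair_apply _ _ u b).trans (Prod.ext ?_ (h2 u b).symm)
      cases b
      · exact hα u
      · exact hβ u
  unfold Pf
  rw [← Ex_equiv (Equiv.ofBijective f hf), Ex_prod, Ex_mul']
  refine Ex_congr fun α => ?_
  rw [mul_Ex']
  exact Ex_congr fun β => map_mul ρ _ _

/-- product of layers -/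
noncomputable def PP (ρ : Perm Y →* M) (f : ℕ → Y → Y) : ℕ → M
  | 0 => 1
  | t + 1 => Pf ρ (f t) * PP ρ f t

theorem Pf_PP_comm (ρ : Perm (Y × Bool) →* M) (φ : Y → Y) (f : ℕ → Y → Y) (t : ℕ) :
    Commute (Pf (ρ.comp (inc true)) φ) (PP (ρ.comp (inc false)) f t) := by
  induction t with
  | zero => exact Commute.one_right _
  | succ t ih =>
    refine Commute.mul_right ?_ ih
    unfold Pf Commute SemiconjBy
    simp only [Ex_mul', mul_Ex', MonoidHom.comp_apply, ← map_mul, inc_comm]
    exact Ex_comm _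

end lay

/-- coordinate flips -/
def fl : (d : ℕ) → ℕ → Q d → Q d
  | 0, _, x => x
  | _ + 1, 0, x => (x.1, !x.2)
  | d + 1, j + 1, x => (fl d j x.1, x.2)

variable {V : Type} [NormedAddCommGroup V] [InnerProductSpace ℝ V]

theorem PP_succ {d : ℕ} (ρ : Perm (Q d × Bool) →* Module.End ℝ V) (t : ℕ) :
    PP (Y := Q d × Bool) ρ (fl (d + 1)) (t + 1) = PP (ρ.comp (inc false)) (fl d) t *
      PP (ρ.comp (inc true)) (fl d) t * Ex fun s => ρ (sw s) := by
  induction t with
  | zero =>
    change Pf ρ (fun x => (x.1, !x.2)) * 1 = 1 * 1 * _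
    rw [Pf_top, mul_one, one_mul, one_mul]
  | succ t ih =>
    change Pf ρ (fun x => (fl d t x.1, x.2)) * PP (Y := Q d × Bool) ρ (fl (d + 1)) (t + 1)
      = Pf _ _ * PP _ _ t * (Pf _ _ * PP _ _ t) * _
    rw [ih, Pf_prod]
    simp only [← mul_assoc]
    rw [mul_assoc _ _ (PP (ρ.comp (inc false)) (fl d) t), (Pf_PP_comm ρ _ _ t).eq, ← mul_assoc]

theorem Aop_eq (d : ℕ) : ∀ ρ : Perm (Q d) →* Module.End ℝ V, Aop d ρ = PP ρ (fl d) d := by
  induction d with
  | zero =>
    intro ρ
    exact (Ex_congr fun _ => map_one ρ).trans (Ex_const _)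
  | succ d ih =>
    intro ρ
    refine (Aop_succ ρ).trans (Eq.trans ?_ (PP_succ ρ d).symm)
    rw [← ih, ← ih]
    unfold pr
    simp only [chi_empty, one_smul]
    rfl

/-- rotation of the bits -/
def rot : (d : ℕ) → Perm (Q d × Bool)
  | 0 => 1
  | d + 1 =>
    { toFun := fun x => (rot d (x.1.1, x.2), x.1.2)
      invFun := fun y => ((((rot d).symm y.1).1, y.2), ((rot d).symm y.1).2)
      left_inv := fun x => by simp only [Equiv.symm_apply_apply]; rfl
      right_inv := fun y => Prod.ext ((rot d).apply_symm_apply y.1) rfl }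

theorem rot_fl (d : ℕ) : ∀ j < d, ∀ x : Q d × Bool,
    rot d (fl (d + 1) (j + 1) x) = fl (d + 1) j (rot d x) := by
  induction d with
  | zero => intro j hj; omega
  | succ d ih =>
    intro j hj x
    cases j with
    | zero => rfl
    | succ j => exact Prod.ext (ih j (by omega) (x.1.1, x.2)) rfl

theorem rot_pow (d : ℕ) : ∀ t ≤ d, ∀ x : Q d × Bool,
    (rot d ^ t) (fl (d + 1) t x) = fl (d + 1) 0 ((rot d ^ t) x) := by
  intro t
  induction t with
  | zero => intro _ x; rfl
  | succ t ih =>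
    intro ht x
    rw [pow_succ]
    exact (congrArg (rot d ^ t : Perm (Q d × Bool)) (rot_fl d t ht x)).trans (ih (by omega) _)

theorem step_pow {d : ℕ} (ρ : Perm (Q d × Bool) →* Module.End ℝ V) : ∀ t ≤ d + 1,
    (ρ (rot d) * Ex fun s => ρ (sw s)) ^ t
      = ρ (rot d ^ t) * PP (Y := Q d × Bool) ρ (fl (d + 1)) t := by
  intro t
  induction t with
  | zero => intro _; simp [PP]
  | succ t ih =>
    intro ht
    have h := Pf_conj ρ (φ := fl (d + 1) t) (ψ := fun x => (x.1, !x.2)) (rot d ^ t)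
      (rot_pow d t (by omega))
    rw [pow_succ', ih (by omega), ← Pf_top, mul_assoc, ← mul_assoc (Pf _ _), ← h, pow_succ',
      map_mul]
    simp only [mul_assoc]
    rfl

/-- binary value -/
def val : (d : ℕ) → Q d → ℕ
  | 0, _ => 0
  | d + 1, x => val d x.1 + x.2.toNat * 2 ^ d

theorem val_lt (d : ℕ) : ∀ x, val d x < 2 ^ d := by
  induction d with
  | zero => intro x; exact Nat.one_pos
  | succ d ih =>
    intro x
    have := ih x.1
    change val d x.1 + x.2.toNat * 2 ^ d < _
    cases x.2 <;> simp <;> omega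

theorem val_inj (d : ℕ) : Function.Injective (val d) := by
  induction d with
  | zero => intro x y _; rfl
  | succ d ih =>
    rintro ⟨u, b⟩ ⟨v, c⟩ h
    change val d u + b.toNat * 2 ^ d = val d v + c.toNat * 2 ^ d at h
    have := val_lt d u
    have := val_lt d v
    cases b <;> cases c <;> simp at h
    · rw [ih h]
    · omega
    · omega
    · rw [ih h]

theorem val_rot (d : ℕ) : ∀ u b, val (d + 1) (rot d (u, b)) = 2 * val d u + b.toNat := by
  induction d with
  | zero => intro u b; cases b <;> rfl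
  | succ d ih =>
    intro u b
    change val (d + 1) (rot d (u.1, b)) + u.2.toNat * 2 ^ (d + 1)
      = 2 * (val d u.1 + u.2.toNat * 2 ^ d) + _
    rw [ih]
    ring

/-- numbering of the cube -/
noncomputable def eV (d N : ℕ) (h : 2 ^ d = N) : Q d ≃ Fin N :=
  Equiv.ofBijective (fun x => ⟨val d x, h ▸ val_lt d x⟩)
    ((Fintype.bijective_iff_injective_and_card _).2
      ⟨fun _ _ e => val_inj d (congrArg Fin.val e), by rw [card_Q, Fintype.card_fin, h]⟩)

/-- numbering of the positions -/
noncomputable def eP (e : ℕ) : Q e × Bool ≃ Fin (2 ^ e + 2 ^ e) := eV (e + 1) _ (by ring)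

theorem isShuffle_iff (e : ℕ) (s : Q e → Bool) (g : Perm (Q e × Bool)) :
    IsShuffle (2 ^ e) (fun i => s ((eV e _ rfl).symm i)) ((eP e).permCongr g)
      ↔ g = rot e * sw s := by
  have a : ∀ u, Fin.castAdd (2 ^ e) (eV e _ rfl u) = eP e (u, false) := fun u => Fin.ext (by
    change val e u = val e u + 0 * 2 ^ e
    ring)
  have b : ∀ u, Fin.natAdd (2 ^ e) (eV e _ rfl u) = eP e (u, true) := fun u => Fin.ext (by
    change 2 ^ e + val e u = val e u + 1 * 2 ^ e
    ring)
  have c : ∀ u b', val (e + 1) (g (u, b')) = 2 * val e u + (xor b' (s u)).toNat ↔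
      g (u, b') = (rot e * sw s) (u, b') := fun u b' => by
    rw [← val_rot]
    exact (val_inj (e + 1)).eq_iff
  unfold IsShuffle
  rw [(eV e _ rfl).forall_congr_right.symm]
  have v1 : ∀ x, (eP e x : ℕ) = val (e + 1) x := fun _ => rfl
  have v2 : ∀ x, (eV e _ rfl x : ℕ) = val e x := fun _ => rfl
  simp only [a, b, Equiv.permCongr_apply, Equiv.symm_apply_apply, v1, v2]
  constructor
  · intro h
    ext ⟨u, b'⟩ : 1
    rw [← c]
    cases b'
    · simpa using (h u).1
    · simpa using (h u).2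
  · rintro rfl u
    exact ⟨by simpa using (c u false).2 rfl, by simpa using (c u true).2 rfl⟩

theorem q_eq (e : ℕ) (g : Perm (Q e × Bool)) :
    q (2 ^ e) ((eP e).permCongr g) = Ex fun s : Q e → Bool => ind (g = rot e * sw s) := by
  classical
  unfold q Ex
  rw [card_filter, smul_eq_mul, div_eq_inv_mul, Fintype.card_fun, Fintype.card_bool, card_Q]
  push_cast
  congr 1
  rw [← Equiv.sum_comp ((eV e _ rfl).arrowCongr (Equiv.refl Bool))]
  refine sum_congr rfl fun s _ => ?_
  rw [← ind_congr (isShuffle_iff e s g)]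
  rfl

/-- one step of the shuffle on functions -/
noncomputable def St (e : ℕ) : Module.End ℝ (EuclideanSpace ℝ (Perm (Q e × Bool))) :=
  Lr (Perm (Q e × Bool)) (rot e) * Ex fun s : Q e → Bool => Lr (Perm (Q e × Bool)) (sw s)

theorem step_apply (e : ℕ) (f : EuclideanSpace ℝ (Perm (Q e × Bool))) (g : Perm (Q e × Bool)) :
    St e f g = Ex fun s => f ((rot e * sw s)⁻¹ * g) := by
  rw [St, End_mul_Ex, Ex_apply, Ex_coord]
  simp only [← map_mul, Lr_apply]

theorem qpow_eq (e t : ℕ) : ∀ g : Perm (Q e × Bool), qpow (2 ^ e) t ((eP e).permCongr g)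
    = (St e ^ t) (EuclideanSpace.single 1 1) g := by
  induction t with
  | zero =>
    intro g
    have : (eP e).permCongr g = 1 ↔ g = 1 := (eP e).permCongrHom.map_eq_one_iff
    simp [qpow, this]
  | succ t ih =>
    intro g
    rw [pow_succ', Module.End.mul_apply _ (_ ^ t), step_apply, qpow,
      ← Equiv.sum_comp (eP e).permCongr]
    have : ∀ h, (eP e).permCongr g * ((eP e).permCongr h)⁻¹ = (eP e).permCongr (g * h⁻¹) :=
      fun h => ((eP e).permCongrHom.map_mul g h⁻¹).symm
    simp only [this, q_eq, ih, ← Ex_mul_right, ← Ex_sum]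
    refine Ex_congr fun s => ?_
    rw [sum_eq_single ((rot e * sw s)⁻¹ * g) (fun h _ hne => ?_) (by simp), ind_pos (by group),
      one_mul]
    rw [ind_neg fun h' => hne (by rw [← h']; group), zero_mul]

theorem tv_eq (e t : ℕ) : tv (2 ^ e) t = 1 / 2 * ∑ g : Perm (Q e × Bool),
    |(St e ^ t) (EuclideanSpace.single 1 1) g
      - (Fintype.card (Perm (Q e × Bool)) : ℝ)⁻¹| := by
  unfold tv
  rw [← Equiv.sum_comp (eP e).permCongr, Fintype.card_perm, Fintype.card_congr (eP e),
    Fintype.card_fin]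
  simp only [qpow_eq, one_div]

theorem upper : ∃ C : ℕ, ∀ e, tv (2 ^ e) (C * (e + 1)) ≤ 1 / 4 := by
  obtain ⟨r, hr⟩ := mixing
  refine ⟨r, fun e => ?_⟩
  have h := hr (e + 1) (rot e ^ (e + 1))
  rw [Aop_eq] at h
  rw [tv_eq, mul_comm r, pow_mul, St, step_pow _ _ le_rfl]
  exact (mul_le_mul_of_nonneg_left h (by norm_num)).trans (by norm_num)

theorem lower (e t : ℕ) (ht : t < e) : 1 / 4 < tv (2 ^ e) t := by
  classical
  rw [tv_eq]
  set T := St e with hT
  have hs : ∀ t, (univ.filter fun g => (T ^ t) (EuclideanSpace.single 1 1) g ≠ 0).card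
      ≤ (2 ^ 2 ^ e) ^ t := by
    intro t
    induction t with
    | zero =>
      refine (card_le_card (t := {1}) fun g hg => ?_).trans (by simp)
      simpa using hg
    | succ t ih =>
      refine (card_le_card (t := (univ ×ˢ univ.filter fun g =>
        (T ^ t) (EuclideanSpace.single 1 1) g ≠ 0).image
        fun p : (Q e → Bool) × Perm (Q e × Bool) => rot e * sw p.1 * p.2) fun g hg => ?_).trans
        (card_image_le.trans ?_)
      · have h := (mem_filter.1 hg).2
        rw [pow_succ', Module.End.mul_apply _ (_ ^ t), hT, step_apply, ← hT] at h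
        by_contra hc
        refine h ((Ex_congr fun s => ?_).trans (Ex_const 0))
        by_contra h0
        exact hc (mem_image.2 ⟨(s, (rot e * sw s)⁻¹ * g), by simpa using h0, by group⟩)
      · rw [card_product, card_univ, Fintype.card_fun, Fintype.card_bool, card_Q, pow_succ']
        exact Nat.mul_le_mul_left _ ih
  set N := Fintype.card (Perm (Q e × Bool)) with hN
  have hN1 : 4 * (2 ^ 2 ^ e) ^ t ≤ N := by
    rw [hN, Fintype.card_perm, Fintype.card_congr (eP e), Fintype.card_fin]
    refine le_trans ?_ Nat.factorial_mul_pow_le_factorial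
    have a : 2 ≤ 2 ^ e := Nat.le_self_pow (by omega) 2
    calc 4 * (2 ^ 2 ^ e) ^ t ≤ 2 ^ 2 ^ e * (2 ^ 2 ^ e) ^ t :=
          Nat.mul_le_mul_right _ (Nat.pow_le_pow_right (n := 2) (by norm_num) a)
      _ ≤ (2 ^ 2 ^ e) ^ e := by
          rw [← pow_succ']
          exact Nat.pow_le_pow_right (by positivity) ht
      _ = (2 ^ e) ^ 2 ^ e := by rw [← pow_mul, ← pow_mul, mul_comm]
      _ ≤ (2 ^ e + 1) ^ 2 ^ e := Nat.pow_le_pow_left (by omega) _
      _ ≤ _ := Nat.le_mul_of_pos_left _ (Nat.factorial_pos _)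
  have hN0 : (0 : ℝ) < N := by rw [hN]; exact_mod_cast Fintype.card_pos
  set S := univ.filter fun g => (T ^ t) (EuclideanSpace.single 1 1) g ≠ 0 with hS
  have h0 : 4 * S.card ≤ N := (Nat.mul_le_mul_left 4 (hs t)).trans hN1
  have h1 : (4 : ℝ) * S.card ≤ N := by exact_mod_cast h0
  have h2 : (Sᶜ.card : ℝ) * (N : ℝ)⁻¹
      ≤ ∑ g, |(T ^ t) (EuclideanSpace.single 1 1) g - (N : ℝ)⁻¹| := by
    rw [← nsmul_eq_mul, ← sum_const]
    refine le_trans (sum_le_sum fun g hg => ?_)
      (sum_le_sum_of_subset_of_nonneg (subset_univ _) fun _ _ _ => abs_nonneg _)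
    have : (T ^ t) (EuclideanSpace.single 1 1) g = 0 := by simpa [hS] using hg
    rw [this, zero_sub, abs_neg]
    exact le_abs_self _
  have h3 : (S.card : ℝ) + Sᶜ.card = N := by exact_mod_cast card_add_card_compl S
  have h4 : 3 / 4 ≤ (Sᶜ.card : ℝ) * (N : ℝ)⁻¹ := by
    rw [← div_eq_mul_inv, le_div_iff₀ hN0]
    linarith
  linarith

end Vale.Agent.P162
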