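import Vale.Agent.P162.Rank

/-! From singular value bounds to total variation. -/

namespace Vale.Agent.P162

open scoped RealInnerProductSpace
open Finset Equiv Module

section pf
variable {V : Type} [NormedAddCommGroup V] [InnerProductSpace ℝ V] {T : Module.End ℝ V}

/-- spectral projection of a set -/
def SpecData.pF (s : SpecData T) (F : Finset ℝ) : Module.End ℝ V := ∑ x ∈ F, s.p x

theorem SpecData.pF_apply (s : SpecData T) (F : Finset ℝ) (v : V) :
    s.pF F v = ∑ x ∈ F, s.p x v := LinearMap.sum_apply _ _ _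

theorem SpecData.pF_norm (hT : T.IsSymmetric) (s : SpecData T) {F : Finset ℝ} (hF : F ⊆ s.X)
    (v : V) : ‖s.pF F v‖ ^ 2 = ∑ x ∈ F, ‖s.p x v‖ ^ 2 := by
  rw [s.pF_apply]
  exact pyth _ _ fun x hx y hy h => eig_orth hT (s.eig x (hF hx) v) (s.eig y (hF hy) v) h

theorem SpecData.pF_T (hT : T.IsSymmetric) (s : SpecData T) {F : Finset ℝ} (hF : F ⊆ s.X)
    (v : V) : ⟪s.pF F v, T (s.pF F v)⟫ = ∑ x ∈ F, ‖s.p x v‖ ^ 2 * x := by
  have := inner_pow_sum F (fun x => s.p x v) (fun x => x)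
    (fun x hx y hy h => eig_orth hT (s.eig x (hF hx) v) (s.eig y (hF hy) v) h)
    (fun x hx => s.eig x (hF hx) v) 1
  simpa only [pow_one, s.pF_apply] using this

theorem SpecData.pF_inner (hT : T.IsSymmetric) (s : SpecData T) {F : Finset ℝ} (hF : F ⊆ s.X)
    (v : V) : ⟪s.pF F v, v⟫ = ‖s.pF F v‖ ^ 2 := by
  rw [s.pF_norm hT hF, s.pF_apply, sum_inner]
  exact sum_congr rfl fun x hx => by rw [s.inner_eq hT (hF hx), real_inner_self_eq_norm_sq]

theorem SpecData.pF_le (hT : T.IsSymmetric) (s : SpecData T) {F : Finset ℝ} (hF : F ⊆ s.X)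
    (v : V) : ‖s.pF F v‖ ≤ ‖v‖ := by
  refine (pow_le_pow_iff_left₀ (norm_nonneg _) (norm_nonneg _) two_ne_zero).1 ?_
  rw [s.pF_norm hT hF, s.norm_sq hT]
  exact sum_le_sum_of_subset_of_nonneg hF fun _ _ _ => sq_nonneg _

theorem SpecData.pF_comm (s : SpecData T) (F : Finset ℝ) {S : Module.End ℝ V}
    (h : S * T = T * S) : S * s.pF F = s.pF F * S := by
  unfold SpecData.pF
  rw [mul_sum, sum_mul]
  exact sum_congr rfl fun x _ => s.comm S h x

theorem SpecData.pF_mem (s : SpecData T) (F : Finset ℝ) (W : Submodule ℝ V)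
    (hW : ∀ v ∈ W, T v ∈ W) {v : V} (hv : v ∈ W) : s.pF F v ∈ W := by
  rw [s.pF_apply]
  exact W.sum_mem fun x _ => s.mem W hW x v hv

theorem SpecData.pF_T_le (hT : T.IsSymmetric) (s : SpecData T) {F : Finset ℝ} (hF : F ⊆ s.X)
    {c : ℝ} (hc : ∀ x ∈ F, x ≤ c) (v : V) : ⟪s.pF F v, T (s.pF F v)⟫ ≤ c * ‖s.pF F v‖ ^ 2 := by
  rw [s.pF_T hT hF, s.pF_norm hT hF, mul_sum]
  exact sum_le_sum fun x hx => by nlinarith [hc x hx, sq_nonneg ‖s.p x v‖]

theorem SpecData.pF_T_ge (hT : T.IsSymmetric) (s : SpecData T) {F : Finset ℝ} (hF : F ⊆ s.X)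
    {c : ℝ} (hc : ∀ x ∈ F, c ≤ x) (v : V) : c * ‖s.pF F v‖ ^ 2 ≤ ⟪s.pF F v, T (s.pF F v)⟫ := by
  rw [s.pF_T hT hF, s.pF_norm hT hF, mul_sum]
  exact sum_le_sum fun x hx => by nlinarith [hc x hx, sq_nonneg ‖s.p x v‖]

theorem tele (X Y P : Module.End ℝ V) {β ρ : ℝ} (hβ : 0 ≤ β) (v : V)
    (hX : ∀ y, ‖X y‖ ≤ β * ‖y‖) (hD : ∀ y, ‖X y - Y y‖ ≤ β * ‖P y‖)
    (hP : ∀ j, ‖P ((Y ^ j) v)‖ ≤ β ^ j * ρ) (r : ℕ) :
    ‖(X ^ r) v - (Y ^ r) v‖ ≤ r * β ^ r * ρ := by
  induction r with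
  | zero => simp
  | succ r ih =>
    have e : (X ^ (r + 1)) v - (Y ^ (r + 1)) v
        = X ((X ^ r) v - (Y ^ r) v) + (X ((Y ^ r) v) - Y ((Y ^ r) v)) := by
      rw [pow_succ', pow_succ', map_sub, Module.End.mul_apply, Module.End.mul_apply]
      abel
    rw [e]
    refine (norm_add_le _ _).trans ((add_le_add ((hX _).trans (mul_le_mul_of_nonneg_left ih hβ))
      ((hD _).trans (mul_le_mul_of_nonneg_left (hP r) hβ))).trans (le_of_eq ?_))
    push_cast
    ring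

theorem pow_norm_le (Y : Module.End ℝ V) {β : ℝ} (hβ : 0 ≤ β) (hY : ∀ y, ‖Y y‖ ≤ β * ‖y‖) (j : ℕ)
    (v : V) : ‖(Y ^ j) v‖ ≤ β ^ j * ‖v‖ := by
  induction j with
  | zero => simp
  | succ j ih =>
    rw [pow_succ', Module.End.mul_apply, pow_succ', mul_assoc]
    exact (hY _).trans (mul_le_mul_of_nonneg_left ih hβ)

theorem hs_bound [FiniteDimensional ℝ V] {G : Type} [Fintype G] [DecidableEq G]
    (U : Submodule ℝ V) (Z : EuclideanSpace ℝ G →ₗ[ℝ] V) (P : Module.End ℝ V) {β : ℝ}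
    (hU : ∀ y, P (Z y) ∈ U) (hP : ∀ y, ⟪P y, y⟫ = ‖P y‖ ^ 2)
    (hZ : ∀ y, ‖Z y‖ ≤ β * ‖y‖) :
    ∑ g, ‖P (Z (EuclideanSpace.single g 1))‖ ^ 2 ≤ finrank ℝ U * β ^ 2 := by
  obtain ⟨b, -, hb2, hb3, hb4⟩ := exists_frame U
  have h1 : ∀ y, ‖P (Z y)‖ ^ 2 ≤ ∑ i, ⟪b i, Z y⟫ ^ 2 := by
    intro y
    have a : ‖P (Z y)‖ ^ 2 = ∑ i, ⟪b i, P (Z y)⟫ * ⟪b i, Z y⟫ := by
      rw [← hP]
      conv_lhs => rw [← hb4 _ (hU y), sum_inner]
      simp only [real_inner_smul_left]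
    have c : ∑ i, ⟪b i, P (Z y)⟫ * ⟪b i, Z y⟫
        ≤ ∑ i, (⟪b i, P (Z y)⟫ ^ 2 + ⟪b i, Z y⟫ ^ 2) / 2 :=
      sum_le_sum fun i _ => by nlinarith [sq_nonneg (⟪b i, P (Z y)⟫ - ⟪b i, Z y⟫)]
    rw [← sum_div, sum_add_distrib] at c
    linarith [hb3 (P (Z y))]
  have h2 : ∀ i, ∑ g, ⟪b i, Z (EuclideanSpace.single g 1)⟫ ^ 2 ≤ β ^ 2 := by
    intro i
    let w : EuclideanSpace ℝ G := WithLp.toLp 2 fun g => ⟪b i, Z (EuclideanSpace.single g 1)⟫
    have a : ‖w‖ ^ 2 = ∑ g, ⟪b i, Z (EuclideanSpace.single g 1)⟫ ^ 2 :=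
      EuclideanSpace.real_norm_sq_eq w
    have c : w = ∑ g, w g • EuclideanSpace.single g (1 : ℝ) := by
      ext x
      simp [Pi.single_apply]
    have e : ⟪b i, Z w⟫ = ‖w‖ ^ 2 := by
      rw [a]
      conv_lhs => rw [c, map_sum, inner_sum]
      refine sum_congr rfl fun g _ => ?_
      rw [map_smul, real_inner_smul_right, sq]
    have f := real_inner_le_norm (b i) (Z w)
    rw [hb2, one_mul, e] at f
    rw [← a]
    nlinarith [hZ w, norm_nonneg w, sq_nonneg (‖w‖ - β)]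
  refine (sum_le_sum fun g _ => h1 _).trans ?_
  rw [sum_comm]
  refine (sum_le_sum fun i _ => h2 i).trans (le_of_eq ?_)
  simp

end pf

theorem hs_conv {G : Type} [Group G] [Fintype G] [DecidableEq G]
    (Z : Module.End ℝ (EuclideanSpace ℝ G)) (hZ : ∀ g, Rr G g * Z = Z * Rr G g) :
    ∑ g, ‖Z (EuclideanSpace.single g 1)‖ ^ 2
      = Fintype.card G * ‖Z (EuclideanSpace.single 1 1)‖ ^ 2 := by
  rw [← nsmul_eq_mul, ← card_univ, ← sum_const]
  refine sum_congr rfl fun g _ => ?_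
  have : Rr G g (EuclideanSpace.single g (1 : ℝ)) = EuclideanSpace.single 1 1 := by
    ext x
    simp [Rr_apply]
  rw [← this, ← Module.End.mul_apply, ← hZ, Module.End.mul_apply, Rr_orth.norm]

variable {d : ℕ}

theorem Rr_Aop (g : Perm (Q d)) : Rr _ g * Aop d (Lr _) = Aop d (Lr _) * Rr _ g := by
  unfold Aop
  simp only [End_mul_Ex, Ex_mul_End, Rr_Lr]

theorem Rr_Bop (g : Perm (Q d)) : Rr _ g * Bop d (Lr _) = Bop d (Lr _) * Rr _ g := by
  unfold Bop
  simp only [End_mul_Ex, Ex_mul_End, Rr_Lr]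

theorem block {k : ℕ} (hk : 0 < k) (hn : k ≤ Fintype.card (Q d)) {c : ℝ} (hc : 0 < c) (hc1 : c ≤ 1)
    (Pk : Module.End ℝ (EuclideanSpace ℝ (Perm (Q d)))) (hPk : ∀ v, ‖Pk v‖ ≤ ‖v‖)
    (hL : ∀ g, Lr _ g * Pk = Pk * Lr _ g) (hR : ∀ g, Rr _ g * Pk = Pk * Rr _ g)
    (hE : ∀ v, Pk v ≠ 0 →
      ⟪Pk v, Lap (Lr _) (Pk v)⟫ < ((k : ℝ) + 1) / 2 * ‖Pk v‖ ^ 2 ∨ Fintype.card (Q d) ≤ k)
    (hA : ∀ v, ‖Aop d (Lr _) (Pk v)‖ ^ 2
      ≤ Real.exp (-(c * (k * (1 + Real.log (Fintype.card (Q d) / k))))) * ‖Pk v‖ ^ 2)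
    (g0 : Perm (Q d)) (r : ℕ) {s : ℝ} (hs : 1 ≤ s) (hr : 2 * s + 600000 ≤ c * r) :
    √(Fintype.card (Perm (Q d))) * ‖((Lr _ g0 * Aop d (Lr _)) ^ r)
      (Pk (EuclideanSpace.single 1 1))‖ ≤ (2 * r + 1) * Real.exp (-(k * s)) := by
  classical
  set Ψ : ℝ := k * (1 + Real.log (Fintype.card (Q d) / k)) with hΨ
  have hk' : (1 : ℝ) ≤ k := by exact_mod_cast hk
  have hΨk : (k : ℝ) ≤ Ψ := by
    have : 0 ≤ Real.log ((Fintype.card (Q d) : ℝ) / k) :=
      Real.log_nonneg (by rw [le_div_iff₀ (by linarith), one_mul]; exact_mod_cast hn)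
    nlinarith
  have hΨ0 : 0 < Ψ := by linarith
  set N : ℝ := (Fintype.card (Perm (Q d)) : ℝ) with hN
  have hN1 : 1 ≤ N := by rw [hN]; exact_mod_cast Fintype.card_pos
  have hB := Bop_symm (d := d) Lr_orth
  obtain ⟨sB⟩ := exists_spec hB
  set A' := Lr _ g0 * Aop d (Lr _) with hA'
  set v0 := Pk (EuclideanSpace.single 1 1) with hv0
  have nA : ∀ y, ‖A' y‖ ^ 2 = ⟪y, Bop d (Lr _) y⟫ := fun y => by
    rw [hA', Module.End.mul_apply, Lr_orth.norm, Aop_norm_sq Lr_orth]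
  let β : ℕ → ℝ := fun t => Real.exp (-((t + 1) * (c * Ψ) / 2))
  have β0 : ∀ t, 0 ≤ β t := fun t => (Real.exp_pos _).le
  have β2 : ∀ t, β t ^ 2 = Real.exp (-((t + 1) * (c * Ψ))) := fun t => by
    rw [← Real.exp_nat_mul]
    congr 1
    push_cast
    ring
  have βm : ∀ t, β (t + 1) ≤ β t := fun t => Real.exp_le_exp.2 (by
    push_cast
    nlinarith [mul_pos hc (show 0 < Ψ by linarith)])
  let F : ℕ → Finset ℝ := fun t => sB.X.filter fun x => x ≤ β t ^ 2
  have hF : ∀ t, F t ⊆ sB.X := fun t => filter_subset _ _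
  have hFF : ∀ t, F (t + 1) ⊆ F t := fun t x hx => mem_filter.2 ⟨(mem_filter.1 hx).1,
    (mem_filter.1 hx).2.trans (pow_le_pow_left₀ (β0 _) (βm t) 2)⟩
  let X : ℕ → Module.End ℝ (EuclideanSpace ℝ (Perm (Q d))) := fun t => A' * sB.pF (F t)
  have nF : ∀ t, ∀ F' ⊆ F t, ∀ y, ‖A' (sB.pF F' y)‖ ≤ β t * ‖sB.pF F' y‖ := by
    intro t F' hF' y
    refine (pow_le_pow_iff_left₀ (norm_nonneg _) (mul_nonneg (β0 t) (norm_nonneg _))
      two_ne_zero).1 ?_
    rw [nA, mul_pow]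
    exact sB.pF_T_le hB (hF'.trans (hF t)) (fun x hx => (mem_filter.1 (hF' hx)).2) y
  have nX : ∀ t y, ‖X t y‖ ≤ β t * ‖y‖ := fun t y =>
    (nF t _ Subset.rfl y).trans (mul_le_mul_of_nonneg_left (sB.pF_le hB (hF t) y) (β0 t))
  let W := LinearMap.range Pk
  have WL : ∀ g, ∀ v ∈ W, Lr _ g v ∈ W := by
    rintro g _ ⟨v, rfl⟩
    exact ⟨Lr _ g v, by rw [← Module.End.mul_apply, ← hL, Module.End.mul_apply]⟩
  have WR : ∀ g, ∀ v ∈ W, Rr _ g v ∈ W := by
    rintro g _ ⟨v, rfl⟩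
    exact ⟨Rr _ g v, by rw [← Module.End.mul_apply, ← hR, Module.End.mul_apply]⟩
  have WB : ∀ v ∈ W, Bop d (Lr _) v ∈ W := fun v hv => Bop_mem W WL hv
  have WA : ∀ v ∈ W, A' v ∈ W := fun v hv => WL _ _ (Aop_mem W WL hv)
  have WX : ∀ t j, ∀ v ∈ W, (X t ^ j) v ∈ W := by
    intro t j v hv
    induction j with
    | zero => exact hv
    | succ j ih => rw [pow_succ']; exact WA _ (sB.pF_mem _ W WB ih)
  have X0 : ∀ v ∈ W, X 0 v = A' v := by
    intro v hv
    refine congrArg A' ?_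
    conv_rhs => rw [← sB.sum_eq v]
    rw [sB.pF_apply]
    refine sum_subset (hF 0) fun x hx hx' => ?_
    obtain ⟨w, hw⟩ := sB.mem W WB x v hv
    have a := hA w
    rw [hw, Aop_norm_sq Lr_orth, sB.eig x hx, real_inner_smul_right,
      real_inner_self_eq_norm_sq] at a
    by_contra h0
    refine hx' (mem_filter.2 ⟨hx, ?_⟩)
    rw [β2]
    have := le_of_mul_le_mul_right a (by positivity)
    simpa using this
  have X0' : (X 0 ^ r) v0 = (A' ^ r) v0 := by
    clear hr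
    induction r with
    | zero => rfl
    | succ r ih =>
      rw [pow_succ', pow_succ']
      exact (X0 _ (WX 0 r v0 ⟨_, rfl⟩)).trans (congrArg A' ih)
  have RP : ∀ g F', Rr _ g * sB.pF F' = sB.pF F' * Rr _ g := fun g F' => sB.pF_comm F' (Rr_Bop g)
  have RX : ∀ g t, Commute (Rr _ g) (X t) := fun g t =>
    Commute.mul_right (Commute.mul_right (Rr_Lr g g0) (Rr_Aop g)) (RP g _)
  have step : ∀ t, √N * ‖(X t ^ r) v0 - (X (t + 1) ^ r) v0‖
      ≤ r * Real.exp (-(k * s)) * Real.exp (-1) ^ t := by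
    intro t
    have hsub : F t \ F (t + 1) ⊆ sB.X := sdiff_subset.trans (hF t)
    let U := W.map (sB.pF (F t \ F (t + 1)))
    have rk := rank_low hk hn ((t + 2) * (c * Ψ)) U (by
        rintro g _ ⟨w, hw, rfl⟩
        exact ⟨Rr _ g w, WR g w hw, by rw [← Module.End.mul_apply, ← RP, Module.End.mul_apply]⟩)
      (by
        rintro _ ⟨w, hw, rfl⟩ hne
        obtain ⟨w', hw'⟩ := sB.pF_mem (F t \ F (t + 1)) W WB hw
        rw [← hw'] at hne ⊢
        exact hE w' hne)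
      (by
        rintro _ ⟨w, hw, rfl⟩
        refine sB.pF_T_ge hB hsub (fun x hx => ?_) w
        have a : ¬ x ≤ β (t + 1) ^ 2 := fun h =>
          (mem_sdiff.1 hx).2 (mem_filter.2 ⟨hsub hx, h⟩)
        rw [β2] at a
        refine le_trans (le_of_eq ?_) (not_le.1 a).le
        congr 2
        push_cast
        ring)
    rw [← hΨ] at rk
    have rk' : (finrank ℝ U : ℝ) ≤ Real.exp (300000 * ((t + 1) * Ψ)) ^ 2 := by
      rw [← Real.exp_nat_mul]
      refine rk.trans (Real.exp_le_exp.2 ?_)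
      have t0 : (0 : ℝ) ≤ t := Nat.cast_nonneg t
      have a : c * Ψ ≤ Ψ := by nlinarith
      have b := mul_le_mul_of_nonneg_left a (show 0 ≤ (t : ℝ) + 2 by linarith)
      push_cast
      nlinarith [mul_nonneg t0 (show 0 ≤ Ψ by linarith)]
    have tl := tele (X t) (X (t + 1)) (sB.pF (F t \ F (t + 1))) (β0 t) v0
      (ρ := Real.exp (300000 * ((t + 1) * Ψ)) / √N) (nX t) (fun y => by
        have : X t y - X (t + 1) y = A' (sB.pF (F t \ F (t + 1)) y) := by
          rw [sB.pF_apply, sum_sdiff_eq_sub (hFF t), ← sB.pF_apply, ← sB.pF_apply, map_sub]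
          rfl
        rw [this]
        exact nF t _ sdiff_subset y) (fun j => by
        have h1 := hs_bound U (X (t + 1) ^ j * Pk) (sB.pF (F t \ F (t + 1))) (β := β t ^ j)
          (fun y => ⟨_, WX _ j _ ⟨y, rfl⟩, rfl⟩) (sB.pF_inner hB hsub)
          fun y => (pow_norm_le _ (β0 t) (fun y => (nX _ y).trans
            (mul_le_mul_of_nonneg_right (βm t) (norm_nonneg _))) j _).trans
            (mul_le_mul_of_nonneg_left (hPk y) (pow_nonneg (β0 t) j))
        have h2 := hs_conv (sB.pF (F t \ F (t + 1)) * (X (t + 1) ^ j * Pk)) fun g =>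
          Commute.mul_right (RP g _) (Commute.mul_right ((RX g _).pow_right j) (hR g))
        simp only [Module.End.mul_apply] at h1 h2
        rw [h2, ← hN, ← hv0] at h1
        refine (pow_le_pow_iff_left₀ (norm_nonneg _) (by have := β0 t; positivity)
          two_ne_zero).1 ?_
        rw [mul_pow, div_pow, Real.sq_sqrt (by linarith), ← mul_div_assoc,
          le_div_iff₀ (by linarith)]
        nlinarith [mul_le_mul_of_nonneg_right rk' (sq_nonneg (β t ^ j))]) r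
    have hs0 : 0 < √N := Real.sqrt_pos.2 (by linarith)
    refine (mul_le_mul_of_nonneg_left tl hs0.le).trans ?_
    rw [mul_left_comm, mul_div_cancel₀ _ hs0.ne', mul_assoc, mul_assoc]
    refine mul_le_mul_of_nonneg_left ?_ (Nat.cast_nonneg r)
    rw [← Real.exp_nat_mul, ← Real.exp_nat_mul, ← Real.exp_add, ← Real.exp_add, Real.exp_le_exp]
    have t0 : (0 : ℝ) ≤ t := Nat.cast_nonneg t
    have a : ((t + 1) * Ψ) * (2 * s + 600000) ≤ ((t + 1) * Ψ) * (c * r) :=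
      mul_le_mul_of_nonneg_left hr (by positivity)
    have b : ((t + 1) * s) * k ≤ ((t + 1) * s) * Ψ :=
      mul_le_mul_of_nonneg_left hΨk (by positivity)
    have e : (t : ℝ) * 1 ≤ t * (k * s) := mul_le_mul_of_nonneg_left (by nlinarith) t0
    nlinarith
  have tel : ∀ T, √N * ‖(X 0 ^ r) v0‖ ≤ r * Real.exp (-(k * s)) *
      ∑ t ∈ range T, Real.exp (-1) ^ t + √N * ‖(X T ^ r) v0‖ := by
    intro T
    induction T with
    | zero => simp
    | succ T ih =>
      have a := mul_le_mul_of_nonneg_left (norm_le_norm_sub_add ((X T ^ r) v0)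
        ((X (T + 1) ^ r) v0)) (Real.sqrt_nonneg N)
      rw [sum_range_succ]
      linarith [step T]
  have h1 := tel (Fintype.card (Perm (Q d)))
  have h2 : ∑ t ∈ range (Fintype.card (Perm (Q d))), Real.exp (-1) ^ t ≤ 2 := by
    have a : Real.exp (-1) ≤ 1 / 2 := by
      rw [Real.exp_neg, one_div]
      exact inv_anti₀ (by norm_num) (by linarith [Real.add_one_le_exp (1 : ℝ)])
    refine (geo (Real.exp_pos _).le (by linarith) _).trans ?_
    rw [inv_le_comm₀ (by linarith) (by norm_num)]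
    linarith
  have h3 : √N * ‖(X (Fintype.card (Perm (Q d))) ^ r) v0‖ ≤ Real.exp (-(k * s)) := by
    have a := pow_norm_le _ (β0 _) (nX (Fintype.card (Perm (Q d)))) r v0
    have b : ‖v0‖ ≤ 1 := (hPk _).trans (by simp)
    have e : √N ≤ Real.exp N := by
      refine le_trans ?_ (Real.add_one_le_exp N)
      rw [Real.sqrt_le_left (by linarith)]
      nlinarith
    refine (mul_le_mul e (a.trans (mul_le_of_le_one_right (pow_nonneg (β0 _) r) b))
      (norm_nonneg _) (Real.exp_pos _).le).trans ?_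
    rw [← Real.exp_nat_mul, ← Real.exp_add, Real.exp_le_exp, ← hN]
    have a : ((N + 1) * Ψ) * (2 * s + 600000) ≤ ((N + 1) * Ψ) * (c * r) :=
      mul_le_mul_of_nonneg_left hr (by positivity)
    have b : ((N + 1) * s) * k ≤ ((N + 1) * s) * Ψ :=
      mul_le_mul_of_nonneg_left hΨk (by positivity)
    have e : N * 1 ≤ N * (k * s) := mul_le_mul_of_nonneg_left (by nlinarith) (by linarith)
    nlinarith [mul_nonneg (show 0 ≤ N + 1 by linarith) (show 0 ≤ Ψ by linarith)]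
  rw [← X0']
  have h4 := mul_le_mul_of_nonneg_left h2
    (show 0 ≤ r * Real.exp (-(k * s)) by positivity)
  linarith

theorem mixing : ∃ r : ℕ, ∀ (d : ℕ) (g0 : Perm (Q d)),
    ∑ g, |((Lr _ g0 * Aop d (Lr _)) ^ r) (EuclideanSpace.single 1 1) g
      - (Fintype.card (Perm (Q d)) : ℝ)⁻¹| ≤ 1 / 2 := by
  classical
  obtain ⟨c, hc, hc1, hop⟩ := opnorm
  obtain ⟨r, s, hs, hr, hrs⟩ : ∃ (r : ℕ) (s : ℝ), 1 ≤ s ∧ 2 * s + 600000 ≤ c * r ∧
      (2 * r + 1) * Real.exp (-s) ≤ 1 / 4 := by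
    obtain ⟨r, hr⟩ := exists_nat_ge (max (2400000 / c) (1000 / c ^ 2))
    have h1 := (div_le_iff₀ hc).1 ((le_max_left _ _).trans hr)
    have h2 := (div_le_iff₀ (by positivity)).1 ((le_max_right _ _).trans hr)
    refine ⟨r, c * r / 4, by linarith, by linarith, ?_⟩
    have h3 := Real.pow_div_factorial_le_exp (c * r / 4) (by positivity) 2
    have h4 : (1 : ℝ) ≤ r := by nlinarith
    rw [Real.exp_neg, ← div_eq_mul_inv, div_le_iff₀ (Real.exp_pos _)]
    norm_num [Nat.factorial] at h3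
    nlinarith
  refine ⟨r, fun d g0 => ?_⟩
  have hT := Lap_symm (Lr_orth (G := Perm (Q d)))
  obtain ⟨sL⟩ := exists_spec hT
  set n := Fintype.card (Q d) with hn
  have hn0 : 0 < n := Fintype.card_pos
  let F : ℕ → Finset ℝ := fun k => sL.X.filter fun l => min ⌊2 * l⌋₊ n = k
  have hF : ∀ k, F k ⊆ sL.X := fun k => filter_subset _ _
  set δ : EuclideanSpace ℝ (Perm (Q d)) := EuclideanSpace.single 1 1 with hδ
  set A' := Lr _ g0 * Aop d (Lr _) with hA'
  have dec : δ = ∑ k ∈ range n, sL.pF (F (k + 1)) δ + sL.pF (F 0) δ := by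
    rw [← sum_range_succ' fun k => sL.pF (F k) δ]
    simp only [SpecData.pF_apply]
    rw [sum_fiberwise_of_maps_to fun l _ => mem_range.2 (by omega), sL.sum_eq]
  have inv0 : ∀ l ∈ F 0, ∀ g, Lr _ g (sL.p l δ) = sL.p l δ := by
    intro l hl g
    obtain ⟨h1, h2⟩ := mem_filter.1 hl
    by_cases h0 : sL.p l δ = 0
    · rw [h0, map_zero]
    have h3 := sL.eig l h1 δ
    have hl0 : l = 0 := by
      by_contra h4
      have := half_le_eig Lr_orth h3 h0 h4
      have : 1 ≤ ⌊2 * l⌋₊ := Nat.le_floor (by push_cast; linarith)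
      omega
    have h5 := EE_inner_of_eig h3
    rw [hl0] at h5 ⊢
    simp only [mul_zero, zero_mul] at h5
    refine Inv.fix (S := ∅) (fun a _ b _ => ?_) g (by simp)
    have h6 := (sum_eq_zero_iff_of_nonneg fun j _ => ee_nonneg Lr_orth a j _).1
      ((sum_eq_zero_iff_of_nonneg fun i _ => sum_nonneg fun j _ =>
        ee_nonneg Lr_orth i j _).1 h5 a (mem_univ _)) b (mem_univ _)
    have h7 := ee_norm_sq Lr_orth a b (sL.p 0 δ)
    rw [h6, mul_zero, sq_eq_zero_iff, norm_eq_zero, ee_apply, sub_eq_zero] at h7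
    exact h7.symm
  have inv1 : ∀ g, Lr _ g (sL.pF (F 0) δ) = sL.pF (F 0) δ := fun g => by
    rw [sL.pF_apply, map_sum]
    exact sum_congr rfl fun l hl => inv0 l hl g
  have u0 : ∀ x, sL.pF (F 0) δ x = (Fintype.card (Perm (Q d)) : ℝ)⁻¹ := by
    have a : (Ex fun g => Lr _ g δ) = sL.pF (F 0) δ := by
      conv_lhs => rw [dec]
      simp only [map_add, inv1, Ex_add, Ex_const, sL.pF_apply (F (_ + 1)), map_sum, Ex_sum]
      rw [sum_eq_zero, zero_add]
      refine fun k _ => sum_eq_zero fun l hl => Ex_rep_eq_zero (sL.eig l (hF _ hl) δ) ?_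
      rintro rfl
      simpa using (mem_filter.1 hl).2
    intro x
    rw [← a, Ex_coord]
    simp [Ex, Lr_apply, hδ, inv_mul_eq_one]
  have fix : (A' ^ r) (sL.pF (F 0) δ) = sL.pF (F 0) δ := by
    have : A' (sL.pF (F 0) δ) = (1 : ℝ) • sL.pF (F 0) δ := by
      rw [hA', Module.End.mul_apply, one_smul]
      unfold Aop
      simp only [Ex_apply, inv1, Ex_const]
    simpa using pow_eig this r
  have e1 : ∀ g, (A' ^ r) δ g - (Fintype.card (Perm (Q d)) : ℝ)⁻¹
      = (∑ k ∈ range n, (A' ^ r) (sL.pF (F (k + 1)) δ)) g := by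
    intro g
    conv_lhs => rw [dec, map_add, fix, map_sum, PiLp.add_apply, u0]
    ring
  simp only [e1]
  set w := ∑ k ∈ range n, (A' ^ r) (sL.pF (F (k + 1)) δ) with hw
  have e2 : ∑ g, |w g| ≤ √(Fintype.card (Perm (Q d))) * ‖w‖ := by
    refine (pow_le_pow_iff_left₀ (sum_nonneg fun _ _ => abs_nonneg _) (by positivity)
      two_ne_zero).1 (sq_sum_le_card_mul_sum_sq.trans (le_of_eq ?_))
    rw [mul_pow, Real.sq_sqrt (by positivity), EuclideanSpace.real_norm_sq_eq, card_univ]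
    simp only [sq_abs]
  refine e2.trans ((mul_le_mul_of_nonneg_left (norm_sum_le _ _) (Real.sqrt_nonneg _)).trans ?_)
  rw [mul_sum]
  have e3 : ∀ k ∈ range n, √(Fintype.card (Perm (Q d))) * ‖(A' ^ r) (sL.pF (F (k + 1)) δ)‖
      ≤ (2 * r + 1) * Real.exp (-s) * Real.exp (-s) ^ k := by
    intro k hk
    have hk := mem_range.1 hk
    have lo : ∀ l ∈ F (k + 1), ((k + 1 : ℕ) : ℝ) ≤ 2 * l := by
      intro l hl
      have a := (mem_filter.1 hl).2
      exact (Nat.le_floor_iff' (by omega)).1 (by omega)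
    refine (block (k := k + 1) (by omega) hk hc hc1 (sL.pF (F (k + 1))) (sL.pF_le hT (hF _))
      (fun g => sL.pF_comm _ (Lap_comm g)) (fun g => sL.pF_comm _ ?_) (fun v hv => ?_)
      (fun v => ?_) g0 r hs hr).trans (le_of_eq ?_)
    · rw [← Lap_LR]
      exact Lap_comm g
    · by_cases h : n ≤ k + 1
      · exact Or.inr h
      refine Or.inl ?_
      have hi : ∀ l ∈ F (k + 1), l < (((k + 1 : ℕ) : ℝ) + 1) / 2 := by
        intro l hl
        have a := (mem_filter.1 hl).2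
        have b : ⌊2 * l⌋₊ = k + 1 := by omega
        have := Nat.lt_floor_add_one (2 * l)
        rw [b] at this
        linarith
      obtain ⟨l, hl, h0⟩ : ∃ l ∈ F (k + 1), sL.p l v ≠ 0 := by
        by_contra hcon
        push Not at hcon
        exact hv (by rw [sL.pF_apply]; exact sum_eq_zero hcon)
      rw [sL.pF_T hT (hF _), sL.pF_norm hT (hF _), mul_sum]
      refine sum_lt_sum (fun x hx => ?_) ⟨l, hl, ?_⟩
      · nlinarith [hi x hx, sq_nonneg ‖sL.p x v‖]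
      · have : 0 < ‖sL.p l v‖ ^ 2 := by positivity
        nlinarith [hi l hl]
    · have cm : Aop d (Lr _) * Lap (Lr _) = Lap (Lr (Perm (Q d))) * Aop d (Lr _) := by
        unfold Aop
        simp only [End_mul_Ex, Ex_mul_End, Lap_comm]
      rw [← Module.End.mul_apply, sL.pF_comm _ cm, Module.End.mul_apply, sL.pF_norm hT (hF _),
        sL.pF_norm hT (hF _), mul_sum]
      refine sum_le_sum fun l hl => ?_
      rw [← Module.End.mul_apply, ← sL.comm _ cm, Module.End.mul_apply]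
      have := hop d _ (Lr _) Lr_orth ((k + 1 : ℕ) : ℝ) l _ (by positivity) (lo l hl)
        (sL.eig l (hF _ hl) v)
      rwa [show (2 : ℝ) ^ d = n by rw [hn, card_Q]; push_cast; rfl] at this
    · rw [mul_assoc, ← pow_succ', ← Real.exp_nat_mul, mul_neg]
  refine (sum_le_sum e3).trans ?_
  rw [← mul_sum]
  have a : Real.exp (-s) ≤ 1 / 2 := by
    rw [Real.exp_neg, one_div]
    exact inv_anti₀ (by norm_num) (by linarith [Real.add_one_le_exp s])
  have b : ∑ t ∈ range n, Real.exp (-s) ^ t ≤ 2 := by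
    refine (geo (Real.exp_pos _).le (by linarith) _).trans ?_
    rw [inv_le_comm₀ (by linarith) (by norm_num)]
    linarith
  have := mul_le_mul hrs b (sum_nonneg fun _ _ => by positivity) (by norm_num)
  linarith

end Vale.Agent.P162
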