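import Vale.Agent.P162.Joint

/-! Butterfly and Benes networks on the cube: minorisation and a Kraft inequality. -/

namespace Vale.Agent.P162

open Finset Equiv

open Classical in
/-- indicator -/
noncomputable def ind (P : Prop) : ℝ := if P then 1 else 0

theorem ind_pos {P : Prop} (h : P) : ind P = 1 := if_pos h
theorem ind_neg {P : Prop} (h : ¬ P) : ind P = 0 := if_neg h
theorem ind_nonneg (P : Prop) : 0 ≤ ind P := by unfold ind; split_ifs <;> norm_num
theorem ind_le_one (P : Prop) : ind P ≤ 1 := by unfold ind; split_ifs <;> norm_num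
theorem ind_and (P Q : Prop) : ind (P ∧ Q) = ind P * ind Q := by
  by_cases h1 : P <;> by_cases h2 : Q <;> simp [ind, h1, h2]
theorem ind_congr {P Q : Prop} (h : P ↔ Q) : ind P = ind Q := by rw [propext h]

section gen
variable {U : Type} [Fintype U] [DecidableEq U]

/-- closed under flipping the top bit -/
def Closed (T : Finset (U × Bool)) : Prop := ∀ x ∈ T, (x.1, !x.2) ∈ T

theorem aT_not_closed {T : Finset (U × Bool)} (h : ¬ Closed T) :
    (Ex fun s : U → Bool => ∏ x ∈ T, sg (sw s x).2) = 0 := by
  unfold Closed at h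
  push Not at h
  obtain ⟨x0, hx0, hx1⟩ := h
  have e := Ex_equiv (xorE fun v => decide (v = x0.1)) fun s : U → Bool => ∏ x ∈ T, sg (sw s x).2
  have e2 : ∀ s : U → Bool, ∏ x ∈ T, sg (sw (xorE (fun v => decide (v = x0.1)) s) x).2
      = -1 * ∏ x ∈ T, sg (sw s x).2 := by
    intro s
    have : ∀ x : U × Bool, sg (sw (xorE (fun v => decide (v = x0.1)) s) x).2
        = sg (decide (x.1 = x0.1)) * sg (sw s x).2 := by
      intro x
      change sg (xor x.2 (xor (decide (x.1 = x0.1)) (s x.1))) = _
      simp only [sw_apply, sg_xor]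
      ring
    simp only [this, prod_mul_distrib]
    congr 1
    rw [prod_eq_single x0 (fun y hy hne => ?_) (fun h => absurd hx0 h)]
    · simp
    · have : y.1 ≠ x0.1 := by
        intro h
        obtain ⟨a, b⟩ := y
        obtain ⟨c, b'⟩ := x0
        simp only at h
        subst h
        clear e this
        cases b <;> cases b' <;> simp_all
      simp [this]
  simp only [e2] at e
  rw [Ex_mul_left] at e
  linarith

omit [Fintype U] [DecidableEq U] in
theorem prod_closed {T : Finset (U × Bool)} (h : Closed T) (s : U → Bool) :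
    ∏ x ∈ T, sg (sw s x).2 = (-1) ^ (T.card / 2) := by
  simp only [sw_apply, sg_xor, prod_mul_distrib]
  have e1 : ∏ x ∈ T, sg (s x.1) = 1 :=
    prod_involution (fun x _ => (x.1, !x.2)) (fun x _ => sg_mul_self _)
      (fun x _ _ h => by simpa using congrArg Prod.snd h) (fun x hx => h x hx)
      (fun x _ => by simp)
  have e2 : ∏ x ∈ T, sg x.2 = (-1) ^ (T.filter fun x => x.2 = true).card := by
    unfold sg
    rw [prod_ite, prod_const, prod_const_one, mul_one]
  have e3 : (T.filter fun x => x.2 = true).card = (T.filter fun x => ¬ x.2 = true).card := by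
    refine card_bij' (fun x _ => (x.1, !x.2)) (fun x _ => (x.1, !x.2)) ?_ ?_ ?_ ?_
    · intro x hx
      obtain ⟨h1, h2⟩ := mem_filter.1 hx
      exact mem_filter.2 ⟨h x h1, by simp [h2]⟩
    · intro x hx
      obtain ⟨h1, h2⟩ := mem_filter.1 hx
      exact mem_filter.2 ⟨h x h1, by simpa using h2⟩
    · intro x _; simp
    · intro x _; simp
  have e4 := card_filter_add_card_filter_not (s := T) (fun x => x.2 = true)
  rw [e1, e2, mul_one]
  congr 1
  omega

/-- consistency of an input and an output layer -/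
def Cons (X : Finset (U × Bool)) (τ : U × Bool → U × Bool) (s s' : U → Bool) : Prop :=
  ∀ x ∈ X, (sw s x).2 = (sw s' (τ x)).2

open Classical in
/-- number of doubly closed subsets -/
noncomputable def kappa (X : Finset (U × Bool)) (τ : U × Bool → U × Bool) : ℕ :=
  (X.powerset.filter fun T => Closed T ∧ Closed (T.image τ)).card

omit [Fintype U] in
theorem kappa_pos (X : Finset (U × Bool)) (τ : U × Bool → U × Bool) : 1 ≤ kappa X τ := by
  classical
  refine card_pos.2 ⟨∅, mem_filter.2 ⟨empty_mem_powerset _, ?_, ?_⟩⟩ <;> simp [Closed]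

theorem cons_prob (X : Finset (U × Bool)) (τ : U × Bool → U × Bool) (hτ : Set.InjOn τ X) :
    (Ex fun s : U → Bool => Ex fun s' : U → Bool => ind (Cons X τ s s'))
      = (1 / 2) ^ X.card * kappa X τ := by
  have e1 : ∀ s s' : U → Bool, ind (Cons X τ s s') = (1 / 2) ^ X.card *
      ∑ T ∈ X.powerset, (∏ x ∈ T, sg (sw s x).2) * ∏ y ∈ T.image τ, sg (sw s' y).2 := by
    intro s s'
    have : ∑ T ∈ X.powerset, (∏ x ∈ T, sg (sw s x).2) * ∏ y ∈ T.image τ, sg (sw s' y).2
        = ∏ x ∈ X, (1 + sg (sw s x).2 * sg (sw s' (τ x)).2) := by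
      rw [prod_one_add]
      refine sum_congr rfl fun T hT => ?_
      rw [prod_image (hτ.mono (mem_powerset.1 hT)), prod_mul_distrib]
    rw [this, ← prod_const, ← prod_mul_distrib]
    by_cases h : Cons X τ s s'
    · rw [ind_pos h]
      refine (prod_eq_one fun x hx => ?_).symm
      rw [h x hx, sg_mul_self]
      norm_num
    · rw [ind_neg h]
      unfold Cons at h
      push Not at h
      obtain ⟨x, hx, hne⟩ := h
      refine (prod_eq_zero hx ?_).symm
      revert hne
      cases (sw s x).2 <;> cases (sw s' (τ x)).2 <;> simp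
  simp only [e1, Ex_mul_left, Ex_sum, Ex_mul_right]
  congr 1
  unfold kappa
  rw [card_filter]
  push_cast
  refine sum_congr rfl fun T hT => ?_
  split_ifs with h
  · simp only [prod_closed h.1, prod_closed h.2, Ex_const]
    rw [card_image_of_injOn (hτ.mono (mem_powerset.1 hT)), ← mul_pow]
    norm_num
  · rcases not_and_or.1 h with h | h
    · rw [aT_not_closed h, zero_mul]
    · rw [aT_not_closed h, mul_zero]

/-- acting on both halves -/
def pair (α β : Perm U) : Perm (U × Bool) := inc false α * inc true β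

omit [Fintype U] [DecidableEq U] in
theorem pair_apply (α β : Perm U) (u : U) (b : Bool) :
    pair α β (u, b) = ((if b then β else α) u, b) := by
  cases b <;> simp [pair, inc_apply]

omit [Fintype U] [DecidableEq U] in
theorem ben_apply (α β α' β' : Perm U) (s s' : U → Bool) (u : U) (b : Bool) :
    ((pair α' β' * sw s')⁻¹ * (pair α β * sw s)) (sw s (u, b))
      = sw s' ((if b then β'⁻¹ * β else α'⁻¹ * α) u, b) := by
  rw [Perm.mul_apply, Perm.inv_eq_iff_eq, Perm.mul_apply, Perm.mul_apply, sw_sw, sw_sw,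
    pair_apply, pair_apply]
  cases b <;> simp

/-- the cards routed to one half -/
def half (X : Finset (U × Bool)) (s : U → Bool) (b : Bool) : Finset U :=
  univ.filter fun u => sw s (u, b) ∈ X

theorem mem_half {X : Finset (U × Bool)} {s : U → Bool} {b : Bool} {u : U} :
    u ∈ half X s b ↔ sw s (u, b) ∈ X := by
  simp only [half, mem_filter, mem_univ, true_and]

theorem card_half (X : Finset (U × Bool)) (s : U → Bool) :
    (half X s false).card + (half X s true).card = X.card := by
  have h : X.card = ∑ x : U × Bool, if sw s x ∈ X then 1 else 0 := by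
    rw [Equiv.sum_comp (sw s) fun x => if x ∈ X then 1 else 0, ← card_filter]
    congr 1
    ext x
    simp
  rw [h, Fintype.sum_prod_type_right, Fintype.sum_bool, add_comm]
  unfold half
  rw [card_filter, card_filter]

/-- induced target in one half -/
def tgt (τ : U × Bool → U × Bool) (s s' : U → Bool) (b : Bool) (u : U) : U :=
  (sw s' (τ (sw s (u, b)))).1

theorem ben_iff (X : Finset (U × Bool)) (τ : U × Bool → U × Bool) (α β α' β' : Perm U)
    (s s' : U → Bool) :
    (∀ x ∈ X, ((pair α' β' * sw s')⁻¹ * (pair α β * sw s)) x = τ x) ↔ Cons X τ s s' ∧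
      (∀ u ∈ half X s false, (α'⁻¹ * α) u = tgt τ s s' false u) ∧
      (∀ u ∈ half X s true, (β'⁻¹ * β) u = tgt τ s s' true u) := by
  constructor
  · intro h
    have key : ∀ u b, sw s (u, b) ∈ X →
        sw s' (τ (sw s (u, b))) = ((if b then β'⁻¹ * β else α'⁻¹ * α) u, b) := by
      intro u b hu
      rw [← h _ hu, ben_apply, sw_sw]
    refine ⟨fun x hx => ?_, fun u hu => ?_, fun u hu => ?_⟩
    · have := key (sw s x).1 (sw s x).2 (by rwa [Prod.mk.eta, sw_sw])
      rw [Prod.mk.eta, sw_sw] at this
      rw [this]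
    · unfold tgt
      rw [key u false (mem_half.1 hu)]
      rfl
    · unfold tgt
      rw [key u true (mem_half.1 hu)]
      rfl
  · rintro ⟨h1, h2, h3⟩ x hx
    obtain ⟨⟨u, b⟩, rfl⟩ : ∃ y, x = sw s y := ⟨sw s x, (sw_sw s x).symm⟩
    rw [ben_apply, ← sw_sw s' (τ _)]
    congr 1
    have := h1 _ hx
    rw [sw_sw] at this
    refine Prod.ext ?_ this
    cases b
    · exact h2 u (mem_half.2 hx)
    · exact h3 u (mem_half.2 hx)

theorem tgt_inj {X : Finset (U × Bool)} {τ : U × Bool → U × Bool} (hτ : Set.InjOn τ X)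
    {s s' : U → Bool} (h : Cons X τ s s') (b : Bool) :
    Set.InjOn (tgt τ s s' b) (half X s b) := by
  intro u hu v hv huv
  have hu' := mem_half.1 hu
  have hv' := mem_half.1 hv
  have a1 := h _ hu'
  have a2 := h _ hv'
  rw [sw_sw] at a1 a2
  have : sw s' (τ (sw s (u, b))) = sw s' (τ (sw s (v, b))) := Prod.ext huv (a1.symm.trans a2)
  have := (sw s).injective (hτ hu' hv' ((sw s').injective this))
  exact congrArg Prod.fst this

/-- number of invariant subsets -/
def invc (π : Perm U) (X : Finset U) : ℕ := (X.powerset.filter fun I => I.image π = I).card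

omit [Fintype U] in
theorem invc_pos (π : Perm U) (X : Finset U) : 1 ≤ invc π X :=
  card_pos.2 ⟨∅, mem_filter.2 ⟨empty_mem_powerset _, by simp⟩⟩

theorem kappa_le (X : Finset (U × Bool)) (τ : U × Bool → U × Bool) (α β : Perm U)
    (s s' : U → Bool) (h : ∀ u b, sw s (u, b) ∈ X →
      τ (sw s (u, b)) = sw s' ((if b then β else α) u, b)) :
    kappa X τ ≤ invc (β⁻¹ * α) (half X s false) := by
  classical
  have cl : ∀ T : Finset (U × Bool), Closed T → ∀ u b c, (u, b) ∈ T → (u, c) ∈ T := by
    intro T hT u b c hu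
    by_cases hbc : b = c
    · exact hbc ▸ hu
    · have := hT _ hu
      cases b <;> cases c <;> simp_all
  refine card_le_card_of_injOn (fun T => univ.filter fun u => (u, false) ∈ T) ?_ ?_
  · intro T hT
    obtain ⟨h1, h2, h3⟩ := mem_filter.1 hT
    have h1 := mem_powerset.1 h1
    refine mem_filter.2 ⟨mem_powerset.2 fun u hu => ?_, ?_⟩
    · exact mem_half.2 (h1 (cl T h2 u _ _ (mem_filter.1 hu).2))
    · refine eq_of_subset_of_card_le (fun v hv => ?_)
        (card_image_of_injective _ (β⁻¹ * α).injective).ge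
      obtain ⟨u, hu, rfl⟩ := mem_image.1 hv
      have hu := (mem_filter.1 hu).2
      have a1 : sw s (u, false) ∈ T := cl T h2 u _ _ hu
      have a2 : τ (sw s (u, false)) ∈ T.image τ := mem_image_of_mem _ a1
      rw [h u false (h1 a1)] at a2
      have a3 : sw s' (α u, true) ∈ T.image τ := cl _ h3 (α u) _ _ a2
      obtain ⟨y, hy, e⟩ := mem_image.1 a3
      obtain ⟨⟨w, c⟩, rfl⟩ : ∃ z, y = sw s z := ⟨sw s y, (sw_sw s y).symm⟩
      rw [h w c (h1 hy)] at e
      have e' := (sw s').injective e
      obtain ⟨e1, rfl⟩ := Prod.mk.inj e'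
      refine mem_filter.2 ⟨mem_univ _, ?_⟩
      have : (β⁻¹ * α) u = w := by
        rw [Perm.mul_apply, Perm.inv_eq_iff_eq]
        simpa using e1.symm
      rw [this]
      exact cl T h2 w _ _ hy
  · intro T hT T' hT' e
    have h2 := (mem_filter.1 hT).2.1
    have h2' := (mem_filter.1 hT').2.1
    have e' : ∀ u, (u, false) ∈ T ↔ (u, false) ∈ T' := fun u => by
      have := congrArg (fun S => u ∈ S) e
      simpa using this
    ext ⟨u, b⟩
    exact ⟨fun hu => cl T' h2' u _ _ ((e' u).1 (cl T h2 u _ _ hu)),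
      fun hu => cl T h2 u _ _ ((e' u).2 (cl T' h2' u _ _ hu))⟩

end gen

/-- the cube -/
def Q : ℕ → Type
  | 0 => Unit
  | d + 1 => Q d × Bool

instance instFintypeQ : (d : ℕ) → Fintype (Q d)
  | 0 => inferInstanceAs (Fintype Unit)
  | d + 1 => @instFintypeProd _ _ (instFintypeQ d) _

instance instDecEqQ : (d : ℕ) → DecidableEq (Q d)
  | 0 => inferInstanceAs (DecidableEq Unit)
  | d + 1 => @instDecidableEqProd _ _ (instDecEqQ d) _

instance instNonemptyQ : (d : ℕ) → Nonempty (Q d)
  | 0 => inferInstanceAs (Nonempty Unit)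
  | d + 1 => (instNonemptyQ d).elim fun u => ⟨(u, false)⟩

theorem card_Q (d : ℕ) : Fintype.card (Q d) = 2 ^ d := by
  induction d with
  | zero => rfl
  | succ d ih =>
    rw [pow_succ, ← ih]
    exact (Fintype.card_prod (Q d) Bool).trans (by rw [Fintype.card_bool])

/-- the switches -/
def Sw : ℕ → Type
  | 0 => Empty
  | d + 1 => Q d ⊕ (Bool × Sw d)

instance instFintypeSw : (d : ℕ) → Fintype (Sw d)
  | 0 => inferInstanceAs (Fintype Empty)
  | d + 1 => @instFintypeSum _ _ _ (@instFintypeProd _ _ _ (instFintypeSw d))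

instance instDecEqSw : (d : ℕ) → DecidableEq (Sw d)
  | 0 => inferInstanceAs (DecidableEq Empty)
  | d + 1 => @instDecidableEqSum _ _ _ (@instDecidableEqProd _ _ _ (instDecEqSw d))

/-- top layer -/
def top {d : ℕ} (ω : Sw (d + 1) → Bool) : Q d → Bool := fun u => ω (Sum.inl u)

/-- subnetwork -/
def sub {d : ℕ} (ω : Sw (d + 1) → Bool) (b : Bool) : Sw d → Bool := fun σ => ω (Sum.inr (b, σ))

/-- splitting of the settings -/
def splitE (d : ℕ) : (Q d → Bool) × (Sw d → Bool) × (Sw d → Bool) ≃ (Sw (d + 1) → Bool) where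
  toFun p := Sum.elim p.1 fun x => if x.1 then p.2.2 x.2 else p.2.1 x.2
  invFun ω := (top ω, sub ω false, sub ω true)
  left_inv _ := rfl
  right_inv ω := by
    ext σ
    rcases σ with u | ⟨b, σ⟩
    · rfl
    · cases b <;> rfl

theorem Ex_split {M : Type} [AddCommGroup M] [Module ℝ M] {d : ℕ}
    (F : (Q d → Bool) → (Sw d → Bool) → (Sw d → Bool) → M) :
    (Ex fun ω : Sw (d + 1) → Bool => F (top ω) (sub ω false) (sub ω true))
      = Ex fun s => Ex fun a => Ex fun b => F s a b := by
  rw [← Ex_equiv (splitE d), Ex_prod]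
  refine Ex_congr fun s => ?_
  rw [Ex_prod]
  rfl

/-- the butterfly permutation -/
def bf : (d : ℕ) → (Sw d → Bool) → Perm (Q d)
  | 0, _ => 1
  | d + 1, ω => (pair (bf d (sub ω false)) (bf d (sub ω true)) * sw (top ω) : Perm (Q d × Bool))

/-- the Benes permutation -/
def ben (d : ℕ) (ω ω' : Sw d → Bool) : Perm (Q d) := (bf d ω')⁻¹ * bf d ω

/-- logarithmic weight of one level -/
noncomputable def nu : (d : ℕ) → ℕ → Finset (Q d) → (Sw d → Bool) → (Sw d → Bool) → ℝ
  | 0, _, _, _, _ => 0
  | d + 1, j, X, ω, ω' =>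
    if j = d + 1 then Real.log (invc ((ben d (sub ω true) (sub ω' true))⁻¹ *
      ben d (sub ω false) (sub ω' false)) (half X (top ω) false))
    else nu d j (half X (top ω) false) (sub ω false) (sub ω' false)
      + nu d j (half X (top ω) true) (sub ω true) (sub ω' true)

/-- total logarithmic weight -/
noncomputable def Nt (d : ℕ) (X : Finset (Q d)) (ω ω' : Sw d → Bool) : ℝ :=
  ∑ j ∈ range (d + 1), nu d j X ω ω'

theorem Nt_succ (d : ℕ) (X : Finset (Q d × Bool)) (ω ω' : Sw (d + 1) → Bool) :
    Nt (d + 1) X ω ω' = Real.log (invc ((ben d (sub ω true) (sub ω' true))⁻¹ *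
      ben d (sub ω false) (sub ω' false)) (half X (top ω) false))
      + Nt d (half X (top ω) false) (sub ω false) (sub ω' false)
      + Nt d (half X (top ω) true) (sub ω true) (sub ω' true) := by
  unfold Nt
  rw [sum_range_succ, add_assoc, ← sum_add_distrib, add_comm]
  congr 1
  · exact if_pos rfl
  · exact sum_congr rfl fun j hj => if_neg (by have := mem_range.1 hj; omega)

theorem Ex_six {d : ℕ} (F : (Q d → Bool) → (Sw d → Bool) → (Sw d → Bool) →
    (Q d → Bool) → (Sw d → Bool) → (Sw d → Bool) → ℝ) :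
    (Ex fun ω : Sw (d + 1) → Bool => Ex fun ω' : Sw (d + 1) → Bool =>
      F (top ω) (sub ω false) (sub ω true) (top ω') (sub ω' false) (sub ω' true))
      = Ex fun s => Ex fun s' => Ex fun a => Ex fun a' => Ex fun b => Ex fun b' =>
        F s a b s' a' b' := by
  rw [Ex_split fun s a b => Ex fun ω' : Sw (d + 1) → Bool =>
    F s a b (top ω') (sub ω' false) (sub ω' true)]
  refine Ex_congr fun s => ?_
  have e : ∀ a b, (Ex fun ω' : Sw (d + 1) → Bool => F s a b (top ω') (sub ω' false) (sub ω' true))
      = Ex fun s' => Ex fun a' => Ex fun b' => F s a b s' a' b' := fun a b => Ex_split _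
  simp only [e]
  rw [← Ex_comm fun a s' => Ex fun a' => Ex fun b => Ex fun b' => F s a b s' a' b']
  refine Ex_congr fun a => ?_
  rw [Ex_comm]
  refine Ex_congr fun s' => ?_
  rw [Ex_comm]

theorem doeblin (d : ℕ) : ∀ (X : Finset (Q d)) (τ : Q d → Q d), Set.InjOn τ X →
    ((1 / 2 : ℝ) ^ d) ^ X.card ≤ Ex fun ω : Sw d → Bool => Ex fun ω' : Sw d → Bool =>
      ind (∀ x ∈ X, ben d ω ω' x = τ x) := by
  induction d with
  | zero =>
    intro X τ _
    have : ∀ ω ω' : Sw 0 → Bool, ind (∀ x ∈ X, ben 0 ω ω' x = τ x) = 1 :=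
      fun _ _ => ind_pos fun _ _ => rfl
    simp only [this, Ex_const]
    simp
  | succ d ih =>
    have key : ∀ (X : Finset (Q d × Bool)) (τ : Q d × Bool → Q d × Bool), Set.InjOn τ X →
        ((1 / 2 : ℝ) ^ (d + 1)) ^ X.card ≤ Ex fun ω : Sw (d + 1) → Bool =>
          Ex fun ω' : Sw (d + 1) → Bool => ind (∀ x ∈ X,
          ((pair (bf d (sub ω' false)) (bf d (sub ω' true)) * sw (top ω'))⁻¹ *
            (pair (bf d (sub ω false)) (bf d (sub ω true)) * sw (top ω))) x = τ x) := by
      intro X τ hτ
      rw [Ex_six fun s a b s' a' b' => ind (∀ x ∈ X,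
        ((pair (bf d a') (bf d b') * sw s')⁻¹ * (pair (bf d a) (bf d b) * sw s)) x = τ x)]
      have h1 := cons_prob X τ hτ
      have h2 : (1 : ℝ) ≤ kappa X τ := by exact_mod_cast kappa_pos X τ
      have h3 : ((1 / 2 : ℝ) ^ (d + 1)) ^ X.card ≤ Ex fun s : Q d → Bool =>
          Ex fun s' : Q d → Bool => ind (Cons X τ s s') * ((1 / 2 : ℝ) ^ d) ^ X.card := by
        simp only [Ex_mul_right]
        rw [h1, pow_succ', mul_pow]
        exact mul_le_mul_of_nonneg_right (le_mul_of_one_le_right (by positivity) h2)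
          (by positivity)
      refine h3.trans (Ex_mono fun s => Ex_mono fun s' => ?_)
      simp only [ind_congr (ben_iff X τ _ _ _ _ s s'), ind_and, Ex_mul_left, Ex_mul_right]
      by_cases hc : Cons X τ s s'
      · refine mul_le_mul_of_nonneg_left ?_ (ind_nonneg _)
        rw [← card_half X s, pow_add]
        exact mul_le_mul (ih _ _ (tgt_inj hτ hc false)) (ih _ _ (tgt_inj hτ hc true))
          (by positivity) (Ex_nonneg fun _ => Ex_nonneg fun _ => ind_nonneg _)
      · simp [ind_neg hc]
    exact key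

theorem kraft (d : ℕ) : ∀ (X : Finset (Q d)) (τ : Q d → Q d), Set.InjOn τ X →
    (Ex fun ω : Sw d → Bool => Ex fun ω' : Sw d → Bool =>
      ind (∀ x ∈ X, ben d ω ω' x = τ x) * Real.exp (-Nt d X ω ω')) ≤ ((1 / 2 : ℝ) ^ d) ^ X.card := by
  induction d with
  | zero =>
    intro X τ _
    refine Ex_le_const fun ω => Ex_le_const fun ω' => ?_
    have : Nt 0 X ω ω' = 0 := by simp [Nt, nu]
    simp [this, ind_le_one]
  | succ d ih =>
    have key : ∀ (X : Finset (Q d × Bool)) (τ : Q d × Bool → Q d × Bool), Set.InjOn τ X →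
        (Ex fun ω : Sw (d + 1) → Bool => Ex fun ω' : Sw (d + 1) → Bool => ind (∀ x ∈ X,
          ((pair (bf d (sub ω' false)) (bf d (sub ω' true)) * sw (top ω'))⁻¹ *
            (pair (bf d (sub ω false)) (bf d (sub ω true)) * sw (top ω))) x = τ x) *
          Real.exp (-Nt (d + 1) X ω ω')) ≤ ((1 / 2 : ℝ) ^ (d + 1)) ^ X.card := by
      intro X τ hτ
      simp only [Nt_succ]
      rw [Ex_six fun s a b s' a' b' => ind (∀ x ∈ X,
        ((pair (bf d a') (bf d b') * sw s')⁻¹ * (pair (bf d a) (bf d b) * sw s)) x = τ x) *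
        Real.exp (-(Real.log (invc ((ben d b b')⁻¹ * ben d a a') (half X s false))
          + Nt d (half X s false) a a' + Nt d (half X s true) b b'))]
      have h1 := cons_prob X τ hτ
      have h2 : (1 : ℝ) ≤ kappa X τ := by exact_mod_cast kappa_pos X τ
      have h3 : (Ex fun s : Q d → Bool => Ex fun s' : Q d → Bool =>
          ind (Cons X τ s s') * ((kappa X τ : ℝ)⁻¹ * ((1 / 2 : ℝ) ^ d) ^ X.card))
          = ((1 / 2 : ℝ) ^ (d + 1)) ^ X.card := by
        simp only [Ex_mul_right]
        rw [h1, pow_succ', mul_pow]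
        field_simp
      rw [← h3]
      refine Ex_mono fun s => Ex_mono fun s' => ?_
      have h4 : ∀ a a' b b' : Sw d → Bool, ind (∀ x ∈ X,
          ((pair (bf d a') (bf d b') * sw s')⁻¹ * (pair (bf d a) (bf d b) * sw s)) x = τ x) *
          Real.exp (-(Real.log (invc ((ben d b b')⁻¹ * ben d a a') (half X s false))
            + Nt d (half X s false) a a' + Nt d (half X s true) b b'))
          ≤ ind (Cons X τ s s') * ((kappa X τ : ℝ)⁻¹ *
            ((ind (∀ u ∈ half X s false, ben d a a' u = tgt τ s s' false u) *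
              Real.exp (-Nt d (half X s false) a a')) *
            (ind (∀ u ∈ half X s true, ben d b b' u = tgt τ s s' true u) *
              Real.exp (-Nt d (half X s true) b b')))) := by
        intro a a' b b'
        by_cases hE : ∀ x ∈ X,
          ((pair (bf d a') (bf d b') * sw s')⁻¹ * (pair (bf d a) (bf d b) * sw s)) x = τ x
        · obtain ⟨c1, c2, c3⟩ := (ben_iff X τ _ _ _ _ s s').1 hE
          have hk := kappa_le X τ (ben d a a') (ben d b b') s s' fun u c hu => by
            rw [← hE _ hu, ben_apply]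
            rfl
          have hk' : (kappa X τ : ℝ) ≤ invc ((ben d b b')⁻¹ * ben d a a') (half X s false) := by
            exact_mod_cast hk
          rw [ind_pos hE, ind_pos c1, ind_pos (P := ∀ u ∈ half X s false,
            ben d a a' u = tgt τ s s' false u) c2, ind_pos (P := ∀ u ∈ half X s true,
            ben d b b' u = tgt τ s s' true u) c3]
          simp only [one_mul, neg_add, Real.exp_add]
          rw [Real.exp_neg, Real.exp_log (by linarith), mul_assoc]
          exact mul_le_mul_of_nonneg_right (inv_anti₀ (by linarith) hk') (by positivity)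
        · rw [ind_neg hE, zero_mul]
          have := ind_nonneg (Cons X τ s s')
          have := ind_nonneg (∀ u ∈ half X s false, ben d a a' u = tgt τ s s' false u)
          have := ind_nonneg (∀ u ∈ half X s true, ben d b b' u = tgt τ s s' true u)
          positivity
      refine (Ex_mono fun a => Ex_mono fun a' => Ex_mono fun b => Ex_mono fun b' =>
        h4 a a' b b').trans ?_
      simp only [Ex_mul_left, Ex_mul_right]
      by_cases hc : Cons X τ s s'
      · refine mul_le_mul_of_nonneg_left (mul_le_mul_of_nonneg_left ?_ (by positivity))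
          (ind_nonneg _)
        rw [← card_half X s, pow_add]
        exact mul_le_mul (ih _ _ (tgt_inj hτ hc false)) (ih _ _ (tgt_inj hτ hc true))
          (Ex_nonneg fun _ => Ex_nonneg fun _ => mul_nonneg (ind_nonneg _) (Real.exp_pos _).le)
          (by positivity)
      · simp [ind_neg hc]
    exact key

end Vale.Agent.P162
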