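import Vale.Agent.P162.Cube

/-! An encoding argument bounding the number of cycles of the permutation of a random network. -/

namespace Vale.Agent.P162

open Finset Equiv

theorem Ex_chi {Y : Type} [Fintype Y] [DecidableEq Y] {S : Finset Y} (h : S.Nonempty) :
    Ex (chi S) = 0 := by
  obtain ⟨u, hu⟩ := h
  have e := Ex_equiv (xorE fun v => decide (v = u)) (chi S)
  have e2 : ∀ s : Y → Bool, chi S (xorE (fun v => decide (v = u)) s) = -1 * chi S s := by
    intro s
    have := chi_xor S s fun v => decide (v = u)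
    rw [chi_single, if_pos hu] at this
    exact this
  simp only [e2] at e
  rw [Ex_mul_left] at e
  linarith

theorem Ex_one {Y : Type} [Fintype Y] [DecidableEq Y] (r : Y) :
    (Ex fun D : Y → Bool => ind (D r = true)) = 1 / 2 := by
  have e : ∀ D : Y → Bool, ind (D r = true) = 1 / 2 - 1 / 2 * chi {r} D := by
    intro D
    rw [chi_singleton]
    cases h : D r <;> simp [ind] <;> norm_num
  simp only [e]
  rw [Ex_sub, Ex_mul_left, Ex_chi (singleton_nonempty r), Ex_const]
  norm_num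

theorem Ex_two {Y : Type} [Fintype Y] [DecidableEq Y] {r r' : Y} (h : r ≠ r') :
    (Ex fun D : Y → Bool => ind (D r = true ∧ D r' = false)) = 1 / 4 := by
  have e : ∀ D : Y → Bool, ind (D r = true ∧ D r' = false)
      = 1 / 4 - 1 / 4 * chi {r} D + 1 / 4 * chi {r'} D - 1 / 4 * chi (symmDiff {r} {r'}) D := by
    intro D
    rw [chi_symmDiff, chi_singleton, chi_singleton]
    cases h : D r <;> cases h' : D r' <;> simp [ind] <;> norm_num
  simp only [e]
  rw [Ex_sub, Ex_add, Ex_sub, Ex_mul_left, Ex_mul_left, Ex_mul_left, Ex_chi (singleton_nonempty r),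
    Ex_chi (singleton_nonempty r'), Ex_chi ⟨r, by simp [mem_symmDiff, h]⟩, Ex_const]
  norm_num

/-- abstract switching network -/
structure Net (S Y : Type) [Fintype Y] [DecidableEq Y] [DecidableEq S] (L : ℕ) where
  V : (S → Bool) → Perm Y
  path : (S → Bool) → Y → Finset S
  loc : ∀ a a' y, (∀ σ ∈ path a y, a σ = a' σ) → path a' y = path a y ∧ V a' y = V a y
  uniq : ∀ a a' y, V a y = V a' y → ∀ σ ∈ path a y, a σ = a' σ
  len : ∀ a y, L ≤ (path a y).card
  two : ∀ a σ, (univ.filter fun y => σ ∈ path a y).card ≤ 2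
  deg : ∀ a (C : Finset Y), C.Nonempty → ∃ r ∈ C,
    2 ^ ((path a r).filter fun σ => ∃ y ∈ C, y ≠ r ∧ σ ∈ path a y).card ≤ C.card

variable {S Y : Type} [Fintype Y] [DecidableEq Y] [DecidableEq S] {L : ℕ} (N : Net S Y L)

/-- open cards -/
def Net.opn (a : S → Bool) (w : Y → ℕ) : Finset Y :=
  univ.biUnion fun u => (range (w u - 1)).image fun i => (N.V a ^ i) u

/-- closing cards -/
def Net.cls (a : S → Bool) (w : Y → ℕ) : Finset Y :=
  (univ.filter fun u => w u ≠ 0).image fun u => (N.V a ^ (w u - 1)) u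

/-- free switches -/
def Net.fr (a : S → Bool) (w : Y → ℕ) : Finset S :=
  (N.cls a w).biUnion (N.path a) \ (N.opn a w).biUnion (N.path a)

/-- all chosen cycles close -/
def Net.Ev (a : S → Bool) (w : Y → ℕ) : Prop := ∀ u, w u ≠ 0 → (N.V a ^ w u) u = u

theorem Net.stab (a b : S → Bool) (w : Y → ℕ)
    (h : ∀ σ ∈ (N.opn a w).biUnion (N.path a), a σ = b σ) :
    N.cls b w = N.cls a w ∧ (N.opn b w).biUnion (N.path b) = (N.opn a w).biUnion (N.path a) ∧
      ∀ u, (N.V b ^ (w u - 1)) u = (N.V a ^ (w u - 1)) u := by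
  have h1 : ∀ o ∈ N.opn a w, N.path b o = N.path a o ∧ N.V b o = N.V a o := fun o ho =>
    N.loc a b o fun σ hσ => h σ (mem_biUnion.2 ⟨o, ho, hσ⟩)
  have h2 : ∀ u i, i ≤ w u - 1 → (N.V b ^ i) u = (N.V a ^ i) u := by
    intro u i
    induction i with
    | zero => simp
    | succ i ih =>
      intro hi
      rw [pow_succ', pow_succ', Perm.mul_apply, Perm.mul_apply, ih (by omega)]
      exact (h1 _ (mem_biUnion.2 ⟨u, mem_univ _, mem_image_of_mem _
        (mem_range.2 (by omega))⟩)).2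
  have h3 : N.opn b w = N.opn a w := by
    unfold Net.opn
    refine biUnion_congr rfl fun u _ => image_congr fun i hi => h2 u i ?_
    have := mem_range.1 hi
    omega
  refine ⟨image_congr fun u _ => h2 u _ le_rfl, ?_, fun u => h2 u _ le_rfl⟩
  rw [h3]
  exact biUnion_congr rfl fun o ho => (h1 o ho).1

theorem Net.enc [Fintype S] (w : Y → ℕ) :
    (Ex fun a : S → Bool => ind (N.Ev a w) * 2 ^ (N.fr a w).card) ≤ 1 := by
  classical
  let fl : (Σ _ : S → Bool, Finset S) → S → Bool := fun p σ => if σ ∈ p.2 then !p.1 σ else p.1 σ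
  have hinj : Set.InjOn fl
      ((univ.filter fun a => N.Ev a w).sigma fun a => (N.fr a w).powerset : Finset _) := by
    rintro ⟨a1, A1⟩ h1 ⟨a2, A2⟩ h2 e
    obtain ⟨h1a, h1b⟩ := mem_sigma.1 h1
    obtain ⟨h2a, h2b⟩ := mem_sigma.1 h2
    have E1 := (mem_filter.1 h1a).2
    have E2 := (mem_filter.1 h2a).2
    have F1 : A1 ⊆ N.fr a1 w := mem_powerset.1 h1b
    have F2 : A2 ⊆ N.fr a2 w := mem_powerset.1 h2b
    have s1 := N.stab a1 (fl ⟨a1, A1⟩) w fun σ hσ =>
      (if_neg fun h => (mem_sdiff.1 (F1 h)).2 hσ).symm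
    have s2 := N.stab a2 (fl ⟨a2, A2⟩) w fun σ hσ =>
      (if_neg fun h => (mem_sdiff.1 (F2 h)).2 hσ).symm
    rw [e] at s1
    have c1 : ∀ r ∈ N.cls a1 w, N.V a1 r = N.V a2 r := by
      intro r hr
      obtain ⟨u, hu, rfl⟩ := mem_image.1 hr
      have hu := (mem_filter.1 hu).2
      have e1 : ∀ a, N.Ev a w → N.V a ((N.V a ^ (w u - 1)) u) = u := by
        intro a ha
        rw [← Perm.mul_apply, ← pow_succ', Nat.sub_add_cancel (Nat.pos_of_ne_zero hu)]
        exact ha u hu
      rw [e1 a1 E1, ← s1.2.2 u, s2.2.2 u, e1 a2 E2]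
    have c2 : ∀ r ∈ N.cls a1 w, ∀ σ ∈ N.path a1 r, a1 σ = a2 σ := fun r hr =>
      N.uniq a1 a2 r (c1 r hr)
    have c3 : N.fr a2 w = N.fr a1 w := by
      unfold Net.fr
      rw [← s1.2.1, ← s2.2.1, ← s2.1, s1.1]
      congr 1
      exact biUnion_congr rfl fun r hr => (N.loc a1 a2 r (c2 r hr)).1
    have c4 : a1 = a2 := by
      ext σ
      by_cases hσ : σ ∈ N.fr a1 w
      · obtain ⟨r, hr, hr'⟩ := mem_biUnion.1 (mem_sdiff.1 hσ).1
        exact c2 r hr σ hr'
      · have := congrFun e σ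
        simp only [fl] at this
        rwa [if_neg fun h => hσ (F1 h), if_neg fun h => hσ (c3 ▸ F2 h)] at this
    subst c4
    congr 1
    ext σ
    have := congrFun e σ
    simp only [fl] at this
    by_cases g1 : σ ∈ A1 <;> by_cases g2 : σ ∈ A2 <;> simp_all
  have hc := card_le_card_of_injOn fl (t := univ) (fun _ _ => mem_univ _) hinj
  rw [card_sigma, card_univ] at hc
  simp only [card_powerset] at hc
  unfold Ex
  have hpos : (0 : ℝ) < Fintype.card (S → Bool) := by exact_mod_cast Fintype.card_pos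
  rw [smul_eq_mul, inv_mul_le_iff₀ hpos, mul_one]
  have : ∑ a : S → Bool, ind (N.Ev a w) * (2 : ℝ) ^ (N.fr a w).card
      = ((∑ a ∈ univ.filter fun a => N.Ev a w, 2 ^ (N.fr a w).card : ℕ) : ℝ) := by
    rw [sum_filter]
    push_cast
    refine sum_congr rfl fun a _ => ?_
    split_ifs with h
    · rw [ind_pos h, one_mul]
    · rw [ind_neg h, zero_mul]
  rw [this]
  exact_mod_cast hc

/-- orbit -/
def orb (π : Perm Y) (u : Y) : Finset Y := univ.filter fun v => π.SameCycle u v

theorem mem_orb {π : Perm Y} {u v : Y} : v ∈ orb π u ↔ π.SameCycle u v := by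
  simp only [orb, mem_filter, mem_univ, true_and]

theorem orb_eq {π : Perm Y} {u v : Y} (h : v ∈ orb π u) : orb π v = orb π u := by
  ext x
  rw [mem_orb, mem_orb]
  have := mem_orb.1 h
  exact ⟨this.trans, this.symm.trans⟩

theorem self_mem_orb (π : Perm Y) (u : Y) : u ∈ orb π u := mem_orb.2 (Perm.SameCycle.refl _ _)

theorem orb_subset {π : Perm Y} {I : Finset Y} (hI : I.image π = I) {u : Y} (hu : u ∈ I) :
    orb π u ⊆ I := by
  intro v hv
  obtain ⟨i, -, rfl⟩ := (mem_orb.1 hv).exists_pow_eq'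
  clear hv
  induction i with
  | zero => simpa using hu
  | succ i ih =>
    rw [pow_succ', Perm.mul_apply, ← hI]
    exact mem_image_of_mem _ ih

theorem exists_per (π : Perm Y) (r : Y) : ∃ l, 0 < l ∧ l ≤ (orb π r).card ∧ (π ^ l) r = r ∧
    ∀ i, 0 < i → i < l → (π ^ i) r ≠ r := by
  obtain ⟨i, hi, -, he⟩ := (Perm.SameCycle.refl π r).exists_pow_eq''
  have hp : Function.IsPeriodicPt π i r := by
    unfold Function.IsPeriodicPt Function.IsFixedPt
    rw [Perm.iterate_eq_pow, he]
  refine ⟨Function.minimalPeriod π r, hp.minimalPeriod_pos hi, ?_, ?_, ?_⟩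
  · have := card_le_card_of_injOn (s := range (Function.minimalPeriod π r)) (t := orb π r)
      (fun i => π^[i] r) (fun i _ => mem_coe.2 (mem_orb.2 (by
        simp only
        rw [Perm.iterate_eq_pow, Perm.sameCycle_pow_right]))) (by
        rw [coe_range]
        exact Function.iterate_injOn_Iio_minimalPeriod)
    rwa [card_range] at this
  · rw [← Perm.iterate_eq_pow]
    exact Function.iterate_minimalPeriod
  · intro j h0 h1 h
    refine Function.not_isPeriodicPt_of_pos_of_lt_minimalPeriod h0.ne' h1 ?_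
    unfold Function.IsPeriodicPt Function.IsFixedPt
    rw [Perm.iterate_eq_pow, h]

theorem Net.point (a : S → Bool) (X : Finset Y) (l0 g : ℕ) (hl0 : 0 < l0) (hg : l0 ≤ 2 ^ g)
    {z h : ℝ} (hz : 0 < z) (hh : 0 ≤ h)
    (hθ : h * Real.log 2 ≤ Real.log z / 2 + ((L : ℝ) - g) / 8 * Real.log 2) :
    Real.exp (h * Real.log (invc (N.V a) X)) ≤ Real.exp (h * Real.log 2 * X.card / l0) *
      ∑ w : Y → Fin (l0 + 1), (∏ u, if w u = 0 then 1 else if u ∈ X then z else 0) *
        (ind (N.Ev a fun u => w u) * 2 ^ (N.fr a fun u => w u).card) := by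
  classical
  set π := N.V a with hπ
  have hl2 : 0 < Real.log 2 := Real.log_pos (by norm_num)
  obtain ⟨pick, hpick⟩ : ∃ pick : Y → Y, (∀ u v, orb π u = orb π v → pick u = pick v) ∧
      ∀ u, pick u ∈ orb π u ∧ 2 ^ ((N.path a (pick u)).filter fun σ =>
        ∃ y ∈ orb π u, y ≠ pick u ∧ σ ∈ N.path a y).card ≤ (orb π u).card := by
    choose f hf using N.deg a
    refine ⟨fun u => f (orb π u) ⟨u, self_mem_orb π u⟩, fun u v huv => ?_, fun u => hf _ _⟩
    simp only [huv]
  obtain ⟨hp1, hp2⟩ := hpick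
  have hpp : ∀ u, orb π (pick u) = orb π u := fun u => orb_eq (hp2 u).1
  set R := X.filter fun r => orb π r ⊆ X ∧ pick r = r with hR
  set Rs := R.filter fun r => (orb π r).card ≤ l0 with hRs
  have b1 : invc π X ≤ 2 ^ R.card := by
    rw [← card_powerset]
    refine card_le_card_of_injOn (fun I => I ∩ R) (fun I _ => mem_coe.2
      (mem_powerset.2 inter_subset_right)) ?_
    have key : ∀ I ∈ X.powerset.filter (fun I => I.image π = I),
        ∀ J ∈ X.powerset.filter (fun I => I.image π = I), I ∩ R = J ∩ R → I ⊆ J := by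
      intro I hI J hJ e u hu
      obtain ⟨i1, i2⟩ := mem_filter.1 hI
      have i3 := orb_subset i2 hu
      have i4 : pick u ∈ I ∩ R := mem_inter.2 ⟨i3 (hp2 u).1, mem_filter.2
        ⟨mem_powerset.1 i1 (i3 (hp2 u).1), by rw [hpp]; exact i3.trans (mem_powerset.1 i1),
          hp1 _ _ (hpp u)⟩⟩
      rw [e] at i4
      have := orb_subset (mem_filter.1 hJ).2 (mem_inter.1 i4).1
      rw [hpp] at this
      exact this (self_mem_orb π u)
    intro I hI J hJ e
    exact Subset.antisymm (key I hI J hJ e) (key J hJ I hI e.symm)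
  have b2 : (R.filter fun r => ¬ (orb π r).card ≤ l0).card * l0 ≤ X.card := by
    have hd : ((R.filter fun r => ¬ (orb π r).card ≤ l0 : Finset Y) : Set Y).PairwiseDisjoint
        (orb π) := by
      intro r hr r' hr' hne
      refine disjoint_left.2 fun x h1 h2 => hne ?_
      have e1 := (mem_filter.1 (mem_filter.1 hr).1).2.2
      have e2 := (mem_filter.1 (mem_filter.1 hr').1).2.2
      rw [← e1, ← e2]
      exact hp1 _ _ ((orb_eq h1).symm.trans (orb_eq h2))
    have h1 := card_biUnion hd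
    have h2 : ((R.filter fun r => ¬ (orb π r).card ≤ l0).biUnion (orb π)).card ≤ X.card :=
      card_le_card (biUnion_subset.2 fun r hr => (mem_filter.1 (mem_filter.1 hr).1).2.1)
    have h3 := card_nsmul_le_sum (R.filter fun r => ¬ (orb π r).card ≤ l0)
      (fun r => (orb π r).card) l0 fun r hr => (not_le.1 (mem_filter.1 hr).2).le
    rw [smul_eq_mul] at h3
    omega
  have b3 : (R.card : ℝ) ≤ Rs.card + X.card / l0 := by
    have := card_filter_add_card_filter_not (s := R) fun r => (orb π r).card ≤ l0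
    have h2 : ((R.filter fun r => ¬ (orb π r).card ≤ l0).card : ℝ) ≤ X.card / l0 := by
      rw [le_div_iff₀ (by exact_mod_cast hl0)]
      exact_mod_cast b2
    rw [← this]
    push_cast
    linarith
  choose per per1 per2 per3 per4 using exists_per π
  let wD : (Y → Bool) → Y → Fin (l0 + 1) := fun D u =>
    if hu : π⁻¹ u ∈ Rs ∧ D (π⁻¹ u) = true then
      ⟨per (π⁻¹ u), Nat.lt_succ_of_le ((per2 _).trans (mem_filter.1 hu.1).2)⟩ else 0
  have w0 : ∀ D u, ¬ (π⁻¹ u ∈ Rs ∧ D (π⁻¹ u) = true) → wD D u = 0 := fun D u hu => dif_neg hu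
  have w1 : ∀ D u, (π⁻¹ u ∈ Rs ∧ D (π⁻¹ u) = true) → (wD D u : ℕ) = per (π⁻¹ u) :=
    fun D u hu => by simp only [wD, dif_pos hu]
  have w2 : ∀ D u, (wD D u : ℕ) ≠ 0 → π⁻¹ u ∈ Rs ∧ D (π⁻¹ u) = true := by
    intro D u hu
    by_contra hc
    exact hu (by rw [w0 D u hc]; rfl)
  have pw : ∀ u i, (π ^ i) u = (π ^ (i + 1)) (π⁻¹ u) := fun u i => by
    rw [pow_succ, Perm.mul_apply]; simp
  have ev : ∀ D, N.Ev a fun u => wD D u := by
    intro D u hu
    change (π ^ (wD D u : ℕ)) u = u
    rw [w1 D u (w2 D u hu), pw, pow_succ', Perm.mul_apply, per3]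
    simp
  have wt : ∀ D, (∏ u, if wD D u = 0 then (1 : ℝ) else if u ∈ X then z else 0)
      = Real.exp (Real.log z * ∑ r ∈ Rs, ind (D r = true)) := by
    intro D
    rw [← Equiv.prod_comp π, mul_sum, Real.exp_sum, ← prod_subset (subset_univ Rs)]
    · refine prod_congr rfl fun r hr => ?_
      by_cases hD : D r = true
      · have hu : π⁻¹ (π r) ∈ Rs ∧ D (π⁻¹ (π r)) = true := by simpa using ⟨hr, hD⟩
        have : wD D (π r) ≠ 0 := fun h0 => by
          have := w1 D _ hu
          rw [h0] at this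
          exact (per1 _).ne this
        rw [if_neg this, if_pos, ind_pos hD, mul_one, Real.exp_log hz]
        exact (mem_filter.1 (mem_filter.1 hr).1).2.1 (mem_orb.2 (by
          rw [Perm.sameCycle_apply_right]))
      · rw [if_pos (w0 D _ (by simp [hD])), ind_neg hD, mul_zero, Real.exp_zero]
    · intro r _ hr
      rw [if_pos (w0 D _ (by simp [hr]))]
  have cl : ∀ D, ∀ r ∈ Rs, D r = true → r ∈ N.cls a fun u => wD D u := by
    intro D r hr hD
    have hu : π⁻¹ (π r) ∈ Rs ∧ D (π⁻¹ (π r)) = true := by simpa using ⟨hr, hD⟩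
    have e := w1 D _ hu
    simp only [Perm.coe_inv, Equiv.symm_apply_apply] at e
    refine mem_image.2 ⟨π r, mem_filter.2 ⟨mem_univ _, fun h0 => (per1 r).ne' (e.symm.trans h0)⟩, ?_⟩
    change (π ^ ((wD D (π r) : ℕ) - 1)) (π r) = r
    rw [e, pw, Nat.sub_add_cancel (per1 _)]
    simpa using per3 r
  have op : ∀ D, ∀ o ∈ N.opn a fun u => wD D u, pick o ≠ o ∧ D (pick o) = true := by
    intro D o ho
    obtain ⟨u, -, ho⟩ := mem_biUnion.1 ho
    obtain ⟨i, hi, rfl⟩ := mem_image.1 ho
    have hi : i < (wD D u : ℕ) - 1 := mem_range.1 hi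
    have hu := w2 D u (by omega)
    rw [w1 D u hu] at hi
    have e : pick ((π ^ i) u) = π⁻¹ u := by
      rw [← (mem_filter.1 (mem_filter.1 hu.1).1).2.2]
      refine hp1 _ _ (orb_eq ?_)
      rw [pw, mem_orb, Perm.sameCycle_pow_right]
    change pick ((π ^ i) u) ≠ (π ^ i) u ∧ D (pick ((π ^ i) u)) = true
    rw [e]
    refine ⟨?_, hu.2⟩
    rw [pw]
    exact (per4 _ _ (Nat.succ_pos i) (by omega)).symm
  let ext : Y → Finset S := fun r =>
    (N.path a r).filter fun σ => ¬ ∃ y ∈ orb π r, y ≠ r ∧ σ ∈ N.path a y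
  have hext : ∀ r ∈ Rs, (L : ℝ) - g ≤ (ext r).card := by
    intro r hr
    have e1 := (mem_filter.1 (mem_filter.1 hr).1).2.2
    have h1 := (hp2 r).2
    rw [e1] at h1
    have h2 := (pow_le_pow_iff_right₀ (by norm_num : 1 < 2)).1
      (h1.trans ((mem_filter.1 hr).2.trans hg))
    have h3 := card_filter_add_card_filter_not (s := N.path a r)
      fun σ => ∃ y ∈ orb π r, y ≠ r ∧ σ ∈ N.path a y
    have h4 := N.len a r
    have : L ≤ g + (ext r).card := by simp only [ext]; omega
    have : (L : ℝ) ≤ g + (ext r).card := by exact_mod_cast this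
    linarith
  let gd : (Y → Bool) → Y → S → Prop := fun D r σ =>
    D r = true ∧ ∀ o, o ≠ r → σ ∈ N.path a o → D (pick o) = false
  have frb : ∀ D, ∑ r ∈ Rs, ∑ σ ∈ ext r, ind (gd D r σ) ≤ 2 * (N.fr a fun u => wD D u).card := by
    intro D
    have h1 : ∀ r ∈ Rs, ∑ σ ∈ ext r, ind (gd D r σ)
        ≤ ∑ σ ∈ N.fr a fun u => wD D u, ind (σ ∈ N.path a r) := by
      intro r hr
      have : ∑ σ ∈ ext r, ind (gd D r σ) = ∑ σ ∈ (ext r).filter (gd D r), ind (σ ∈ N.path a r) := by
        rw [sum_filter (gd D r)]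
        refine sum_congr rfl fun σ hσ => ?_
        split_ifs with hh
        · rw [ind_pos hh, ind_pos (mem_filter.1 hσ).1]
        · rw [ind_neg hh]
      rw [this]
      refine sum_le_sum_of_subset_of_nonneg (fun σ hσ => ?_) fun _ _ _ => ind_nonneg _
      obtain ⟨s1, s2, s3⟩ := mem_filter.1 hσ
      refine mem_sdiff.2 ⟨mem_biUnion.2 ⟨r, cl D r hr s2, (mem_filter.1 s1).1⟩, fun hc => ?_⟩
      obtain ⟨o, ho, ho'⟩ := mem_biUnion.1 hc
      obtain ⟨o1, o2⟩ := op D o ho
      have hne : o ≠ r := fun h => o1 (by rw [h]; exact (mem_filter.1 (mem_filter.1 hr).1).2.2)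
      rw [s3 o hne ho'] at o2
      exact Bool.false_ne_true o2
    refine (sum_le_sum h1).trans ?_
    rw [sum_comm, mul_comm, ← nsmul_eq_mul]
    refine sum_le_card_nsmul _ _ _ fun σ _ => ?_
    have h2 : ∑ r ∈ Rs, ind (σ ∈ N.path a r) ≤ ∑ r, ind (σ ∈ N.path a r) :=
      sum_le_sum_of_subset_of_nonneg (subset_univ _) fun _ _ _ => ind_nonneg _
    have h3 : ∑ r, ind (σ ∈ N.path a r) = ((univ.filter fun y => σ ∈ N.path a y).card : ℝ) := by
      rw [card_filter]
      push_cast
      refine sum_congr rfl fun r _ => ?_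
      split_ifs with hh
      · exact ind_pos hh
      · exact ind_neg hh
    have h4 : ((univ.filter fun y => σ ∈ N.path a y).card : ℝ) ≤ 2 := by exact_mod_cast N.two a σ
    linarith
  have gdb : ∀ r ∈ Rs, ∀ σ ∈ ext r, 1 / 4 ≤ Ex fun D => ind (gd D r σ) := by
    intro r hr σ hσ
    obtain ⟨s1, s2⟩ := mem_filter.1 hσ
    by_cases hex : ∃ o, o ≠ r ∧ σ ∈ N.path a o
    · obtain ⟨o, o1, o2⟩ := hex
      have hne : r ≠ pick o := fun hh => s2 ⟨o, by rw [hh, hpp]; exact self_mem_orb π o, o1, o2⟩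
      rw [← Ex_two hne]
      refine Ex_mono fun D => ?_
      by_cases hD : D r = true ∧ D (pick o) = false
      · rw [ind_pos hD, ind_pos]
        refine ⟨hD.1, fun o' o1' o2' => ?_⟩
        have : o' = o := by
          by_contra hoo
          have h3 : ({r, o, o'} : Finset Y) ⊆ univ.filter fun y => σ ∈ N.path a y := by
            intro y hy
            simp only [mem_insert, mem_singleton] at hy
            rcases hy with rfl | rfl | rfl <;> simp [s1, o2, o2']
          have h4 := (card_le_card h3).trans (N.two a σ)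
          rw [card_insert_of_notMem (by simp [o1.symm, o1'.symm]), card_pair (Ne.symm hoo)] at h4
          omega
        rw [this]
        exact hD.2
      · rw [ind_neg hD]
        exact ind_nonneg _
    · have : ∀ D : Y → Bool, ind (gd D r σ) = ind (D r = true) := fun D =>
        ind_congr ⟨fun h => h.1, fun h => ⟨h, fun o o1 o2 => absurd ⟨o, o1, o2⟩ hex⟩⟩
      simp only [this]
      rw [Ex_one]
      norm_num
  obtain ⟨D, hD⟩ := exists_Ex_le fun D : Y → Bool => Real.log z * ∑ r ∈ Rs, ind (D r = true)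
    + Real.log 2 / 2 * ∑ r ∈ Rs, ∑ σ ∈ ext r, ind (gd D r σ)
  rw [Ex_add, Ex_mul_left, Ex_mul_left, Ex_sum, Ex_sum] at hD
  simp only [Ex_one, Ex_sum, sum_const, nsmul_eq_mul] at hD
  have c1 : ∑ r ∈ Rs, ((L : ℝ) - g) / 4 ≤ ∑ r ∈ Rs, ∑ σ ∈ ext r, Ex fun D => ind (gd D r σ) := by
    refine sum_le_sum fun r hr => ?_
    have := card_nsmul_le_sum (ext r) _ _ (gdb r hr)
    rw [nsmul_eq_mul] at this
    linarith [hext r hr]
  rw [sum_const, nsmul_eq_mul] at c1
  have c2 : h * Real.log 2 * Rs.card ≤ Real.log z * ∑ r ∈ Rs, ind (D r = true)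
      + (N.fr a fun u => wD D u).card * Real.log 2 := by
    have d1 := mul_le_mul_of_nonneg_left c1 (show 0 ≤ Real.log 2 / 2 by positivity)
    have d2 := mul_le_mul_of_nonneg_left (frb D) (show 0 ≤ Real.log 2 / 2 by positivity)
    have d3 := mul_le_mul_of_nonneg_right hθ (Nat.cast_nonneg (α := ℝ) Rs.card)
    nlinarith
  have c3 : Real.exp (h * Real.log 2 * Rs.card) ≤
      ∑ w : Y → Fin (l0 + 1), (∏ u, if w u = 0 then 1 else if u ∈ X then z else 0) *
        (ind (N.Ev a fun u => w u) * 2 ^ (N.fr a fun u => w u).card) := by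
    refine le_trans ?_ (single_le_sum (f := fun w : Y → Fin (l0 + 1) =>
      (∏ u, if w u = 0 then (1 : ℝ) else if u ∈ X then z else 0) *
        (ind (N.Ev a fun u => w u) * 2 ^ (N.fr a fun u => w u).card)) (fun w _ => ?_)
        (mem_univ (wD D)))
    · rw [wt, ind_pos (ev D), one_mul, ← Real.exp_log (show (0 : ℝ) < 2 by norm_num),
        ← Real.exp_nat_mul, ← Real.exp_add, Real.log_exp]
      exact Real.exp_le_exp.2 c2
    · refine mul_nonneg (prod_nonneg fun u _ => ?_) (mul_nonneg (ind_nonneg _) (by positivity))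
      split_ifs <;> positivity
  refine le_trans ?_ (mul_le_mul_of_nonneg_left c3 (Real.exp_pos _).le)
  rw [← Real.exp_add, Real.exp_le_exp]
  have c4 : Real.log (invc π X) ≤ R.card * Real.log 2 := by
    rw [← Real.log_pow]
    exact Real.log_le_log (by exact_mod_cast invc_pos π X) (by exact_mod_cast b1)
  have c5 := mul_le_mul_of_nonneg_left b3 (mul_nonneg hh hl2.le)
  have c6 := mul_le_mul_of_nonneg_left c4 hh
  rw [mul_div_assoc]
  nlinarith

theorem Net.mgf [Fintype S] (X : Finset Y) (l0 g : ℕ) (hl0 : 0 < l0) (hg : l0 ≤ 2 ^ g)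
    {z h : ℝ} (hz : 0 < z) (hh : 0 ≤ h)
    (hθ : h * Real.log 2 ≤ Real.log z / 2 + ((L : ℝ) - g) / 8 * Real.log 2) :
    (Ex fun a => Real.exp (h * Real.log (invc (N.V a) X)))
      ≤ Real.exp ((h / l0 + l0 * z) * X.card) := by
  refine (Ex_mono fun a => N.point a X l0 g hl0 hg hz hh hθ).trans ?_
  rw [Ex_mul_left, Ex_sum]
  simp only [Ex_mul_left]
  have h1 : ∑ w : Y → Fin (l0 + 1), (∏ u, if w u = 0 then (1 : ℝ) else if u ∈ X then z else 0) *
      (Ex fun a => ind (N.Ev a fun u => w u) * 2 ^ (N.fr a fun u => w u).card)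
      ≤ ∑ w : Y → Fin (l0 + 1), ∏ u, if w u = 0 then (1 : ℝ) else if u ∈ X then z else 0 := by
    refine sum_le_sum fun w _ => mul_le_of_le_one_right (prod_nonneg fun u _ => ?_) (N.enc _)
    split_ifs <;> positivity
  have h2 : ∑ w : Y → Fin (l0 + 1), ∏ u, (if w u = 0 then (1 : ℝ) else if u ∈ X then z else 0)
      ≤ Real.exp (l0 * z * X.card) := by
    rw [← Fintype.piFinset_univ, ← prod_univ_sum (fun _ => univ)
      fun u (j : Fin (l0 + 1)) => if j = 0 then (1 : ℝ) else if u ∈ X then z else 0]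
    have : Real.exp (l0 * z * X.card) = ∏ u, if u ∈ X then Real.exp (l0 * z) else 1 := by
      rw [prod_ite_mem, univ_inter, prod_const, ← Real.exp_nat_mul, mul_comm]
    rw [this]
    refine prod_le_prod (fun u _ => sum_nonneg fun j _ => by split_ifs <;> positivity)
      fun u _ => ?_
    rw [Fin.sum_univ_succ]
    simp only [if_true, Fin.succ_ne_zero, if_false, sum_const, card_univ, Fintype.card_fin,
      nsmul_eq_mul]
    split_ifs
    · linarith [Real.add_one_le_exp (l0 * z)]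
    · simp
  refine (mul_le_mul_of_nonneg_left (h1.trans h2) (Real.exp_pos _).le).trans ?_
  rw [← Real.exp_add, Real.exp_le_exp]
  have h3 : Real.log 2 ≤ 1 := by linarith [Real.log_two_lt_d9]
  have h4 : h * Real.log 2 * X.card / l0 ≤ h / l0 * X.card := by
    rw [div_mul_eq_mul_div]
    refine div_le_div_of_nonneg_right ?_ (Nat.cast_nonneg _)
    exact mul_le_mul_of_nonneg_right (mul_le_of_le_one_right hh h3) (Nat.cast_nonneg _)
  linarith

end Vale.Agent.P162
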