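import Vale.Agent.P162.Level

/-! Grading by the characters of the group of swaps. -/

namespace Vale.Agent.P162

open scoped RealInnerProductSpace symmDiff
open Finset Equiv

variable {V : Type} [NormedAddCommGroup V] [InnerProductSpace ℝ V]
variable {U : Type}

/-- layer of switches -/
def sw (s : U → Bool) : Perm (U × Bool) where
  toFun x := (x.1, xor x.2 (s x.1))
  invFun x := (x.1, xor x.2 (s x.1))
  left_inv x := by simp
  right_inv x := by simp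

@[simp] theorem sw_apply (s : U → Bool) (x : U × Bool) : sw s x = (x.1, xor x.2 (s x.1)) := rfl

theorem sw_inv (s : U → Bool) : (sw s)⁻¹ = sw s := rfl

theorem sw_sw (s : U → Bool) (x : U × Bool) : sw s (sw s x) = x := by simp

theorem sw_mul (s t : U → Bool) : sw t * sw s = sw (fun u => xor (t u) (s u)) := by
  ext x
  · rfl
  · simp only [Perm.mul_apply, sw_apply]
    cases x.2 <;> cases s x.1 <;> cases t x.1 <;> rfl

/-- sign of a bit -/
def sg (b : Bool) : ℝ := if b then -1 else 1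

@[simp] theorem sg_true : sg true = -1 := rfl
@[simp] theorem sg_false : sg false = 1 := rfl

theorem sg_xor (a b : Bool) : sg (xor a b) = sg a * sg b := by
  cases a <;> cases b <;> simp

theorem sg_mul_self (a : Bool) : sg a * sg a = 1 := by
  cases a <;> simp

/-- translation of switch settings -/
def xorE (t : U → Bool) : (U → Bool) ≃ (U → Bool) where
  toFun s := fun u => xor (t u) (s u)
  invFun s := fun u => xor (t u) (s u)
  left_inv s := by ext u; simp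
  right_inv s := by ext u; simp

variable [Fintype U] [DecidableEq U]

/-- character -/
def chi (S : Finset U) (s : U → Bool) : ℝ := ∏ u, if u ∈ S then sg (s u) else 1

theorem chi_xor (S : Finset U) (s t : U → Bool) :
    chi S (fun u => xor (t u) (s u)) = chi S t * chi S s := by
  unfold chi
  rw [← prod_mul_distrib]
  refine prod_congr rfl fun u _ => ?_
  split_ifs
  · exact sg_xor _ _
  · simp

theorem chi_symmDiff (S T : Finset U) (s : U → Bool) : chi (S ∆ T) s = chi S s * chi T s := by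
  unfold chi
  rw [← prod_mul_distrib]
  refine prod_congr rfl fun u _ => ?_
  by_cases h1 : u ∈ S <;> by_cases h2 : u ∈ T <;> simp [mem_symmDiff, h1, h2, sg_mul_self]

theorem chi_mul_self (S : Finset U) (s : U → Bool) : chi S s * chi S s = 1 := by
  rw [← chi_symmDiff, symmDiff_self]
  simp [chi]

theorem chi_singleton (u : U) (s : U → Bool) : chi {u} s = sg (s u) := by
  unfold chi
  simp

theorem chi_empty (s : U → Bool) : chi ∅ s = 1 := by simp [chi]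

theorem chi_single (S : Finset U) (u : U) :
    chi S (fun v => decide (v = u)) = if u ∈ S then -1 else 1 := by
  unfold chi
  rw [prod_eq_single u (fun v _ h => by simp [h]) (by simp)]
  simp

theorem sum_chi (s : U → Bool) :
    ∑ S : Finset U, chi S s = if s = fun _ => false then (2 : ℝ) ^ Fintype.card U else 0 := by
  have : ∑ S : Finset U, chi S s = ∏ u, (1 + sg (s u)) := by
    rw [prod_one_add, powerset_univ]
    refine sum_congr rfl fun S _ => ?_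
    unfold chi
    rw [prod_ite_mem, univ_inter]
  rw [this]
  split_ifs with h
  · simp only [h, sg_false, prod_const, card_univ]
    norm_num
  · obtain ⟨u, hu⟩ := Function.ne_iff.1 h
    refine prod_eq_zero (mem_univ u) ?_
    have : s u = true := by simpa using hu
    simp [this]

omit [Fintype U] in
theorem sw_single (u : U) : sw (fun v => decide (v = u)) = swap (u, false) (u, true) := by
  ext ⟨v, b⟩ : 1
  rw [swap_apply_def]
  by_cases h : v = u <;> cases b <;> simp [h]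

variable {ρ : Perm (U × Bool) →* Module.End ℝ V}

/-- projection on a character -/
noncomputable def pr (ρ : Perm (U × Bool) →* Module.End ℝ V) (S : Finset U) : Module.End ℝ V :=
  Ex fun s : U → Bool => chi S s • ρ (sw s)

theorem sw_pr (S : Finset U) (t : U → Bool) (v : V) :
    ρ (sw t) (pr ρ S v) = chi S t • pr ρ S v := by
  rw [← Module.End.mul_apply, ← LinearMap.smul_apply]
  congr 1
  unfold pr
  rw [End_mul_Ex, ← Ex_smul, ← Ex_equiv (xorE t) fun s => chi S t • chi S s • ρ (sw s)]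
  refine Ex_congr fun s => ?_
  change _ = chi S t • chi S (fun u => xor (t u) (s u)) • ρ (sw fun u => xor (t u) (s u))
  rw [chi_xor, smul_smul, ← mul_assoc, chi_mul_self, one_mul, mul_smul_comm, ← map_mul, sw_mul]

theorem sum_pr (v : V) : ∑ S, pr ρ S v = v := by
  rw [← LinearMap.sum_apply]
  unfold pr
  rw [← Ex_sum]
  simp only [← sum_smul, sum_chi, ite_smul, zero_smul]
  unfold Ex
  rw [sum_ite_eq', if_pos (mem_univ _), smul_smul]
  have : sw (fun _ : U => false) = 1 := by ext x <;> simp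
  rw [this, map_one, Fintype.card_fun, Fintype.card_bool]
  push_cast
  rw [inv_mul_cancel₀ (by positivity), one_smul, Module.End.one_apply]

theorem pr_symm (hρ : Orth ρ) (S : Finset U) : (pr ρ S).IsSymmetric := by
  intro v w
  unfold pr
  rw [Ex_apply, Ex_apply, Ex_inner, inner_Ex]
  refine Ex_congr fun s => ?_
  rw [LinearMap.smul_apply, LinearMap.smul_apply, real_inner_smul_left, real_inner_smul_right,
    hρ.adj, sw_inv]

theorem pr_orth (hρ : Orth ρ) {S T : Finset U} (h : S ≠ T) (v w : V) :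
    ⟪pr ρ S v, pr ρ T w⟫ = 0 := by
  obtain ⟨u, hu⟩ : ∃ u, ¬ (u ∈ S ↔ u ∈ T) := by
    by_contra hc
    push Not at hc
    exact h (Finset.ext hc)
  refine eig_orth (T := ρ (sw fun v => decide (v = u))) (fun a b => by rw [hρ.adj, sw_inv])
    (sw_pr S _ v) (sw_pr T _ w) ?_
  rw [chi_single, chi_single]
  by_cases h1 : u ∈ S <;> by_cases h2 : u ∈ T <;> simp [h1, h2] at hu ⊢ <;> norm_num

theorem pr_pr_ne (hρ : Orth ρ) {S T : Finset U} (h : S ≠ T) (v : V) : pr ρ S (pr ρ T v) = 0 := by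
  rw [← inner_self_eq_zero (𝕜 := ℝ), pr_symm hρ, real_inner_comm]
  exact pr_orth hρ h _ _

theorem pr_pr (hρ : Orth ρ) (S : Finset U) (v : V) : pr ρ S (pr ρ S v) = pr ρ S v := by
  conv_rhs => rw [← sum_pr (ρ := ρ) (pr ρ S v)]
  rw [sum_eq_single S (fun T _ h => pr_pr_ne hρ h v) (by simp)]

/-- homogeneity -/
def Homog (ρ : Perm (U × Bool) →* Module.End ℝ V) (M : Module.End ℝ V) (T : Finset U) : Prop :=
  ∀ s, ρ (sw s) * M = chi T s • (M * ρ (sw s))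

theorem Homog.pr_apply {M : Module.End ℝ V} {T : Finset U} (h : Homog ρ M T) (S : Finset U)
    (v : V) : pr ρ S (M v) = M (pr ρ (S ∆ T) v) := by
  rw [← Module.End.mul_apply, ← Module.End.mul_apply]
  congr 1
  unfold pr
  rw [End_mul_Ex, Ex_mul_End]
  refine Ex_congr fun s => ?_
  rw [smul_mul_assoc, h s, smul_smul, mul_smul_comm, chi_symmDiff]

theorem pr_mem (W : Submodule ℝ V) (hW : ∀ g, ∀ v ∈ W, ρ g v ∈ W) (S : Finset U) {v : V}
    (hv : v ∈ W) : pr ρ S v ∈ W := by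
  unfold pr
  rw [Ex_apply]
  exact W.smul_mem _ (W.sum_mem fun s _ => W.smul_mem _ (hW _ v hv))

/-- sets of a given size -/
def lv (U : Type) [Fintype U] (r : ℕ) : Finset (Finset U) := univ.filter fun S => S.card = r

/-- norm of the level-`r` part -/
noncomputable def Un (ρ : Perm (U × Bool) →* Module.End ℝ V) (r : ℕ) (v : V) : ℝ :=
  ‖∑ S ∈ lv U r, pr ρ S v‖

theorem Un_nonneg (r : ℕ) (v : V) : 0 ≤ Un ρ r v := norm_nonneg _

theorem Un_sq (hρ : Orth ρ) (r : ℕ) (v : V) :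
    Un ρ r v ^ 2 = ∑ S ∈ lv U r, ‖pr ρ S v‖ ^ 2 :=
  pyth _ _ fun _ _ _ _ h => pr_orth hρ h _ _

theorem Un_big (r : ℕ) (hr : Fintype.card U < r) (v : V) : Un ρ r v = 0 := by
  have : lv U r = ∅ := by
    refine filter_eq_empty_iff.2 fun S _ h => ?_
    have := card_le_univ S
    omega
  unfold Un
  rw [this, sum_empty, norm_zero]

theorem lv_zero : lv U 0 = {∅} := by
  ext S
  simp [lv]

theorem Un_base (hρ : Orth ρ) (v : V) (r : ℕ) :
    Un ρ r (pr ρ ∅ v) ≤ if r = 0 then ‖pr ρ ∅ v‖ else 0 := by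
  unfold Un
  split_ifs with h
  · rw [h, lv_zero, sum_singleton, pr_pr hρ]
  · rw [sum_eq_zero, norm_zero]
    intro S hS
    refine pr_pr_ne hρ (fun h' => h ?_) v
    have := (mem_filter.1 hS).2
    rw [h', card_empty] at this
    exact this.symm

theorem inner_le_Un (hρ : Orth ρ) (v w : V) :
    |⟪pr ρ ∅ v, w⟫| ≤ ‖pr ρ ∅ v‖ * Un ρ 0 w := by
  unfold Un
  rw [lv_zero, sum_singleton]
  conv_lhs => rw [← pr_pr hρ, pr_symm hρ]
  exact abs_real_inner_le_norm _ _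

section comp
variable {P : Type} [Fintype P] (M : P → Module.End ℝ V) (tp : P → Finset U)

/-- a graded component -/
noncomputable def comp (ρ : Perm (U × Bool) →* Module.End ℝ V) (M : P → Module.End ℝ V)
    (c : Finset U → Finset P) (r : ℕ) (v : V) : V :=
  ∑ T ∈ lv U r, ∑ p ∈ c T, pr ρ T (M p v)

omit [Fintype P] in
theorem comp_sq (hρ : Orth ρ) (hM : ∀ p, Homog ρ (M p) (tp p)) (c : Finset U → Finset P)
    (r : ℕ) (v : V) : ‖comp ρ M c r v‖ ^ 2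
      = ∑ T ∈ lv U r, ‖∑ p ∈ c T, M p (pr ρ (T ∆ tp p) v)‖ ^ 2 := by
  unfold comp
  rw [pyth]
  · simp only [fun T p => (hM p).pr_apply T v]
  · intro S _ T _ h
    rw [← map_sum, ← map_sum]
    exact pr_orth hρ h _ _

omit [Fintype P] in
theorem reindex (c c' : Finset U → Finset P) (r r' : ℕ)
    (h : ∀ T p, T.card = r → p ∈ c T → (T ∆ tp p).card = r' ∧ p ∈ c' (T ∆ tp p))
    (f : Finset U → P → ℝ) (hf : ∀ S p, 0 ≤ f S p) :
    ∑ T ∈ lv U r, ∑ p ∈ c T, f (T ∆ tp p) p ≤ ∑ S ∈ lv U r', ∑ p ∈ c' S, f S p := by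
  classical
  rw [sum_sigma', sum_sigma']
  rw [← sum_image (s := (lv U r).sigma c) (g := fun x => (⟨x.1 ∆ tp x.2, x.2⟩ :
    Σ _ : Finset U, P)) (f := fun x => f x.1 x.2)]
  · refine sum_le_sum_of_subset_of_nonneg (fun y hy => ?_) fun _ _ _ => hf _ _
    obtain ⟨x, hx, rfl⟩ := mem_image.1 hy
    obtain ⟨h1, h2⟩ := mem_sigma.1 hx
    obtain ⟨a1, a2⟩ := h x.1 x.2 (mem_filter.1 h1).2 h2
    exact mem_sigma.2 ⟨mem_filter.2 ⟨mem_univ _, a1⟩, a2⟩
  · rintro ⟨S, p⟩ _ ⟨T, q⟩ _ hxy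
    simp only [Sigma.mk.injEq, heq_eq_eq] at hxy
    obtain ⟨h1, rfl⟩ := hxy
    rw [symmDiff_left_inj.1 h1]

theorem comp_col (hρ : Orth ρ) (hM : ∀ p, Homog ρ (M p) (tp p)) (W : Submodule ℝ V)
    (hW : ∀ g, ∀ v ∈ W, ρ g v ∈ W) {μ : ℝ} (hμ : 0 ≤ μ)
    (hcol : ∀ y ∈ W, ∑ p, ‖M p y‖ ^ 2 ≤ μ ^ 2 * ‖y‖ ^ 2) (c : Finset U → Finset P) (r r' : ℕ)
    (h : ∀ T p, T.card = r → p ∈ c T → (T ∆ tp p).card = r') {a : ℝ} (ha : 0 ≤ a)
    (hc : ∀ T, T.card = r → ((c T).card : ℝ) ≤ a ^ 2) {v : V} (hv : v ∈ W) :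
    ‖comp ρ M c r v‖ ≤ a * μ * Un ρ r' v := by
  refine le_of_sq_le_sq ?_ (mul_nonneg (mul_nonneg ha hμ) (Un_nonneg _ _))
  rw [comp_sq M tp hρ hM, mul_pow, mul_pow, Un_sq hρ]
  have h1 : ∑ T ∈ lv U r, ‖∑ p ∈ c T, M p (pr ρ (T ∆ tp p) v)‖ ^ 2
      ≤ a ^ 2 * ∑ T ∈ lv U r, ∑ p ∈ c T, ‖M p (pr ρ (T ∆ tp p) v)‖ ^ 2 := by
    rw [mul_sum]
    refine sum_le_sum fun T hT => (norm_sq_sum_le _ _).trans ?_
    exact mul_le_mul_of_nonneg_right (hc T (mem_filter.1 hT).2) (by positivity)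
  have h2 := reindex tp c (fun _ => univ) r r' (fun T p h1 h2 => ⟨h T p h1 h2, mem_univ _⟩)
    (fun S p => ‖M p (pr ρ S v)‖ ^ 2) fun _ _ => sq_nonneg _
  have h3 : ∑ S ∈ lv U r', ∑ p, ‖M p (pr ρ S v)‖ ^ 2 ≤ μ ^ 2 * ∑ S ∈ lv U r', ‖pr ρ S v‖ ^ 2 := by
    rw [mul_sum]
    exact sum_le_sum fun S _ => hcol _ (pr_mem W hW S hv)
  rw [mul_assoc]
  exact h1.trans (mul_le_mul_of_nonneg_left (h2.trans h3) (sq_nonneg _))

theorem row_bound (hs : ∀ p, (M p).IsSymmetric) (W : Submodule ℝ V)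
    (hMW : ∀ p, ∀ v ∈ W, M p v ∈ W) {μ : ℝ}
    (hcol : ∀ y ∈ W, ∑ p, ‖M p y‖ ^ 2 ≤ μ ^ 2 * ‖y‖ ^ 2) (c : Finset P) (y : P → V)
    (hy : ∀ p, y p ∈ W) : ‖∑ p ∈ c, M p (y p)‖ ^ 2 ≤ μ ^ 2 * ∑ p ∈ c, ‖y p‖ ^ 2 := by
  set w := ∑ p ∈ c, M p (y p) with hw
  have hwW : w ∈ W := W.sum_mem fun p _ => hMW p _ (hy p)
  have h1 : ‖w‖ ^ 2 ≤ ∑ p ∈ c, ‖M p w‖ * ‖y p‖ := by
    rw [← real_inner_self_eq_norm_sq]
    conv_lhs => rw [hw, inner_sum, ← hw]
    refine sum_le_sum fun p _ => ?_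
    rw [← hs p]
    exact real_inner_le_norm _ _
  have h2 := sum_mul_sq_le_sq_mul_sq c (fun p => ‖M p w‖) (fun p => ‖y p‖)
  have h3 : ∑ p ∈ c, ‖M p w‖ ^ 2 ≤ μ ^ 2 * ‖w‖ ^ 2 :=
    (sum_le_sum_of_subset_of_nonneg (subset_univ c) fun _ _ _ => sq_nonneg _).trans (hcol w hwW)
  have h4 : 0 ≤ ∑ p ∈ c, ‖y p‖ ^ 2 := by positivity
  have h5 : (‖w‖ ^ 2) ^ 2 ≤ ‖w‖ ^ 2 * (μ ^ 2 * ∑ p ∈ c, ‖y p‖ ^ 2) := by
    have := pow_le_pow_left₀ (sq_nonneg _) h1 2
    nlinarith [mul_le_mul_of_nonneg_right h3 h4]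
  rcases eq_or_lt_of_le (sq_nonneg ‖w‖) with h0 | h0
  · rw [← h0]; positivity
  · rw [sq (‖w‖ ^ 2)] at h5
    exact le_of_mul_le_mul_left h5 h0

theorem comp_row (hρ : Orth ρ) (hM : ∀ p, Homog ρ (M p) (tp p)) (hs : ∀ p, (M p).IsSymmetric)
    (W : Submodule ℝ V) (hW : ∀ g, ∀ v ∈ W, ρ g v ∈ W) (hMW : ∀ p, ∀ v ∈ W, M p v ∈ W)
    {μ : ℝ} (hμ : 0 ≤ μ)
    (hcol : ∀ y ∈ W, ∑ p, ‖M p y‖ ^ 2 ≤ μ ^ 2 * ‖y‖ ^ 2) (c c' : Finset U → Finset P) (r r' : ℕ)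
    (h : ∀ T p, T.card = r → p ∈ c T → (T ∆ tp p).card = r' ∧ p ∈ c' (T ∆ tp p))
    {a : ℝ} (ha : 0 ≤ a)
    (hc : ∀ T, T.card = r' → ((c' T).card : ℝ) ≤ a ^ 2) {v : V} (hv : v ∈ W) :
    ‖comp ρ M c r v‖ ≤ a * μ * Un ρ r' v := by
  refine le_of_sq_le_sq ?_ (mul_nonneg (mul_nonneg ha hμ) (Un_nonneg _ _))
  rw [comp_sq M tp hρ hM, mul_pow, mul_pow, Un_sq hρ]
  have h1 : ∑ T ∈ lv U r, ‖∑ p ∈ c T, M p (pr ρ (T ∆ tp p) v)‖ ^ 2
      ≤ μ ^ 2 * ∑ T ∈ lv U r, ∑ p ∈ c T, ‖pr ρ (T ∆ tp p) v‖ ^ 2 := by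
    rw [mul_sum]
    exact sum_le_sum fun T _ => row_bound M hs W hMW hcol _ _ fun p => pr_mem W hW _ hv
  have h2 := reindex tp c c' r r' h (fun S _ => ‖pr ρ S v‖ ^ 2) fun _ _ => sq_nonneg _
  have h3 : ∑ S ∈ lv U r', ∑ p ∈ c' S, ‖pr ρ S v‖ ^ 2
      ≤ a ^ 2 * ∑ S ∈ lv U r', ‖pr ρ S v‖ ^ 2 := by
    rw [mul_sum]
    refine sum_le_sum fun S hS => ?_
    rw [sum_const, nsmul_eq_mul]
    exact mul_le_mul_of_nonneg_right (hc S (mem_filter.1 hS).2) (sq_nonneg _)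
  rw [mul_comm (a ^ 2), mul_assoc]
  exact h1.trans (mul_le_mul_of_nonneg_left (h2.trans h3) (sq_nonneg _))

omit [Fintype P] in
theorem comp_mix (hρ : Orth ρ) (hM : ∀ p, Homog ρ (M p) (tp p)) {β : ℝ} (hβ : 0 ≤ β)
    (hb : ∀ p y, ‖M p y‖ ≤ β * ‖y‖) (c c' : Finset U → Finset P) (r : ℕ)
    (h : ∀ T p, T.card = r → p ∈ c T → (T ∆ tp p).card = r ∧ p ∈ c' (T ∆ tp p))
    {a : ℝ} (ha : 0 ≤ a) (hc : ∀ T, T.card = r → ((c T).card : ℝ) ≤ a)
    (hc' : ∀ T, T.card = r → ((c' T).card : ℝ) ≤ a) (v : V) :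
    ‖comp ρ M c r v‖ ≤ a * β * Un ρ r v := by
  refine le_of_sq_le_sq ?_ (mul_nonneg (mul_nonneg ha hβ) (Un_nonneg _ _))
  rw [comp_sq M tp hρ hM, mul_pow, mul_pow, Un_sq hρ]
  have h1 : ∑ T ∈ lv U r, ‖∑ p ∈ c T, M p (pr ρ (T ∆ tp p) v)‖ ^ 2
      ≤ a * β ^ 2 * ∑ T ∈ lv U r, ∑ p ∈ c T, ‖pr ρ (T ∆ tp p) v‖ ^ 2 := by
    rw [mul_sum]
    refine sum_le_sum fun T hT => (norm_sq_sum_le _ _).trans ?_
    rw [mul_assoc]
    refine mul_le_mul (hc T (mem_filter.1 hT).2) ?_ (by positivity) ha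
    rw [mul_sum]
    refine sum_le_sum fun p _ => ?_
    rw [← mul_pow]
    exact pow_le_pow_left₀ (norm_nonneg _) (hb _ _) 2
  have h2 := reindex tp c c' r r h (fun S _ => ‖pr ρ S v‖ ^ 2) fun _ _ => sq_nonneg _
  have h3 : ∑ S ∈ lv U r, ∑ p ∈ c' S, ‖pr ρ S v‖ ^ 2
      ≤ a * ∑ S ∈ lv U r, ‖pr ρ S v‖ ^ 2 := by
    rw [mul_sum]
    refine sum_le_sum fun S hS => ?_
    rw [sum_const, nsmul_eq_mul]
    exact mul_le_mul_of_nonneg_right (hc' S (mem_filter.1 hS).2) (sq_nonneg _)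
  have h4 := mul_le_mul_of_nonneg_left (h2.trans h3) (show 0 ≤ a * β ^ 2 by positivity)
  nlinarith

end comp

end Vale.Agent.P162
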