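import Vale.Agent.P162.Moments

/-! Joint spectral measure of the two half Laplacians and its exponential moments. -/

namespace Vale.Agent.P162

open scoped RealInnerProductSpace symmDiff
open Finset Equiv

theorem geo {r : ℝ} (h0 : 0 ≤ r) (h1 : r < 1) (N : ℕ) : ∑ i ∈ range N, r ^ i ≤ (1 - r)⁻¹ :=
  sum_le_hasSum _ (fun _ _ => pow_nonneg h0 _) (hasSum_geometric_of_lt_one h0 h1)

theorem exp_le_inv {x : ℝ} (h : x < 1) : Real.exp x ≤ (1 - x)⁻¹ := by
  have h1 := Real.add_one_le_exp (-x)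
  rw [Real.exp_neg] at h1
  have := Real.exp_pos x
  rw [le_inv_comm₀ this (by linarith)]
  linarith

theorem exp_sub_le {x : ℝ} (h : 0 ≤ x) : Real.exp x - 1 - x ≤ x ^ 2 * Real.exp x := by
  have h1 := Real.add_one_le_exp (-x)
  have h2 : Real.exp (-x) * Real.exp x = 1 := by rw [← Real.exp_add]; simp
  have h3 := Real.exp_pos x
  have h4 : Real.exp x - 1 ≤ x * Real.exp x := by nlinarith
  nlinarith [mul_le_mul_of_nonneg_left h4 h]

variable {V : Type} [NormedAddCommGroup V] [InnerProductSpace ℝ V]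

theorem pow_eig {T : Module.End ℝ V} {c : ℝ} {v : V} (h : T v = c • v) (q : ℕ) :
    (T ^ q) v = c ^ q • v := by
  induction q with
  | zero => simp
  | succ q ih => rw [pow_succ', Module.End.mul_apply, ih, map_smul, h, smul_smul, pow_succ]

theorem inner_pow_sum {ι : Type} (s : Finset ι) (u : ι → V) (c : ι → ℝ) {T : Module.End ℝ V}
    (h : ∀ i ∈ s, ∀ j ∈ s, i ≠ j → ⟪u i, u j⟫ = 0) (hT : ∀ i ∈ s, T (u i) = c i • u i) (q : ℕ) :
    ⟪∑ i ∈ s, u i, (T ^ q) (∑ i ∈ s, u i)⟫ = ∑ i ∈ s, ‖u i‖ ^ 2 * c i ^ q := by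
  classical
  rw [map_sum, inner_sum]
  refine sum_congr rfl fun i hi => ?_
  rw [pow_eig (hT i hi), real_inner_smul_right, sum_inner,
    sum_eq_single i (fun j hj hne => h j hj i hi hne) (fun h => absurd hi h),
    real_inner_self_eq_norm_sq, mul_comm]

variable {U : Type} [Fintype U] [DecidableEq U] [Nonempty U]
variable {ρ : Perm (U × Bool) →* Module.End ℝ V}

omit [Nonempty U] in
theorem rep_comm_Lap_inc (b c : Bool) (α : Perm U) :
    ρ (inc b α) * Lap (ρ.comp (inc c)) = Lap (ρ.comp (inc c)) * ρ (inc b α) := by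
  by_cases h : b = c
  · subst h
    exact Lap_comm (ρ := ρ.comp (inc b)) α
  · unfold Lap EE ee
    simp only [mul_smul_comm, smul_mul_assoc, mul_sum, sum_mul, mul_sub, sub_mul, mul_one,
      one_mul, MonoidHom.comp_apply, ← map_mul]
    cases b <;> cases c <;> simp at h
    · simp only [inc_comm]
    · simp only [inc_comm]

omit [Nonempty U] in
theorem Lap_inc_comm : Lap (ρ.comp (inc false)) * Lap (ρ.comp (inc true))
    = Lap (ρ.comp (inc true)) * Lap (ρ.comp (inc false)) := by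
  conv_lhs => enter [1]; unfold Lap EE ee
  conv_rhs => enter [2]; unfold Lap EE ee
  simp only [mul_smul_comm, smul_mul_assoc, mul_sum, sum_mul, mul_sub, sub_mul, mul_one,
    one_mul, MonoidHom.comp_apply, rep_comm_Lap_inc]

omit [Nonempty U] in
theorem Lap_inc_mem (b : Bool) (l : ℝ) : ∀ v ∈ Eig ρ l, Lap (ρ.comp (inc b)) v ∈ Eig ρ l := by
  intro v hv
  unfold Lap EE
  simp only [LinearMap.smul_apply, LinearMap.sum_apply, ee_inc]
  exact Submodule.smul_mem _ _ (Submodule.sum_mem _ fun _ _ => Submodule.sum_mem _ fun _ _ =>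
    ee_mem (Eig_rep ρ l) _ _ hv)

theorem sum_le_two (hρ : Orth ρ) {l x y : ℝ} {v : V} (hv : v ∈ Eig ρ l) (hne : v ≠ 0)
    (hx : Lap (ρ.comp (inc false)) v = x • v) (hy : Lap (ρ.comp (inc true)) v = y • v) :
    x + y ≤ 2 * l := by
  have hc : (0 : ℝ) < Fintype.card U := by exact_mod_cast Fintype.card_pos
  have h0 := EE_inner_of_eig hx
  have h1 := EE_inner_of_eig hy
  have h := EE_inner_of_eig (show Lap ρ v = l • v from hv)
  simp only [ee_inc] at h0 h1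
  simp only [Fintype.sum_prod_type, Fintype.sum_bool, sum_add_distrib, Fintype.card_prod,
    Fintype.card_bool] at h
  push_cast at h
  have a1 : 0 ≤ ∑ u : U, ∑ w : U, ⟪v, ee ρ (u, true) (w, false) v⟫ :=
    sum_nonneg fun _ _ => sum_nonneg fun _ _ => ee_nonneg hρ _ _ _
  have a2 : 0 ≤ ∑ u : U, ∑ w : U, ⟪v, ee ρ (u, false) (w, true) v⟫ :=
    sum_nonneg fun _ _ => sum_nonneg fun _ _ => ee_nonneg hρ _ _ _
  have hpos : 0 < ‖v‖ ^ 2 := by positivity
  have h3 : (2 * (Fintype.card U : ℝ) * ‖v‖ ^ 2) * (x + y)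
      ≤ (2 * (Fintype.card U : ℝ) * ‖v‖ ^ 2) * (2 * l) := by nlinarith
  exact le_of_mul_le_mul_left h3 (by positivity)

theorem joint [FiniteDimensional ℝ V] (hρ : Orth ρ) {Ω : Type} [Fintype Ω] (f : Ω → Perm U)
    (φ : ℝ → ℝ) (hφ : ∀ x, 0 ≤ φ x)
    (ih : ∀ b x w, Lap (ρ.comp (inc b)) w = x • w →
      ‖(Ex fun ω => ρ (inc b (f ω))) w‖ ^ 2 ≤ φ x * ‖w‖ ^ 2) {l : ℝ} {g : V} (hg : g ∈ Eig ρ l) :
    ∃ (s : Finset (ℝ × ℝ)) (w : ℝ × ℝ → ℝ), (∀ z, 0 ≤ w z) ∧ ∑ z ∈ s, w z = ‖g‖ ^ 2 ∧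
      (∀ z ∈ s, w z ≠ 0 → 0 ≤ z.1 ∧ 0 ≤ z.2 ∧ z.1 + z.2 ≤ 2 * l) ∧
      ‖(Ex fun ω => ρ (inc false (f ω))) ((Ex fun ω => ρ (inc true (f ω))) g)‖ ^ 2
        ≤ ∑ z ∈ s, w z * (φ z.1 * φ z.2) ∧
      (∀ q, ∑ z ∈ s, w z * (l - z.1 - z.2) ^ q = ⟪g, ((∑ p, Mz ρ p) ^ q) g⟫) ∧
      (∀ q, ∑ z ∈ s, w z * (z.1 - z.2) ^ q = ⟪g, ((∑ p, Jd ρ p) ^ q) g⟫) := by
  have hs0 := Lap_symm (hρ.comp (inc false))
  have hs1 := Lap_symm (hρ.comp (inc true))
  obtain ⟨s0⟩ := exists_spec hs0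
  obtain ⟨s1⟩ := exists_spec hs1
  let u : ℝ × ℝ → V := fun z => s0.p z.1 (s1.p z.2 g)
  have hsum : ∑ z ∈ s0.X ×ˢ s1.X, u z = g := by
    rw [sum_product_right]
    simp only [u, s0.sum_eq, s1.sum_eq]
  have e0 : ∀ z ∈ s0.X ×ˢ s1.X, Lap (ρ.comp (inc false)) (u z) = z.1 • u z := fun z hz =>
    s0.eig _ (mem_product.1 hz).1 _
  have e1 : ∀ z ∈ s0.X ×ˢ s1.X, Lap (ρ.comp (inc true)) (u z) = z.2 • u z := fun z hz => by
    simp only [u]
    rw [← Module.End.mul_apply, s0.comm _ Lap_inc_comm.symm, Module.End.mul_apply,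
      s1.eig _ (mem_product.1 hz).2, map_smul]
  have em : ∀ z, u z ∈ Eig ρ l := fun z =>
    s0.mem _ (Lap_inc_mem false l) _ _ (s1.mem _ (Lap_inc_mem true l) _ _ hg)
  have orth : ∀ u' : ℝ × ℝ → V,
      (∀ z ∈ s0.X ×ˢ s1.X, Lap (ρ.comp (inc false)) (u' z) = z.1 • u' z) →
      (∀ z ∈ s0.X ×ˢ s1.X, Lap (ρ.comp (inc true)) (u' z) = z.2 • u' z) →
      ∀ i ∈ s0.X ×ˢ s1.X, ∀ j ∈ s0.X ×ˢ s1.X, i ≠ j → ⟪u' i, u' j⟫ = 0 := by
    intro u' a0 a1 i hi j hj hne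
    by_cases h : i.1 = j.1
    · exact eig_orth hs1 (a1 i hi) (a1 j hj) fun h' => hne (Prod.ext h h')
    · exact eig_orth hs0 (a0 i hi) (a0 j hj) h
  have ou := orth u e0 e1
  have cA : ∀ (b c : Bool) (x : ℝ) (w : V), Lap (ρ.comp (inc c)) w = x • w →
      Lap (ρ.comp (inc c)) ((Ex fun ω => ρ (inc b (f ω))) w)
        = x • (Ex fun ω => ρ (inc b (f ω))) w := by
    intro b c x w hw
    rw [← Module.End.mul_apply, End_mul_Ex]
    simp only [← rep_comm_Lap_inc]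
    rw [← Ex_mul_End, Module.End.mul_apply, hw, map_smul]
  refine ⟨s0.X ×ˢ s1.X, fun z => ‖u z‖ ^ 2, fun z => sq_nonneg _, ?_, ?_, ?_, ?_, ?_⟩
  · rw [← pyth _ _ ou, hsum]
  · intro z hz hw
    have hne : u z ≠ 0 := fun h => hw (by simp [h])
    exact ⟨eig_nonneg (hρ.comp _) (e0 z hz) hne, eig_nonneg (hρ.comp _) (e1 z hz) hne,
      sum_le_two hρ (em z) hne (e0 z hz) (e1 z hz)⟩
  · rw [← hsum, map_sum, map_sum, pyth _ _ (orth _
      (fun z hz => cA _ _ _ _ (cA _ _ _ _ (e0 z hz)))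
      (fun z hz => cA _ _ _ _ (cA _ _ _ _ (e1 z hz))))]
    refine sum_le_sum fun z hz => (ih false z.1 _ (cA _ _ _ _ (e0 z hz))).trans ?_
    have := mul_le_mul_of_nonneg_left (ih true z.2 _ (e1 z hz)) (hφ z.1)
    linarith
  · intro q
    rw [← inner_pow_sum _ u (fun z => l - z.1 - z.2) ou (T := ∑ p, Mz ρ p), hsum]
    intro z hz
    rw [← Z_eq, LinearMap.sub_apply, LinearMap.sub_apply, e0 z hz, e1 z hz,
      show Lap ρ (u z) = l • u z from em z, sub_smul, sub_smul]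
  · intro q
    rw [← inner_pow_sum _ u (fun z => z.1 - z.2) ou (T := ∑ p, Jd ρ p), hsum]
    intro z hz
    rw [← D_eq, LinearMap.sub_apply, e0 z hz, e1 z hz, sub_smul]

omit [Nonempty U] in
theorem pr_norm_le (hρ : Orth ρ) (v : V) : ‖pr ρ ∅ v‖ ≤ ‖v‖ := by
  unfold pr
  simp only [chi_empty, one_smul]
  exact hρ.norm_Ex _ v

theorem joint_exp [FiniteDimensional ℝ V] (hρ : Orth ρ) {Ω : Type} [Fintype Ω] (f : Ω → Perm U)
    (φ : ℝ → ℝ) (hφ : ∀ x, 0 ≤ φ x)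
    (ih : ∀ b x w, Lap (ρ.comp (inc b)) w = x • w →
      ‖(Ex fun ω => ρ (inc b (f ω))) w‖ ^ 2 ≤ φ x * ‖w‖ ^ 2) {l : ℝ} {v : V} (hv : v ∈ Eig ρ l) :
    ∃ (s : Finset (ℝ × ℝ)) (w : ℝ × ℝ → ℝ), (∀ z, 0 ≤ w z) ∧
      (∀ z ∈ s, w z ≠ 0 → 0 ≤ z.1 ∧ 0 ≤ z.2 ∧ z.1 + z.2 ≤ 2 * l) ∧
      ‖(Ex fun ω => ρ (inc false (f ω))) ((Ex fun ω => ρ (inc true (f ω))) (pr ρ ∅ v))‖ ^ 2
        ≤ ∑ z ∈ s, w z * (φ z.1 * φ z.2) ∧
      (∀ θ ε : ℝ, 0 ≤ θ → 0 ≤ ε → l / (2 * Fintype.card U) ≤ 16 * ε ^ 4 →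
        ε * Real.exp (21 * θ) ≤ 1 / 2 →
        ∑ z ∈ s, w z * Real.exp (θ * |l - z.1 - z.2|) ≤ 4 * ‖v‖ ^ 2) ∧
      (0 < l → ∑ z ∈ s, w z * Real.exp ((384 * l)⁻¹ * (z.1 - z.2) ^ 2) ≤ 2 * ‖v‖ ^ 2) ∧
      (∀ t ε : ℝ, 0 ≤ t → t ≤ 1 / 210 → 0 ≤ ε → ε ≤ 1 / 2 →
        l / (2 * Fintype.card U) ≤ 16 * ε ^ 4 →
        ∑ z ∈ s, w z * Real.exp (t * (l - z.1 - z.2)) ≤ (1 + 150000 * ε * t ^ 2) * ‖v‖ ^ 2) := by
  obtain ⟨s, w, hw0, hw1, hsup, hA, hZ, hD⟩ := joint hρ f φ hφ ih (pr_mem _ (Eig_rep ρ l) ∅ hv)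
  have hg : ‖pr ρ ∅ v‖ ^ 2 ≤ ‖v‖ ^ 2 := pow_le_pow_left₀ (norm_nonneg _) (pr_norm_le hρ v) 2
  set G := ‖pr ρ ∅ v‖ ^ 2 with hG
  have hG0 : 0 ≤ G := sq_nonneg _
  refine ⟨s, w, hw0, hsup, hA, ?_, ?_, ?_⟩
  · intro θ ε hθ hε0 hl hε
    have hε' : ε ≤ 1 / 2 := by
      have := Real.one_le_exp (show 0 ≤ 21 * θ by positivity)
      nlinarith
    have hm := fun q => Z_mom hρ hε0 hε' hl hv q
    have key : ∀ σ : ℝ, |σ| = 1 →
        ∑ z ∈ s, w z * Real.exp (θ * (σ * (l - z.1 - z.2))) ≤ 2 * ‖v‖ ^ 2 := by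
      intro σ hσ
      have h := series_le s (range (Fintype.card U + 1)) w (fun z => σ * (l - z.1 - z.2))
        (fun i => G * ε ^ i) (fun i => 21 * (i : ℝ)) (fun p => θ ^ p / (p.factorial : ℝ))
        (fun p => by positivity) (fun x => Real.exp (θ * x)) (hasSum_exp θ) (fun p _ => by
          have e : ∑ z ∈ s, w z * (σ * (l - z.1 - z.2)) ^ p
              = σ ^ p * ∑ z ∈ s, w z * (l - z.1 - z.2) ^ p := by
            rw [mul_sum]
            exact sum_congr rfl fun z _ => by rw [mul_pow]; ring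
          rw [e, hZ]
          refine (le_abs_self _).trans ?_
          rw [abs_mul, abs_pow, hσ, one_pow, one_mul]
          refine (hm p).trans (le_of_eq ?_)
          rw [mul_sum]
          exact sum_congr rfl fun i _ => by ring)
      refine h.trans ?_
      have h2 : ∑ i ∈ range (Fintype.card U + 1), G * ε ^ i * Real.exp (θ * (21 * (i : ℝ)))
          ≤ ∑ i ∈ range (Fintype.card U + 1), G * (1 / 2 : ℝ) ^ i := by
        refine sum_le_sum fun i _ => ?_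
        rw [mul_assoc, show θ * (21 * (i : ℝ)) = i * (21 * θ) by ring, Real.exp_nat_mul, ← mul_pow]
        exact mul_le_mul_of_nonneg_left (pow_le_pow_left₀ (by positivity) hε i) hG0
      refine h2.trans ?_
      rw [← mul_sum]
      have h3 := geo (r := 1 / 2) (by norm_num) (by norm_num) (Fintype.card U + 1)
      norm_num at h3
      have := mul_le_mul_of_nonneg_left h3 hG0
      simp only [one_div] at this ⊢
      linarith
    have k1 := key 1 (by simp)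
    have k2 := key (-1) (by simp)
    have : ∑ z ∈ s, w z * Real.exp (θ * |l - z.1 - z.2|)
        ≤ ∑ z ∈ s, (w z * Real.exp (θ * (1 * (l - z.1 - z.2)))
          + w z * Real.exp (θ * (-1 * (l - z.1 - z.2)))) := by
      refine sum_le_sum fun z _ => ?_
      rw [← mul_add]
      refine mul_le_mul_of_nonneg_left ?_ (hw0 z)
      rcases abs_cases (l - z.1 - z.2) with h | h
      · rw [h.1, one_mul]
        linarith [Real.exp_pos (θ * (-1 * (l - z.1 - z.2)))]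
      · rw [h.1, neg_one_mul]
        linarith [Real.exp_pos (θ * (1 * (l - z.1 - z.2)))]
    rw [sum_add_distrib] at this
    linarith
  · intro hl
    have h1 := hasSum_sum (s := s) fun z _ =>
      (hasSum_exp (384 * l)⁻¹ ((z.1 - z.2) ^ 2)).mul_left (w z)
    have h2 := (hasSum_geometric_of_lt_one (r := 1 / 2) (by norm_num) (by norm_num)).mul_left G
    have h3 := hasSum_le (fun p => ?_) h1 h2
    · norm_num at h3 ⊢
      linarith
    have e : ∑ z ∈ s, w z * ((384 * l)⁻¹ ^ p / (p.factorial : ℝ) * ((z.1 - z.2) ^ 2) ^ p)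
        = (384 * l)⁻¹ ^ p / (p.factorial : ℝ) * ∑ z ∈ s, w z * (z.1 - z.2) ^ (2 * p) := by
      rw [mul_sum]
      exact sum_congr rfl fun z _ => by rw [pow_mul]; ring
    rw [e, hD]
    have m1 := (D_mom hρ (Real.sqrt_nonneg (8 * l)) (by rw [Real.sq_sqrt (by positivity)]) hv
      (2 * p)).2 0
    have e3 : (2 * √(8 * l) * √((2 * p : ℕ) : ℝ)) ^ (2 * p)
        = (2 ^ 2 * (8 * l) * ((2 * p : ℕ) : ℝ)) ^ p := by
      rw [pow_mul]
      congr 1
      rw [mul_pow, mul_pow, Real.sq_sqrt (by positivity), Real.sq_sqrt (by positivity)]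
    rw [if_pos (Nat.zero_le _), e3] at m1
    have m2 := (le_abs_self _).trans ((inner_le_Un hρ v _).trans
      (mul_le_mul_of_nonneg_left m1 (norm_nonneg _)))
    refine (mul_le_mul_of_nonneg_left m2 (by positivity)).trans ?_
    have m3 := Real.pow_div_factorial_le_exp (p : ℝ) (Nat.cast_nonneg p) p
    have m4 : Real.exp p ≤ 3 ^ p := by
      rw [← mul_one (p : ℝ), Real.exp_nat_mul]
      exact pow_le_pow_left₀ (Real.exp_pos _).le (by linarith [Real.exp_one_lt_d9]) p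
    have e2 : (384 * l)⁻¹ ^ p / (p.factorial : ℝ) * (‖pr ρ ∅ v‖ *
        ((2 ^ 2 * (8 * l) * ((2 * p : ℕ) : ℝ)) ^ p * ‖pr ρ ∅ v‖))
        = G * ((1 / 6) ^ p * ((p : ℝ) ^ p / p.factorial)) := by
      have : (384 * l)⁻¹ ^ p * (2 ^ 2 * (8 * l) * ((2 * p : ℕ) : ℝ)) ^ p
          = (1 / 6) ^ p * (p : ℝ) ^ p := by
        rw [← mul_pow, ← mul_pow]
        congr 1
        push_cast
        field_simp
        ring
      rw [hG, ← mul_div_assoc, ← this]
      ring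
    rw [e2]
    refine mul_le_mul_of_nonneg_left ?_ hG0
    refine (mul_le_mul_of_nonneg_left (m3.trans m4) (by positivity)).trans ?_
    rw [← mul_pow]
    norm_num
  · intro t ε ht0 ht hε0 hε hl
    have hm := fun q => Z_mom hρ hε0 hε hl hv q
    have h := series_le s (range (Fintype.card U + 1)) w (fun z => l - z.1 - z.2)
      (fun i => G * ε ^ i) (fun i => 21 * (i : ℝ))
      (fun p => if p < 2 then 0 else t ^ p / (p.factorial : ℝ))
      (fun p => by split_ifs <;> positivity) (fun x => Real.exp (t * x) - 1 - t * x)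
      (hasSum_exp2 t) (fun p _ => by
        rw [hZ]
        refine (le_abs_self _).trans ((hm p).trans (le_of_eq ?_))
        rw [mul_sum]
        exact sum_congr rfl fun i _ => by ring)
    have z1 := hZ 1
    simp only [pow_one] at z1
    rw [Z_first hρ hv] at z1
    have e : ∑ z ∈ s, w z * (Real.exp (t * (l - z.1 - z.2)) - 1 - t * (l - z.1 - z.2))
        = ∑ z ∈ s, w z * Real.exp (t * (l - z.1 - z.2)) - ∑ z ∈ s, w z
          - t * ∑ z ∈ s, w z * (l - z.1 - z.2) := by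
      rw [mul_sum, ← sum_sub_distrib, ← sum_sub_distrib]
      exact sum_congr rfl fun z _ => by ring
    rw [e, z1, hw1] at h
    have h2 : ∑ i ∈ range (Fintype.card U + 1),
        G * ε ^ i * (Real.exp (t * (21 * (i : ℝ))) - 1 - t * (21 * (i : ℝ)))
        ≤ ∑ i ∈ range (Fintype.card U + 1), G * (30000 * ε * t ^ 2) * (4 / 5 : ℝ) ^ i := by
      refine sum_le_sum fun i _ => ?_
      rw [mul_assoc, mul_assoc]
      refine mul_le_mul_of_nonneg_left ?_ hG0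
      rcases i with _ | i
      · simp only [Nat.cast_zero, mul_zero, Real.exp_zero, sub_self]
        positivity
      have a1 := exp_sub_le (show 0 ≤ t * (21 * ((i + 1 : ℕ) : ℝ)) by positivity)
      have a2 := Real.pow_div_factorial_le_exp (((i + 1 : ℕ) : ℝ) / 4) (by positivity) 2
      have a3 : Real.exp (t * (21 * ((i + 1 : ℕ) : ℝ))) * Real.exp (((i + 1 : ℕ) : ℝ) / 4)
          ≤ (8 / 5) ^ (i + 1) := by
        rw [← Real.exp_add, show t * (21 * ((i + 1 : ℕ) : ℝ)) + ((i + 1 : ℕ) : ℝ) / 4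
          = ((i + 1 : ℕ) : ℝ) * (21 * t + 1 / 4) by ring, Real.exp_nat_mul]
        refine pow_le_pow_left₀ (Real.exp_pos _).le ((exp_le_inv (by linarith)).trans ?_) _
        rw [inv_le_comm₀ (by linarith) (by norm_num)]
        linarith
      have a4 : ε ^ (i + 1) ≤ 2 * ε * (1 / 2) ^ (i + 1) := by
        rw [pow_succ, pow_succ]
        have := pow_le_pow_left₀ hε0 hε i
        nlinarith
      have a5 : (((i + 1 : ℕ) : ℝ)) ^ 2 ≤ 32 * Real.exp (((i + 1 : ℕ) : ℝ) / 4) := by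
        simp only [Nat.factorial_two, Nat.cast_ofNat] at a2
        linarith
      have a6 : (t * (21 * ((i + 1 : ℕ) : ℝ))) ^ 2 * Real.exp (t * (21 * ((i + 1 : ℕ) : ℝ)))
          ≤ 441 * 32 * t ^ 2 * (8 / 5) ^ (i + 1) := by
        have b1 := mul_le_mul_of_nonneg_right a5 (Real.exp_pos (t * (21 * ((i + 1 : ℕ) : ℝ)))).le
        have b2 := mul_le_mul_of_nonneg_left (b1.trans (show _ ≤ 32 * (8 / 5 : ℝ) ^ (i + 1) by
          nlinarith)) (show 0 ≤ 441 * t ^ 2 by positivity)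
        nlinarith
      have a7 := mul_le_mul a4 (a1.trans a6) (by
        linarith [Real.add_one_le_exp (t * (21 * ((i + 1 : ℕ) : ℝ)))]) (by positivity)
      refine a7.trans ?_
      have : (4 / 5 : ℝ) ^ (i + 1) = (1 / 2) ^ (i + 1) * (8 / 5) ^ (i + 1) := by
        rw [← mul_pow]; norm_num
      rw [this]
      have : 0 ≤ ε * t ^ 2 * ((1 / 2 : ℝ) ^ (i + 1) * (8 / 5) ^ (i + 1)) := by positivity
      nlinarith
    rw [← mul_sum] at h2
    have h3 := geo (r := 4 / 5) (by norm_num) (by norm_num) (Fintype.card U + 1)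
    have h4 := mul_le_mul_of_nonneg_left h3 (show 0 ≤ G * (30000 * ε * t ^ 2) by positivity)
    have h5 := mul_le_mul_of_nonneg_left hg (show 0 ≤ 1 + 150000 * ε * t ^ 2 by positivity)
    norm_num at h4
    nlinarith

end Vale.Agent.P162
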