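import Vale.Agent.P162.Enc

/-! Exponential moment of the total weight of the Benes network. -/

namespace Vale.Agent.P162

open Finset Equiv

/-- level of a switch -/
def lev : (d : ℕ) → Sw d → ℕ
  | 0, _ => 0
  | d + 1, σ => Sum.elim (fun _ => d + 1) (fun x : Bool × Sw d => lev d x.2) σ

theorem lev_le (d : ℕ) : ∀ σ, lev d σ ≤ d := by
  induction d with
  | zero => intro σ; exact le_rfl
  | succ d ih =>
    rintro (u | ⟨b, σ⟩)
    · exact le_rfl
    · exact (ih σ).trans (Nat.le_succ d)

/-- outer layers from the first setting, inner layers from the second -/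
def splice (c : ℕ) {d : ℕ} (a b : Sw d → Bool) : Sw d → Bool :=
  fun σ => if c < lev d σ then a σ else b σ

theorem splice_low {c d : ℕ} (h : d ≤ c) (a b : Sw d → Bool) : splice c a b = b := by
  ext σ
  exact if_neg (by have := lev_le d σ; omega)

theorem Ex_splice (c : ℕ) {d : ℕ} (f : (Sw d → Bool) → ℝ) :
    Ex f = Ex fun b => Ex fun a => f (splice c a b) := by
  let e : (Sw d → Bool) × (Sw d → Bool) ≃ (Sw d → Bool) × (Sw d → Bool) :=
    { toFun := fun p => (splice c p.2 p.1, splice c p.1 p.2)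
      invFun := fun p => (splice c p.2 p.1, splice c p.1 p.2)
      left_inv := fun p => by
        ext σ <;> simp only [splice] <;> split_ifs <;> rfl
      right_inv := fun p => by
        ext σ <;> simp only [splice] <;> split_ifs <;> rfl }
  have h1 := Ex_equiv e fun p => f p.1
  rw [Ex_prod, Ex_prod] at h1
  simp only [Ex_const] at h1
  exact h1.symm

/-- typed constructors -/
def swT {d : ℕ} (u : Q d) : Sw (d + 1) := Sum.inl u
/-- typed constructors -/
def swS {d : ℕ} (b : Bool) (σ : Sw d) : Sw (d + 1) := Sum.inr (b, σ)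
/-- typed constructors -/
def qm {d : ℕ} (u : Q d) (b : Bool) : Q (d + 1) := (u, b)

theorem swT_inj {d : ℕ} {u v : Q d} : swT u = swT v ↔ u = v := Sum.inl_injective.eq_iff
theorem swS_inj {d : ℕ} {b b' : Bool} {σ σ' : Sw d} :
    swS b σ = swS b' σ' ↔ b = b' ∧ σ = σ' := Sum.inr_injective.eq_iff.trans Prod.mk_inj
theorem swT_ne {d : ℕ} {u : Q d} {b : Bool} {σ : Sw d} : swT u ≠ swS b σ := Sum.inl_ne_inr
theorem qm_inj {d : ℕ} {u v : Q d} {b b' : Bool} : qm u b = qm v b' ↔ u = v ∧ b = b' :=
  Prod.mk_inj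
theorem sw_cases {d : ℕ} (σ : Sw (d + 1)) : (∃ u, σ = swT u) ∨ ∃ b τ, σ = swS b τ := by
  rcases σ with u | ⟨b, τ⟩
  · exact Or.inl ⟨u, rfl⟩
  · exact Or.inr ⟨b, τ, rfl⟩
theorem q_cases {d : ℕ} (x : Q (d + 1)) : ∃ u b, x = qm u b := ⟨x.1, x.2, rfl⟩
theorem mem_half' {d : ℕ} {C : Finset (Q (d + 1))} {s : Q d → Bool} {b : Bool} {u : Q d} :
    u ∈ half C s b ↔ qm u (xor b (s u)) ∈ C := mem_half

theorem bf_succ {d : ℕ} (ω : Sw (d + 1) → Bool) (u : Q d) (b : Bool) :
    bf (d + 1) ω (qm u b) = qm (bf d (sub ω (xor b (top ω u))) u) (xor b (top ω u)) := by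
  change pair (bf d (sub ω false)) (bf d (sub ω true)) (u, xor b (top ω u)) = _
  rw [pair_apply]
  cases xor b (top ω u) <;> rfl

/-- switches above the cutoff met by a card -/
def path (c : ℕ) : (d : ℕ) → (Sw d → Bool) → Q d → Finset (Sw d)
  | 0, _, _ => ∅
  | d + 1, ω, x => if c < d + 1 then
      insert (swT x.1) ((path c d (sub ω (xor x.2 (top ω x.1))) x.1).image
        (swS (xor x.2 (top ω x.1))))
    else ∅

theorem path_succ {c d : ℕ} (ω : Sw (d + 1) → Bool) (u : Q d) (b : Bool) :
    path c (d + 1) ω (qm u b) = if c < d + 1 then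
      insert (swT u) ((path c d (sub ω (xor b (top ω u))) u).image (swS (xor b (top ω u))))
    else ∅ := rfl

theorem mem_path_inl {c d : ℕ} (ω : Sw (d + 1) → Bool) (u : Q d) (b : Bool) (v : Q d) :
    swT v ∈ path c (d + 1) ω (qm u b) ↔ c < d + 1 ∧ v = u := by
  rw [path_succ]
  by_cases h : c < d + 1 <;> simp [h, swT_inj, swT_ne.symm]

theorem mem_path_inr {c d : ℕ} (ω : Sw (d + 1) → Bool) (u : Q d) (b b' : Bool) (σ : Sw d) :
    swS b' σ ∈ path c (d + 1) ω (qm u b) ↔ c < d + 1 ∧ b' = xor b (top ω u) ∧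
        σ ∈ path c d (sub ω b') u := by
  rw [path_succ]
  by_cases h : c < d + 1
  · simp only [h, if_true, mem_insert, mem_image, true_and, swT_ne.symm, false_or, swS_inj]
    constructor
    · rintro ⟨τ, h1, h2, rfl⟩
      subst h2
      exact ⟨rfl, h1⟩
    · rintro ⟨rfl, h1⟩
      exact ⟨σ, h1, rfl, rfl⟩
  · simp [h]

theorem path_lev (c d : ℕ) : ∀ ω x, ∀ σ ∈ path c d ω x, c < lev d σ := by
  induction d with
  | zero => intro ω x σ; exact σ.elim
  | succ d ih =>
    intro ω x σ h
    obtain ⟨u, b, rfl⟩ := q_cases x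
    obtain ⟨v, rfl⟩ | ⟨b', σ, rfl⟩ := sw_cases σ
    · exact ((mem_path_inl ω u b v).1 h).1
    · exact ih _ _ _ ((mem_path_inr ω u b b' σ).1 h).2.2

theorem path_loc (c d : ℕ) : ∀ (ω ω' : Sw d → Bool) x, (∀ σ, lev d σ ≤ c → ω σ = ω' σ) →
    (∀ σ ∈ path c d ω x, ω σ = ω' σ) → path c d ω' x = path c d ω x ∧ bf d ω' x = bf d ω x := by
  induction d with
  | zero => intro ω ω' x _ _; exact ⟨rfl, rfl⟩
  | succ d ih =>
    intro ω ω' x hA h
    obtain ⟨u, b, rfl⟩ := q_cases x
    by_cases hc : c < d + 1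
    · have e : top ω' u = top ω u := (h (swT u) ((mem_path_inl ω u b u).2 ⟨hc, rfl⟩)).symm
      obtain ⟨i1, i2⟩ := ih (sub ω (xor b (top ω u))) (sub ω' (xor b (top ω u))) u
        (fun σ hσ => hA (swS _ σ) hσ)
        (fun σ hσ => h (swS _ σ) ((mem_path_inr ω u b _ σ).2 ⟨hc, rfl, hσ⟩))
      constructor
      · rw [path_succ, path_succ, e, i1]
      · rw [bf_succ, bf_succ, e, i2]
    · have : ω = ω' := funext fun σ => hA σ (by have := lev_le _ σ; omega)
      subst this
      exact ⟨rfl, rfl⟩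

theorem path_uniq (c d : ℕ) : ∀ (ω ω' : Sw d → Bool) x, bf d ω x = bf d ω' x →
    ∀ σ ∈ path c d ω x, ω σ = ω' σ := by
  induction d with
  | zero => intro ω ω' x _ σ; exact σ.elim
  | succ d ih =>
    intro ω ω' x h σ hσ
    obtain ⟨u, b, rfl⟩ := q_cases x
    rw [bf_succ, bf_succ] at h
    obtain ⟨h1, h2⟩ := qm_inj.1 h
    rw [← h2] at h1
    obtain ⟨v, rfl⟩ | ⟨b', σ, rfl⟩ := sw_cases σ
    · obtain ⟨-, rfl⟩ := (mem_path_inl ω u b v).1 hσ
      exact Bool.xor_right_inj.1 h2
    · obtain ⟨-, rfl, h3⟩ := (mem_path_inr ω u b b' σ).1 hσ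
      exact ih _ _ u h1 σ h3

theorem path_len (c d : ℕ) : ∀ ω x, d - c ≤ (path c d ω x).card := by
  induction d with
  | zero => intro ω x; simp
  | succ d ih =>
    intro ω x
    obtain ⟨u, b, rfl⟩ := q_cases x
    by_cases hc : c < d + 1
    · have e : (path c (d + 1) ω (qm u b)).card
          = (path c d (sub ω (xor b (top ω u))) u).card + 1 := by
        rw [path_succ, if_pos hc, card_insert_of_notMem (by simp [swT_ne.symm]),
          card_image_of_injective _ fun _ _ h => (swS_inj.1 h).2]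
      have := ih (sub ω (xor b (top ω u))) u
      omega
    · omega

theorem path_two (c d : ℕ) : ∀ ω σ, (univ.filter fun x => σ ∈ path c d ω x).card ≤ 2 := by
  induction d with
  | zero => intro ω σ; exact σ.elim
  | succ d ih =>
    intro ω σ
    obtain ⟨v, rfl⟩ | ⟨b', σ, rfl⟩ := sw_cases σ
    · refine le_trans (card_le_card (t := {qm v false, qm v true}) ?_) card_le_two
      intro x h
      obtain ⟨u, b, rfl⟩ := q_cases x
      obtain ⟨-, rfl⟩ := (mem_path_inl ω u b v).1 (mem_filter.1 h).2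
      cases b <;> simp
    · refine le_trans (card_le_card_of_injOn (fun x : Q (d + 1) => (x.1 : Q d)) ?_ ?_)
        (ih (sub ω b') σ)
      · intro x h
        obtain ⟨u, b, rfl⟩ := q_cases x
        exact mem_filter.2 ⟨mem_univ _, ((mem_path_inr ω u b b' σ).1 (mem_filter.1 h).2).2.2⟩
      · intro x h y h' e
        obtain ⟨u, b, rfl⟩ := q_cases x
        obtain ⟨u', b'', rfl⟩ := q_cases y
        have e : u = u' := e
        subst e
        have a1 := ((mem_path_inr ω u b b' σ).1 (mem_filter.1 h).2).2.1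
        have a2 := ((mem_path_inr ω u b'' b' σ).1 (mem_filter.1 h').2).2.1
        rw [Bool.xor_left_inj.1 (a1.symm.trans a2)]

theorem path_deg (c d : ℕ) : ∀ ω (C : Finset (Q d)), C.Nonempty → ∃ r ∈ C,
    2 ^ ((path c d ω r).filter fun σ => ∃ y ∈ C, y ≠ r ∧ σ ∈ path c d ω y).card ≤ C.card := by
  induction d with
  | zero =>
    rintro ω C ⟨r, hr⟩
    exact ⟨r, hr, by simpa [path] using ⟨r, hr⟩⟩
  | succ d ih =>
    have key : ∀ (ω : Sw (d + 1) → Bool) (C : Finset (Q (d + 1))) (b' : Bool),
        (half C (top ω) b').Nonempty → ∃ r ∈ C, ∃ k, 2 ^ k ≤ (half C (top ω) b').card ∧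
        ((path c (d + 1) ω r).filter fun σ => ∃ y ∈ C, y ≠ r ∧ σ ∈ path c (d + 1) ω y).card
          ≤ k + min 1 (half C (top ω) (!b')).card := by
      intro ω C b' hne
      obtain ⟨u, hu, h⟩ := ih (sub ω b') _ hne
      refine ⟨qm u (xor b' (top ω u)), mem_half'.1 hu, _, h, ?_⟩
      have hsub : ((path c (d + 1) ω (qm u (xor b' (top ω u)))).filter fun σ =>
          ∃ y ∈ C, y ≠ qm u (xor b' (top ω u)) ∧ σ ∈ path c (d + 1) ω y) ⊆
          ((path c d (sub ω b') u).filter fun σ => ∃ y ∈ half C (top ω) b', y ≠ u ∧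
            σ ∈ path c d (sub ω b') y).image (swS b') ∪
            ((half C (top ω) (!b')).filter fun v => v = u).image swT := by
        intro σ hσ
        obtain ⟨h1, y, h2, h3, h4⟩ := mem_filter.1 hσ
        obtain ⟨u2, b3, rfl⟩ := q_cases y
        obtain ⟨v, rfl⟩ | ⟨b2, σ, rfl⟩ := sw_cases σ
        · obtain ⟨-, rfl⟩ := (mem_path_inl ω u _ v).1 h1
          obtain ⟨-, rfl⟩ := (mem_path_inl ω u2 _ v).1 h4
          refine mem_union_right _ (mem_image_of_mem _ (mem_filter.2 ⟨mem_half'.2 ?_, rfl⟩))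
          have : xor (!b') (top ω v) = b3 := by
            revert h3
            simp only [ne_eq, qm_inj]
            cases b' <;> cases b3 <;> cases top ω v <;> simp
          rw [this]
          exact h2
        · obtain ⟨-, e1, m1⟩ := (mem_path_inr ω u _ b2 σ).1 h1
          obtain ⟨-, e2, m2⟩ := (mem_path_inr ω u2 _ b2 σ).1 h4
          have e3 : b2 = b' := by rw [e1]; simp
          subst e3
          have e4 : xor b2 (top ω u2) = b3 := by rw [e2]; simp
          refine mem_union_left _ (mem_image_of_mem _ (mem_filter.2 ⟨m1, u2,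
            mem_half'.2 (e4 ▸ h2), fun h5 => h3 ?_, m2⟩))
          rw [← e4, h5]
      refine (card_le_card hsub).trans ((card_union_le _ _).trans (add_le_add card_image_le
        (card_image_le.trans (le_min ?_ (card_filter_le _ _)))))
      exact card_le_one.2 fun a ha b hb => (mem_filter.1 ha).2.trans (mem_filter.1 hb).2.symm
    intro ω C hC
    have hc : (half C (top ω) false).card + (half C (top ω) true).card = C.card :=
      card_half (U := Q d) C (top ω)
    have hpos := card_pos.2 hC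
    obtain ⟨b', h1, h2⟩ : ∃ b' : Bool, 0 < (half C (top ω) b').card ∧
        ((half C (top ω) (!b')).card = 0 ∨
          (half C (top ω) b').card ≤ (half C (top ω) (!b')).card) := by
      by_cases a : 0 < (half C (top ω) false).card ∧ ((half C (top ω) true).card = 0 ∨
          (half C (top ω) false).card ≤ (half C (top ω) true).card)
      · exact ⟨false, a⟩
      · refine ⟨true, ?_⟩
        change 0 < (half C (top ω) true).card ∧ ((half C (top ω) false).card = 0 ∨
          (half C (top ω) true).card ≤ (half C (top ω) false).card)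
        omega
    have hc' : (half C (top ω) b').card + (half C (top ω) (!b')).card = C.card := by
      cases b'
      · exact hc
      · rw [add_comm]; exact hc
    obtain ⟨r, hr, k, k1, k2⟩ := key ω C b' (card_pos.1 h1)
    refine ⟨r, hr, le_trans (Nat.pow_le_pow_right (by norm_num) k2) ?_⟩
    rcases h2 with h2 | h2
    · rw [h2]
      simp only [Nat.zero_le, inf_of_le_right, add_zero]
      omega
    · rw [min_eq_left (by omega), pow_succ]
      omega

/-- the network given by the outer layers -/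
def net (c d L : ℕ) (hL : L ≤ d - c) (b : Sw d → Bool) (g g' : Perm (Q d)) : Net (Sw d) (Q d) L where
  V a := g * bf d (splice c a b) * g'
  path a u := path c d (splice c a b) (g' u)
  loc a a' y h := by
    obtain ⟨h1, h2⟩ := path_loc c d (splice c a b) (splice c a' b) (g' y)
      (fun σ hσ => by simp only [splice, if_neg (not_lt.2 hσ)])
      (fun σ hσ => by simp only [splice, if_pos (path_lev c d _ _ σ hσ), h σ hσ])
    exact ⟨h1, by simp only [Perm.mul_apply, h2]⟩
  uniq a a' y h σ hσ := by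
    have := path_uniq c d (splice c a b) (splice c a' b) (g' y) (g.injective h) σ hσ
    simpa only [splice, if_pos (path_lev c d _ _ σ hσ)] using this
  len a y := hL.trans (path_len c d _ _)
  two a σ := by
    refine le_trans (card_le_card_of_injOn g' ?_ g'.injective.injOn) (path_two c d (splice c a b) σ)
    intro y hy
    exact mem_filter.2 ⟨mem_univ _, (mem_filter.1 hy).2⟩
  deg a C hC := by
    obtain ⟨r, hr, h⟩ := path_deg c d (splice c a b) (C.image g') (hC.image _)
    obtain ⟨r, hr', rfl⟩ := mem_image.1 hr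
    rw [card_image_of_injective _ g'.injective] at h
    refine ⟨r, hr', le_trans (Nat.pow_le_pow_right (by norm_num) (card_le_card fun σ hσ => ?_)) h⟩
    obtain ⟨h1, y, h2, h3, h4⟩ := mem_filter.1 hσ
    exact mem_filter.2 ⟨h1, g' y, mem_image_of_mem _ h2, fun h => h3 (g'.injective h), h4⟩

theorem invc_inv {U : Type} [DecidableEq U] (π : Perm U) (X : Finset U) :
    invc π⁻¹ X = invc π X := by
  unfold invc
  congr 1
  refine filter_congr fun I _ => ⟨fun h => ?_, fun h => ?_⟩
  · conv_lhs => rw [← h, image_image]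
    simp
  · conv_lhs => rw [← h, image_image]
    simp

theorem nu_nonneg (d j : ℕ) : ∀ X ω ω', 0 ≤ nu d j X ω ω' := by
  induction d with
  | zero => intro X ω ω'; exact le_rfl
  | succ d ih =>
    intro X ω ω'
    unfold nu
    split_ifs
    · exact Real.log_nonneg (by exact_mod_cast invc_pos _ _)
    · exact add_nonneg (ih _ _ _) (ih _ _ _)

theorem nu_le (d j : ℕ) : ∀ X ω ω', nu d j X ω ω' ≤ X.card := by
  induction d with
  | zero => intro X ω ω'; exact Nat.cast_nonneg _
  | succ d ih =>
    intro X ω ω'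
    have hc : (half X (top ω) false).card + (half X (top ω) true).card = X.card :=
      card_half (U := Q d) X (top ω)
    have hc' : ((half X (top ω) false).card : ℝ) + (half X (top ω) true).card = X.card := by
      exact_mod_cast hc
    unfold nu
    split_ifs
    · have h1 : ∀ π : Perm (Q d), invc π (half X (top ω) false)
          ≤ 2 ^ (half X (top ω) false).card := fun π =>
        (card_filter_le _ _).trans (card_powerset _).le
      refine le_trans (Real.log_le_log (by exact_mod_cast invc_pos _ _)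
        (y := 2 ^ (half X (top ω) false).card) (by exact_mod_cast h1 _)) ?_
      rw [Real.log_pow]
      have := Real.log_two_lt_d9
      have h0 : (0 : ℝ) ≤ (half X (top ω) false).card := Nat.cast_nonneg _
      have h0' : (0 : ℝ) ≤ (half X (top ω) true).card := Nat.cast_nonneg _
      nlinarith
    · linarith [ih (half X (top ω) false) (sub ω false) (sub ω' false),
        ih (half X (top ω) true) (sub ω true) (sub ω' true)]

theorem nu_splice (c j : ℕ) (hj : j ≤ c + 1) (d : ℕ) : ∀ X ω a b,
    nu d j X ω (splice c a b) = nu d j X ω b := by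
  induction d with
  | zero => intro X ω a b; rfl
  | succ d ih =>
    intro X ω a b
    have e : ∀ x, sub (splice c a b) x = splice c (sub a x) (sub b x) := fun _ => rfl
    unfold nu
    split_ifs with h
    · rw [e, e, splice_low (by omega), splice_low (by omega)]
    · rw [e, e, ih, ih]

theorem nu_mgf (c j L l0 g : ℕ) (hL : L ≤ j - 1 - c) (hl0 : 0 < l0) (hg : l0 ≤ 2 ^ g)
    {z h : ℝ} (hz : 0 < z) (hh : 0 ≤ h)
    (hθ : h * Real.log 2 ≤ Real.log z / 2 + ((L : ℝ) - g) / 8 * Real.log 2) (d : ℕ) :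
    ∀ X ω b, (Ex fun a => Real.exp (h * nu d j X ω (splice c a b)))
      ≤ Real.exp ((h / l0 + l0 * z) * X.card) := by
  have hγ : 0 ≤ h / l0 + l0 * z := by positivity
  induction d with
  | zero =>
    intro X ω b
    refine Ex_le_const fun a => Real.exp_le_exp.2 ?_
    change h * 0 ≤ _
    rw [mul_zero]
    positivity
  | succ d ih =>
    intro X ω b
    have hc : (half X (top ω) false).card + (half X (top ω) true).card = X.card :=
      card_half (U := Q d) X (top ω)
    have hc' : ((half X (top ω) false).card : ℝ) + (half X (top ω) true).card = X.card := by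
      exact_mod_cast hc
    have e : ∀ a x, sub (splice c a b) x = splice c (sub a x) (sub b x) := fun _ _ => rfl
    unfold nu
    split_ifs with hj
    · simp only [e]
      rw [Ex_split fun _ a0 a1 => Real.exp (h * Real.log (invc
        ((ben d (sub ω true) (splice c a1 (sub b true)))⁻¹ *
          ben d (sub ω false) (splice c a0 (sub b false))) (half X (top ω) false)))]
      refine Ex_le_const fun _ => ?_
      rw [Ex_comm]
      refine Ex_le_const fun a1 => ?_
      have := (net c d L (by omega) (sub b false) (bf d (sub ω false))⁻¹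
        (ben d (sub ω true) (splice c a1 (sub b true)))).mgf (half X (top ω) false) l0 g hl0 hg
        hz hh hθ
      refine le_trans (le_of_eq (Ex_congr fun a0 => ?_)) (this.trans (Real.exp_le_exp.2 ?_))
      · rw [← invc_inv]
        congr 4
      · refine mul_le_mul_of_nonneg_left ?_ hγ
        linarith [Nat.cast_nonneg (α := ℝ) (half X (top ω) true).card]
    · simp only [e, mul_add, Real.exp_add]
      rw [Ex_split fun _ a0 a1 =>
        Real.exp (h * nu d j (half X (top ω) false) (sub ω false) (splice c a0 (sub b false))) *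
        Real.exp (h * nu d j (half X (top ω) true) (sub ω true) (splice c a1 (sub b true)))]
      refine Ex_le_const fun _ => ?_
      rw [Ex_mul_Ex, ← hc', mul_add, Real.exp_add]
      exact mul_le_mul (ih _ _ _) (ih _ _ _) (Ex_nonneg fun _ => (Real.exp_pos _).le)
        (Real.exp_pos _).le

theorem exp_sum_le {ι : Type} (s : Finset ι) (hs : 0 < s.card) (a : ι → ℝ) :
    Real.exp (∑ j ∈ s, a j) ≤ (s.card : ℝ)⁻¹ * ∑ j ∈ s, Real.exp (s.card * a j) := by
  have hM : (0 : ℝ) < s.card := by exact_mod_cast hs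
  rw [le_inv_mul_iff₀ hM]
  set A := ∑ j ∈ s, a j with hA
  have h : ∑ j ∈ s, Real.exp A * (s.card * a j - A + 1) ≤ ∑ j ∈ s, Real.exp (s.card * a j) := by
    refine sum_le_sum fun j _ => ?_
    have := mul_le_mul_of_nonneg_left (Real.add_one_le_exp (s.card * a j - A)) (Real.exp_pos A).le
    rwa [← Real.exp_add, add_sub_cancel] at this
  rw [← mul_sum, sum_add_distrib, sum_sub_distrib, ← mul_sum, ← hA, sum_const, sum_const,
    nsmul_eq_mul, nsmul_eq_mul] at h
  linarith

theorem two_pow_ge (e : ℕ) (he : 9 ≤ e) : 2 + 36 * e ≤ 2 ^ e := by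
  induction e, he using Nat.le_induction with
  | base => norm_num
  | succ e he ih => rw [pow_succ]; omega

/-- a dyadic block of levels -/
noncomputable def blk (d e : ℕ) (X : Finset (Q d)) (ω ω' : Sw d → Bool) : ℝ :=
  ∑ j ∈ Ico (2 * 2 ^ e) (4 * 2 ^ e), nu d j X ω ω'

theorem blk_mgf (d e : ℕ) (X : Finset (Q d)) (ω b : Sw d → Bool) :
    (Ex fun a => Real.exp (1 / 32 * blk d e X ω (splice (2 ^ e) a b)))
      ≤ Real.exp (4096 * (1 / 2) ^ e * X.card) := by
  have hcard : (Ico (2 * 2 ^ e) (4 * 2 ^ e)).card = 2 * 2 ^ e := by rw [Nat.card_Ico]; omega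
  have hX : (0 : ℝ) ≤ X.card := Nat.cast_nonneg _
  have hp : (2 : ℝ) ^ e * (1 / 2) ^ e = 1 := by rw [← mul_pow]; norm_num
  have hp0 : (0 : ℝ) < (1 / 2) ^ e := by positivity
  by_cases he : 9 ≤ e
  · unfold blk
    simp only [mul_sum]
    refine (Ex_mono fun a => exp_sum_le _ (by rw [hcard]; positivity) _).trans ?_
    rw [Ex_mul_left, Ex_sum, inv_mul_le_iff₀ (by rw [hcard]; positivity), ← nsmul_eq_mul]
    refine sum_le_card_nsmul _ _ _ fun j hj => ?_
    have hj := (mem_Ico.1 hj).1
    have h2 := two_pow_ge e he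
    have hl2 : 0 < Real.log 2 := Real.log_pos (by norm_num)
    have := nu_mgf (2 ^ e) j (2 ^ e - 1) (2 ^ (2 * e)) (2 * e) (by omega) (by positivity) le_rfl
      (z := (1 / 2) ^ (4 * e)) (h := 2 ^ e / 16) (by positivity) (by positivity) (by
        rw [Real.log_pow, one_div, Real.log_inv, Nat.cast_sub (by omega)]
        have h3 : (2 : ℝ) + 36 * e ≤ 2 ^ e := by exact_mod_cast h2
        push_cast
        nlinarith) d X ω b
    refine le_trans (le_of_eq (Ex_congr fun a => ?_)) (this.trans (Real.exp_le_exp.2 ?_))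
    · rw [hcard]
      push_cast
      ring_nf
    · refine mul_le_mul_of_nonneg_right ?_ hX
      push_cast
      have e1 : (2 : ℝ) ^ e / 16 / 2 ^ (2 * e) = (1 / 2) ^ e / 16 := by
        rw [two_mul, pow_add, one_div, inv_pow]
        field_simp
      have e2 : (2 : ℝ) ^ (2 * e) * (1 / 2) ^ (4 * e) = (1 / 2) ^ e * (1 / 2) ^ e := by
        rw [show 4 * e = 2 * e + e + e by ring, pow_add, pow_add, ← mul_assoc, ← mul_assoc,
          ← mul_pow]
        norm_num
      have e3 : (1 / 2 : ℝ) ^ e ≤ 1 := pow_le_one₀ (by norm_num) (by norm_num)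
      rw [e1, e2]
      nlinarith
  · refine Ex_le_const fun a => Real.exp_le_exp.2 ?_
    have h1 : blk d e X ω (splice (2 ^ e) a b) ≤ (2 * 2 ^ e : ℕ) * X.card := by
      rw [← hcard, ← nsmul_eq_mul]
      exact sum_le_card_nsmul _ _ _ fun j _ => nu_le _ _ _ _ _
    push_cast at h1
    have h2 : (2 : ℝ) ^ e ≤ 2 ^ 8 := pow_le_pow_right₀ (by norm_num) (by omega)
    have h3 : (2 : ℝ) ^ e ≤ 65536 * (1 / 2) ^ e := by
      have h4 : (0 : ℝ) < 2 ^ e := by positivity
      nlinarith
    nlinarith

theorem chain_mgf (d p T : ℕ) (X : Finset (Q d)) (ω : Sw d → Bool) :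
    (Ex fun ω' => Real.exp (1 / 32 * ∑ t ∈ range T, blk d (2 * t + p) X ω ω'))
      ≤ Real.exp (4096 * (∑ t ∈ range T, (1 / 2 : ℝ) ^ (2 * t + p)) * X.card) := by
  induction T with
  | zero => simp [Ex_const]
  | succ T ih =>
    rw [Ex_splice (2 ^ (2 * T + p))]
    have e : ∀ a b, ∑ t ∈ range T, blk d (2 * t + p) X ω (splice (2 ^ (2 * T + p)) a b)
        = ∑ t ∈ range T, blk d (2 * t + p) X ω b := by
      intro a b
      refine sum_congr rfl fun t ht => sum_congr rfl fun j hj => nu_splice _ _ ?_ _ _ _ _ _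
      have h1 := mem_range.1 ht
      have h2 := (mem_Ico.1 hj).2
      have h3 : 2 ^ (2 * t + p + 2) ≤ 2 ^ (2 * T + p) := Nat.pow_le_pow_right (by norm_num) (by omega)
      rw [pow_add] at h3
      omega
    simp only [sum_range_succ, e, mul_add, add_mul, Real.exp_add, Ex_mul_left]
    refine le_trans (Ex_mono fun b => mul_le_mul_of_nonneg_left (blk_mgf d _ X ω b)
      (Real.exp_pos _).le) ?_
    rw [Ex_mul_right]
    exact mul_le_mul_of_nonneg_right ih (Real.exp_pos _).le

theorem Nt_mgf (d : ℕ) (X : Finset (Q d)) (ω : Sw d → Bool) :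
    (Ex fun ω' => Real.exp (1 / 64 * Nt d X ω ω')) ≤ Real.exp (8193 * X.card) := by
  have hX : (0 : ℝ) ≤ X.card := Nat.cast_nonneg _
  have dec : ∀ ω' T, ∑ j ∈ range (2 * 2 ^ (2 * T)), nu d j X ω ω' = ∑ j ∈ range 2, nu d j X ω ω'
      + ∑ t ∈ range T, blk d (2 * t + 0) X ω ω' + ∑ t ∈ range T, blk d (2 * t + 1) X ω ω' := by
    intro ω' T
    induction T with
    | zero => simp
    | succ T ih =>
      rw [sum_range_succ (n := T), sum_range_succ (n := T)]
      have e1 := sum_range_add_sum_Ico (fun j => nu d j X ω ω')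
        (show 2 * 2 ^ (2 * T) ≤ 4 * 2 ^ (2 * T) by omega)
      have e2 := sum_range_add_sum_Ico (fun j => nu d j X ω ω')
        (show 2 * 2 ^ (2 * T + 1) ≤ 4 * 2 ^ (2 * T + 1) by omega)
      rw [show 2 * 2 ^ (2 * (T + 1)) = 4 * 2 ^ (2 * T + 1) by ring, ← e2,
        show range (2 * 2 ^ (2 * T + 1)) = range (4 * 2 ^ (2 * T)) by congr 1; ring, ← e1, ih]
      unfold blk
      simp only [add_zero]
      ring
  have hb : ∀ p, (Ex fun ω' => Real.exp (1 / 32 * ∑ t ∈ range d, blk d (2 * t + p) X ω ω'))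
      ≤ Real.exp (8192 * X.card) := by
    intro p
    refine (chain_mgf d p d X ω).trans (Real.exp_le_exp.2 (mul_le_mul_of_nonneg_right ?_ hX))
    have h1 : ∑ t ∈ range d, (1 / 2 : ℝ) ^ (2 * t + p) ≤ ∑ t ∈ range d, (1 / 2 : ℝ) ^ t :=
      sum_le_sum fun t _ => pow_le_pow_of_le_one (by norm_num) (by norm_num) (by omega)
    have h2 := geo (r := 1 / 2) (by norm_num) (by norm_num) d
    norm_num at h1 h2 ⊢
    linarith
  have pt : ∀ ω', Real.exp (1 / 64 * Nt d X ω ω') ≤ Real.exp X.card / 2 *
      (Real.exp (1 / 32 * ∑ t ∈ range d, blk d (2 * t + 0) X ω ω')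
        + Real.exp (1 / 32 * ∑ t ∈ range d, blk d (2 * t + 1) X ω ω')) := by
    intro ω'
    have h1 : Nt d X ω ω' ≤ ∑ j ∈ range (2 * 2 ^ (2 * d)), nu d j X ω ω' := by
      refine sum_le_sum_of_subset_of_nonneg (range_subset_range.2 ?_)
        fun _ _ _ => nu_nonneg _ _ _ _ _
      have := Nat.lt_two_pow_self (n := 2 * d)
      omega
    rw [dec, sum_range_succ, sum_range_one] at h1
    have h2 := nu_le d 0 X ω ω'
    have h3 := nu_le d 1 X ω ω'
    set A := ∑ t ∈ range d, blk d (2 * t + 0) X ω ω'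
    set B := ∑ t ∈ range d, blk d (2 * t + 1) X ω ω'
    have h4 : Real.exp (1 / 64 * Nt d X ω ω')
        ≤ Real.exp X.card * (Real.exp (1 / 64 * A) * Real.exp (1 / 64 * B)) := by
      rw [← Real.exp_add, ← Real.exp_add, Real.exp_le_exp]
      linarith
    have e1 : Real.exp (1 / 32 * A) = Real.exp (1 / 64 * A) ^ 2 := by
      rw [← Real.exp_nat_mul]; congr 1; push_cast; ring
    have e2 : Real.exp (1 / 32 * B) = Real.exp (1 / 64 * B) ^ 2 := by
      rw [← Real.exp_nat_mul]; congr 1; push_cast; ring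
    rw [e1, e2]
    nlinarith [mul_nonneg (Real.exp_pos (X.card : ℝ)).le
      (sq_nonneg (Real.exp (1 / 64 * A) - Real.exp (1 / 64 * B)))]
  refine (Ex_mono pt).trans ?_
  rw [Ex_mul_left, Ex_add, show (8193 : ℝ) * X.card = X.card + 8192 * X.card by ring, Real.exp_add]
  nlinarith [hb 0, hb 1, Real.exp_pos (X.card : ℝ)]

end Vale.Agent.P162
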