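import Vale.Agent.P162.Spec

/-! Orthogonal representations of symmetric groups, the transposition Laplacian and the
level lemma. -/

namespace Vale.Agent.P162

open scoped RealInnerProductSpace
open Finset Equiv

variable {V : Type} [NormedAddCommGroup V] [InnerProductSpace ℝ V]

/-- orthogonal representation -/
def Orth {G : Type} [Group G] (ρ : G →* Module.End ℝ V) : Prop :=
  ∀ g v w, ⟪ρ g v, ρ g w⟫ = ⟪v, w⟫

section grp
variable {G : Type} [Group G] {ρ : G →* Module.End ℝ V}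

theorem rep_mul (ρ : G →* Module.End ℝ V) (g h : G) (v : V) : ρ g (ρ h v) = ρ (g * h) v := by
  rw [map_mul, Module.End.mul_apply]

theorem Orth.adj (hρ : Orth ρ) (g : G) (v w : V) : ⟪ρ g v, w⟫ = ⟪v, ρ g⁻¹ w⟫ := by
  rw [← hρ g v, rep_mul, mul_inv_cancel, map_one, Module.End.one_apply]

theorem Orth.norm (hρ : Orth ρ) (g : G) (v : V) : ‖ρ g v‖ = ‖v‖ := by
  have := hρ g v v
  rw [real_inner_self_eq_norm_sq, real_inner_self_eq_norm_sq] at this
  exact (pow_left_inj₀ (norm_nonneg _) (norm_nonneg _) two_ne_zero).1 this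

theorem Orth.comp {H : Type} [Group H] (hρ : Orth ρ) (φ : H →* G) : Orth (ρ.comp φ) :=
  fun g v w => hρ (φ g) v w

theorem Orth.norm_Ex {Ω : Type} [Fintype Ω] [Nonempty Ω] (hρ : Orth ρ) (f : Ω → G) (v : V) :
    ‖(Ex fun ω => ρ (f ω)) v‖ ≤ ‖v‖ := by
  rw [Ex_apply]
  exact (norm_Ex_le _).trans (Ex_le_const fun ω => (hρ.norm _ _).le)

end grp

variable {Y : Type} [DecidableEq Y] {ρ : Perm Y →* Module.End ℝ V}

/-- one minus a transposition -/
def ee (ρ : Perm Y →* Module.End ℝ V) (i j : Y) : Module.End ℝ V := 1 - ρ (swap i j)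

theorem ee_apply (i j : Y) (v : V) : ee ρ i j v = v - ρ (swap i j) v := rfl

theorem ee_comm (i j : Y) : ee ρ i j = ee ρ j i := by
  unfold ee
  rw [swap_comm]

theorem ee_self (i : Y) : ee ρ i i = 0 := by
  unfold ee
  rw [swap_self, ← Perm.one_def, map_one, sub_self]

theorem ee_symm (hρ : Orth ρ) (i j : Y) : (ee ρ i j).IsSymmetric := by
  intro v w
  rw [ee_apply, ee_apply, inner_sub_left, inner_sub_right, hρ.adj, swap_inv]

theorem ee_norm_sq (hρ : Orth ρ) (i j : Y) (v : V) : ‖ee ρ i j v‖ ^ 2 = 2 * ⟪v, ee ρ i j v⟫ := by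
  rw [ee_apply, norm_sub_sq_real, hρ.norm, inner_sub_right, real_inner_self_eq_norm_sq]
  ring

theorem ee_nonneg (hρ : Orth ρ) (i j : Y) (v : V) : 0 ≤ ⟪v, ee ρ i j v⟫ := by
  have := ee_norm_sq hρ i j v
  nlinarith [sq_nonneg ‖ee ρ i j v‖]

theorem ee_norm_le (hρ : Orth ρ) (i j : Y) (v : V) : ‖ee ρ i j v‖ ≤ 2 * ‖v‖ := by
  rw [ee_apply]
  refine (norm_sub_le _ _).trans ?_
  rw [hρ.norm]
  linarith

theorem ee_conj (g : Perm Y) (i j : Y) : ρ g * ee ρ i j = ee ρ (g i) (g j) * ρ g := by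
  unfold ee
  rw [mul_sub, sub_mul, mul_one, one_mul, ← map_mul, ← map_mul, Equiv.mul_swap_eq_swap_mul]

/-- sum of `1 - (i j)` over ordered pairs from a set -/
def EE (ρ : Perm Y →* Module.End ℝ V) (s : Finset Y) : Module.End ℝ V :=
  ∑ i ∈ s, ∑ j ∈ s, ee ρ i j

theorem EE_symm (hρ : Orth ρ) (s : Finset Y) : (EE ρ s).IsSymmetric := by
  intro v w
  unfold EE
  simp only [LinearMap.sum_apply, sum_inner, inner_sum, ee_symm hρ _ _ v w]

theorem EE_conj (s : Finset Y) (g : Perm Y) (hg : ∀ x, g x ∈ s ↔ x ∈ s) :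
    ρ g * EE ρ s = EE ρ s * ρ g := by
  unfold EE
  simp only [mul_sum, sum_mul, ee_conj]
  refine sum_equiv g (fun x => (hg x).symm) fun i _ => ?_
  exact sum_equiv g (fun x => (hg x).symm) fun j _ => rfl

theorem swap_mem_iff {s : Finset Y} {a b : Y} (ha : a ∈ s) (hb : b ∈ s) (x : Y) :
    swap a b x ∈ s ↔ x ∈ s := by
  rw [swap_apply_def]
  split_ifs with h1 h2
  · simp [h1, ha, hb]
  · simp [h2, ha, hb]
  · rfl

/-- invariance under all transpositions of a set -/
def Inv (ρ : Perm Y →* Module.End ℝ V) (T : Finset Y) (v : V) : Prop :=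
  ∀ a ∈ T, ∀ b ∈ T, ρ (swap a b) v = v

theorem inv_insert {T : Finset Y} {v : V} (hv : Inv ρ T v) {i : Y} (hi : i ∉ T) :
    Inv ρ (insert i T) (v + ∑ a ∈ T, ρ (swap i a) v) := by
  have key : ∀ b ∈ T, ρ (swap i b) (v + ∑ a ∈ T, ρ (swap i a) v)
      = v + ∑ a ∈ T, ρ (swap i a) v := by
    intro b hb
    rw [map_add, map_sum, ← add_sum_erase _ _ hb, ← add_sum_erase _ _ hb, rep_mul, swap_mul_self,
      map_one, Module.End.one_apply, add_left_comm]
    congr 2
    refine sum_congr rfl fun a ha => ?_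
    have ha' := mem_of_mem_erase ha
    have hab := ne_of_mem_erase ha
    have e : swap i b * swap i a = swap i a * swap a b := by
      rw [Equiv.mul_swap_eq_swap_mul (swap i a), swap_apply_right,
        swap_apply_of_ne_of_ne (ne_of_mem_of_not_mem hb hi) hab.symm]
    rw [rep_mul, e, ← rep_mul, hv a ha' b hb]
  intro a ha0 b hb0
  rcases mem_insert.1 ha0 with ha | ha <;> rcases mem_insert.1 hb0 with hb | hb
  · rw [ha, hb, swap_self, ← Perm.one_def, map_one, Module.End.one_apply]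
  · rw [ha]; exact key b hb
  · rw [hb, swap_comm]; exact key a ha
  · rw [map_add, map_sum, hv a ha b hb]
    congr 1
    refine sum_equiv (swap a b) (fun x => (swap_mem_iff ha hb x).symm) fun c _ => ?_
    rw [rep_mul, Equiv.mul_swap_eq_swap_mul, ← rep_mul, hv a ha b hb,
      swap_apply_of_ne_of_ne (ne_of_mem_of_not_mem ha hi).symm (ne_of_mem_of_not_mem hb hi).symm]

theorem level [FiniteDimensional ℝ V] (hρ : Orth ρ) (t : ℕ) : ∀ (m : ℕ) (s : Finset Y),
    s.card = m → ∀ W : Submodule ℝ V, (∀ a ∈ s, ∀ b ∈ s, ∀ v ∈ W, ρ (swap a b) v ∈ W) →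
    (∀ T ⊆ s, t < T.card → ∀ v ∈ W, Inv ρ T v → v = 0) →
    ∀ v ∈ W, (m : ℝ) * (m - t) * ‖v‖ ^ 2 ≤ ⟪v, EE ρ s v⟫ := by
  intro m
  induction m using Nat.strong_induction_on with
  | _ m ih =>
  intro s hs W hW hT
  have hWE : ∀ v ∈ W, EE ρ s v ∈ W := by
    intro v hv
    unfold EE
    simp only [LinearMap.sum_apply]
    exact W.sum_mem fun a ha => W.sum_mem fun b hb => W.sub_mem hv (hW a ha b hb v hv)
  refine quad_ge_of_eig (EE_symm hρ s) W hWE _ fun μ v0 hv0 hne hμ => ?_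
  rcases s.eq_empty_or_nonempty with rfl | ⟨a0, ha0⟩
  · have : m = 0 := by simpa using hs.symm
    subst this
    have h0 : μ • v0 = 0 := by rw [← hμ]; simp [EE]
    rcases smul_eq_zero.1 h0 with h | h
    · simp [h]
    · exact absurd h hne
  let good : Finset Y → Prop := fun T => ∃ v ∈ W, v ≠ 0 ∧ EE ρ s v = μ • v ∧ Inv ρ T v
  classical
  obtain ⟨T, hTm, hTmax⟩ := exists_max_image (s.powerset.filter good) card
    ⟨{a0}, mem_filter.2 ⟨by simpa using ha0, v0, hv0, hne, hμ, by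
      intro a ha b hb
      rw [mem_singleton.1 ha, mem_singleton.1 hb, swap_self, ← Perm.one_def, map_one,
        Module.End.one_apply]⟩⟩
  have hT1 : 1 ≤ T.card := by
    have := hTmax {a0} (mem_filter.2 ⟨by simpa using ha0, v0, hv0, hne, hμ, by
      intro a ha b hb
      rw [mem_singleton.1 ha, mem_singleton.1 hb, swap_self, ← Perm.one_def, map_one,
        Module.End.one_apply]⟩)
    simpa using this
  obtain ⟨hTs, v, hv, hvne, hvμ, hvI⟩ := mem_filter.1 hTm
  have hTs := mem_powerset.1 hTs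
  have hTt : T.card ≤ t := by
    by_contra h
    exact hvne (hT T hTs (not_le.1 h) v hv hvI)
  have hzero : ∀ i ∈ s \ T, ∑ a ∈ T, ee ρ i a v = ((T.card : ℝ) + 1) • v := by
    intro i hi
    obtain ⟨his, hiT⟩ := mem_sdiff.1 hi
    have h0 : v + ∑ a ∈ T, ρ (swap i a) v = 0 := by
      by_contra hne'
      have := hTmax (insert i T) (mem_filter.2 ⟨mem_powerset.2 (insert_subset his hTs), _,
        W.add_mem hv (W.sum_mem fun a ha => hW i his a (hTs ha) v hv), hne', ?_,
        inv_insert hvI hiT⟩)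
      · rw [card_insert_of_notMem hiT] at this
        omega
      · rw [map_add, map_sum, hvμ, smul_add, smul_sum]
        congr 1
        refine sum_congr rfl fun a ha => ?_
        rw [← Module.End.mul_apply, ← EE_conj s _ (swap_mem_iff his (hTs ha)),
          Module.End.mul_apply, hvμ, map_smul]
    simp only [ee_apply, sum_sub_distrib, sum_const]
    rw [eq_neg_of_add_eq_zero_right h0, add_smul, one_smul, Nat.cast_smul_eq_nsmul, sub_neg_eq_add]
  have hin : ∀ a ∈ T, ∑ b ∈ T, ee ρ a b v = 0 := fun a ha =>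
    sum_eq_zero fun b hb => by rw [ee_apply, hvI a ha b hb, sub_self]
  have hcard : (s \ T).card = m - T.card := by rw [card_sdiff_of_subset hTs, hs]
  have hTle : T.card ≤ m := hs ▸ card_le_card hTs
  have hdec : EE ρ s v = (2 * ((s \ T).card : ℝ) * ((T.card : ℝ) + 1)) • v + EE ρ (s \ T) v := by
    unfold EE
    simp only [LinearMap.sum_apply]
    rw [← sum_sdiff hTs]
    simp only [← sum_sdiff hTs, sum_add_distrib]
    rw [sum_congr rfl hin, sum_const_zero, add_zero, sum_congr rfl hzero,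
      sum_comm (s := T) (t := s \ T)]
    have : ∑ y ∈ s \ T, ∑ x ∈ T, ee ρ x y v = ∑ y ∈ s \ T, ((T.card : ℝ) + 1) • v :=
      sum_congr rfl fun y hy => by
        rw [← hzero y hy]
        exact sum_congr rfl fun x _ => by rw [ee_comm]
    rw [this, sum_const, ← Nat.cast_smul_eq_nsmul ℝ, smul_smul]
    rw [mul_assoc, two_mul, add_smul]
    abel
  have hih := ih (m - T.card) (by omega) (s \ T) hcard W
    (fun a ha b hb => hW a (mem_sdiff.1 ha).1 b (mem_sdiff.1 hb).1)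
    (fun T' hT' => hT T' (hT'.trans sdiff_subset)) v hv
  have h1 : μ * ‖v‖ ^ 2 = 2 * ((s \ T).card : ℝ) * ((T.card : ℝ) + 1) * ‖v‖ ^ 2
      + ⟪v, EE ρ (s \ T) v⟫ := by
    rw [← real_inner_self_eq_norm_sq, ← real_inner_smul_right, ← hvμ, hdec, inner_add_right,
      real_inner_smul_right]
  rw [hcard, Nat.cast_sub hTle] at h1
  rw [Nat.cast_sub hTle] at hih
  have hpos : 0 < ‖v‖ ^ 2 := by positivity
  have a1 : (T.card : ℝ) ≤ t := by exact_mod_cast hTt
  have a2 : (T.card : ℝ) ≤ m := by exact_mod_cast hTle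
  have a3 : (0 : ℝ) ≤ T.card := by positivity
  have h2 : (m : ℝ) * (m - t) ≤ 2 * ((m : ℝ) - T.card) * (T.card + 1)
      + ((m : ℝ) - T.card) * (m - T.card - t) := by
    nlinarith [mul_nonneg a3 (sub_nonneg.2 a1)]
  have h3 : (m : ℝ) * (m - t) * ‖v‖ ^ 2 ≤ μ * ‖v‖ ^ 2 := by
    nlinarith [mul_le_mul_of_nonneg_right h2 hpos.le]
  exact le_of_mul_le_mul_right h3 hpos

variable [Fintype Y]

/-- the transposition Laplacian -/
noncomputable def Lap (ρ : Perm Y →* Module.End ℝ V) : Module.End ℝ V :=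
  (2 * (Fintype.card Y : ℝ))⁻¹ • EE ρ univ

theorem Lap_symm (hρ : Orth ρ) : (Lap ρ).IsSymmetric := by
  intro v w
  unfold Lap
  rw [LinearMap.smul_apply, LinearMap.smul_apply, real_inner_smul_left, real_inner_smul_right,
    EE_symm hρ]

theorem Lap_comm (g : Perm Y) : ρ g * Lap ρ = Lap ρ * ρ g := by
  unfold Lap
  rw [mul_smul_comm, smul_mul_assoc, EE_conj _ _ fun x => by simp]

theorem Lap_eig_rep {x : ℝ} {v : V} (hv : Lap ρ v = x • v) (g : Perm Y) :
    Lap ρ (ρ g v) = x • ρ g v := by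
  rw [← Module.End.mul_apply, ← Lap_comm, Module.End.mul_apply, hv, map_smul]

theorem EE_inner_of_eig [Nonempty Y] {x : ℝ} {v : V} (hv : Lap ρ v = x • v) :
    ∑ i, ∑ j, ⟪v, ee ρ i j v⟫ = 2 * Fintype.card Y * x * ‖v‖ ^ 2 := by
  have h : (0 : ℝ) < Fintype.card Y := by exact_mod_cast Fintype.card_pos
  have e : EE ρ univ v = (2 * (Fintype.card Y : ℝ)) • Lap ρ v := by
    unfold Lap
    rw [LinearMap.smul_apply, smul_smul, mul_inv_cancel₀ (by positivity), one_smul]
  have : ⟪v, EE ρ univ v⟫ = ∑ i, ∑ j, ⟪v, ee ρ i j v⟫ := by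
    unfold EE
    simp only [LinearMap.sum_apply, inner_sum]
  rw [← this, e, hv, real_inner_smul_right, real_inner_smul_right, real_inner_self_eq_norm_sq]
  ring

theorem eig_nonneg [Nonempty Y] (hρ : Orth ρ) {x : ℝ} {v : V} (hv : Lap ρ v = x • v)
    (hne : v ≠ 0) : 0 ≤ x := by
  have h : (0 : ℝ) < Fintype.card Y := by exact_mod_cast Fintype.card_pos
  have h1 := EE_inner_of_eig hv
  have h2 : 0 ≤ ∑ i, ∑ j, ⟪v, ee ρ i j v⟫ :=
    sum_nonneg fun i _ => sum_nonneg fun j _ => ee_nonneg hρ i j v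
  have hpos : 0 < ‖v‖ ^ 2 := by positivity
  by_contra hx
  push Not at hx
  have : 0 < 2 * (Fintype.card Y : ℝ) * (-x) * ‖v‖ ^ 2 := by
    have := neg_pos.2 hx
    positivity
  linarith

theorem eig_le_card [Nonempty Y] (hρ : Orth ρ) {x : ℝ} {v : V} (hv : Lap ρ v = x • v)
    (hne : v ≠ 0) : x ≤ Fintype.card Y := by
  have h : (0 : ℝ) < Fintype.card Y := by exact_mod_cast Fintype.card_pos
  have h1 := EE_inner_of_eig hv
  have h2 : ∑ i : Y, ∑ j : Y, ⟪v, ee ρ i j v⟫ ≤ ∑ i : Y, ∑ j : Y, 2 * ‖v‖ ^ 2 := by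
    refine sum_le_sum fun i _ => sum_le_sum fun j _ => ?_
    have := real_inner_le_norm v (ee ρ i j v)
    nlinarith [ee_norm_le hρ i j v, norm_nonneg v]
  simp only [sum_const, card_univ, nsmul_eq_mul] at h2
  have hpos : 0 < ‖v‖ ^ 2 := by positivity
  rw [h1] at h2
  have h3 : (2 * (Fintype.card Y : ℝ) * ‖v‖ ^ 2) * x
      ≤ (2 * (Fintype.card Y : ℝ) * ‖v‖ ^ 2) * Fintype.card Y := by nlinarith
  exact le_of_mul_le_mul_left h3 (by positivity)

/-- level lemma: a nonzero invariant subspace of low energy has a vector fixed by the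
transpositions of a large set -/
theorem exists_inv [FiniteDimensional ℝ V] [Nonempty Y] (hρ : Orth ρ) (W : Submodule ℝ V)
    (hW : ∀ g, ∀ v ∈ W, ρ g v ∈ W) (k : ℕ) {v : V} (hv : v ∈ W) (hne : v ≠ 0)
    (hlow : ⟪v, Lap ρ v⟫ < ((k : ℝ) + 1) / 2 * ‖v‖ ^ 2 ∨ Fintype.card Y ≤ k) :
    ∃ S : Finset Y, S.card ≤ k ∧ ∃ u ∈ W, u ≠ 0 ∧ Inv ρ Sᶜ u := by
  by_cases hk : Fintype.card Y ≤ k
  · exact ⟨univ, by simpa using hk, v, hv, hne, by simp [Inv]⟩
  have hlow := hlow.resolve_right hk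
  push Not at hk
  by_contra hcon
  push Not at hcon
  have h := level hρ (Fintype.card Y - k - 1) (Fintype.card Y) univ rfl W
    (fun a _ b _ => hW _) (fun T _ hT u hu hI => by
      by_contra hne'
      refine hcon Tᶜ ?_ u hu hne' (by rwa [compl_compl])
      rw [card_compl]
      omega) v hv
  have hc : (0 : ℝ) < Fintype.card Y := by exact_mod_cast Fintype.card_pos
  have e : ((Fintype.card Y - k - 1 : ℕ) : ℝ) = Fintype.card Y - k - 1 := by
    rw [Nat.sub_sub, Nat.cast_sub hk]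
    push_cast
    ring
  rw [e] at h
  unfold Lap at hlow
  rw [LinearMap.smul_apply, real_inner_smul_right, inv_mul_lt_iff₀ (by positivity)] at hlow
  nlinarith

end Vale.Agent.P162
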