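import Vale.Agent.P162.Graded

/-! Moment bounds for the energy drop and the energy imbalance of the two halves. -/

namespace Vale.Agent.P162

open scoped RealInnerProductSpace symmDiff
open Finset Equiv

theorem supersol (N : ℕ) (hN : 0 < N) {ε δ a : ℝ} (hε0 : 0 ≤ ε) (hε : ε ≤ 1 / 2) (hδ0 : 0 ≤ δ)
    (hδ : δ ≤ 4 * ε ^ 2) (ha : 0 ≤ a) (u : ℕ → ℕ → ℝ)
    (h0 : ∀ r, u 0 r ≤ if r = 0 then a else 0) (hz : ∀ p r, N ≤ r → u p r ≤ 0)
    (hrec : ∀ p r, u (p + 1) r ≤ 5 * r * u p r + r * (2 * δ) * u p (r - 2)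
      + (r + 2) * (2 * δ) * u p (r + 2)) :
    ∀ p r, u p r ≤ a * ∑ i ∈ Ico r N, ε ^ i * (21 * (i : ℝ)) ^ p := by
  have hδ1 : δ ≤ 1 := by nlinarith
  intro p
  induction p with
  | zero =>
    intro r
    refine (h0 r).trans ?_
    split_ifs with h
    · subst h
      refine le_mul_of_one_le_right ha ?_
      have := single_le_sum (s := Ico 0 N) (f := fun i : ℕ => ε ^ i * (21 * (i : ℝ)) ^ 0)
        (fun i _ => by positivity) (mem_Ico.2 ⟨le_rfl, hN⟩)
      simpa using this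
    · positivity
  | succ p ih =>
    intro r
    by_cases hr : N ≤ r
    · exact (hz _ r hr).trans (by positivity)
    push Not at hr
    set f : ℕ → ℝ := fun i => ε ^ i * (21 * (i : ℝ)) ^ p with hf
    have hf0 : ∀ i, 0 ≤ f i := fun i => by positivity
    set s : ℝ := ∑ i ∈ Ico r N, f i * i with hs
    have e : ∑ i ∈ Ico r N, ε ^ i * (21 * (i : ℝ)) ^ (p + 1) = 21 * s := by
      rw [hs, mul_sum]
      exact sum_congr rfl fun i _ => by simp only [hf]; ring
    have b1 : ∀ q : ℕ, r ≤ q → (q : ℝ) * ∑ i ∈ Ico q N, f i ≤ s := by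
      intro q hq
      rw [mul_sum]
      refine le_trans (sum_le_sum fun i hi => ?_) (sum_le_sum_of_subset_of_nonneg
        (Ico_subset_Ico_left hq) fun i _ _ => mul_nonneg (hf0 i) (Nat.cast_nonneg _))
      rw [mul_comm]
      exact mul_le_mul_of_nonneg_left (by exact_mod_cast (mem_Ico.1 hi).1) (hf0 i)
    have b2 : f r * r ≤ s := single_le_sum (f := fun i => f i * (i : ℝ))
      (fun i _ => mul_nonneg (hf0 i) (Nat.cast_nonneg _)) (mem_Ico.2 ⟨le_rfl, hr⟩)
    have b3 : (r : ℝ) * (δ * ∑ i ∈ Ico (r - 2) N, f i) ≤ 7 * s := by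
      have c1 : ∑ i ∈ Ico (r - 2) N, f i = ∑ i ∈ Ico (r - 2) r, f i + ∑ i ∈ Ico r N, f i :=
        (sum_Ico_consecutive f (by omega) hr.le).symm
      have c2 : δ * ∑ i ∈ Ico (r - 2) r, f i ≤ 6 * f r := by
        have mono : ∀ i, i ≤ r → (21 * (i : ℝ)) ^ p ≤ (21 * (r : ℝ)) ^ p := fun i hi =>
          pow_le_pow_left₀ (by positivity) (by
            have : (i : ℝ) ≤ r := by exact_mod_cast hi
            linarith) p
        have hX : 0 ≤ (21 * (r : ℝ)) ^ p := by positivity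
        rcases r with _ | _ | r
        · simp only [Nat.zero_sub, Ico_self, sum_empty, mul_zero]
          exact mul_nonneg (by norm_num) (hf0 0)
        · have : Ico (0 + 1 - 2) (0 + 1) = {0} := rfl
          rw [this, sum_singleton]
          have m0 := mono 0 (by omega)
          simp only [hf, pow_zero, one_mul, zero_add, pow_one] at m0 hX ⊢
          have : δ ≤ 6 * ε := by nlinarith
          nlinarith [mul_le_mul_of_nonneg_left m0 hδ0, mul_le_mul_of_nonneg_right this hX]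
        · have : Ico (r + 1 + 1 - 2) (r + 1 + 1) = {r, r + 1} := by
            ext x
            simp only [mem_Ico, mem_insert, mem_singleton]
            omega
          rw [this, sum_pair (by omega)]
          have m0 := mono r (by omega)
          have m1 := mono (r + 1) (by omega)
          simp only [hf]
          set X := (21 * ((r + 1 + 1 : ℕ) : ℝ)) ^ p
          have hE : 0 ≤ ε ^ r := by positivity
          have d1 : ε ^ r * (21 * (r : ℝ)) ^ p + ε ^ (r + 1) * (21 * ((r + 1 : ℕ) : ℝ)) ^ p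
              ≤ ε ^ r * X * (1 + ε) := by
            rw [pow_succ]
            nlinarith [mul_le_mul_of_nonneg_left m0 hE,
              mul_le_mul_of_nonneg_left m1 (mul_nonneg hE hε0)]
          have d2 : δ * (1 + ε) ≤ 6 * ε ^ 2 := by nlinarith
          have d3 := mul_le_mul_of_nonneg_left d2 (mul_nonneg hE hX)
          have d4 := mul_le_mul_of_nonneg_left d1 hδ0
          have : ε ^ (r + 1 + 1) = ε ^ r * ε ^ 2 := by ring
          rw [this]
          nlinarith
      have c3 := b1 r le_rfl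
      have c4 : 0 ≤ (r : ℝ) * ∑ i ∈ Ico r N, f i :=
        mul_nonneg (Nat.cast_nonneg _) (sum_nonneg fun i _ => hf0 i)
      have c5 := mul_le_mul_of_nonneg_left c2 (Nat.cast_nonneg (α := ℝ) r)
      rw [c1]
      nlinarith
    have b4 := b1 (r + 2) (by omega)
    have b5 := b1 r le_rfl
    have hs0 : 0 ≤ s := sum_nonneg fun i _ => mul_nonneg (hf0 i) (Nat.cast_nonneg _)
    push_cast at b4
    have r0 : (0 : ℝ) ≤ r := Nat.cast_nonneg r
    have i1 := mul_le_mul_of_nonneg_left (ih r) (show 0 ≤ 5 * (r : ℝ) by positivity)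
    have i2 := mul_le_mul_of_nonneg_left (ih (r - 2)) (show 0 ≤ (r : ℝ) * (2 * δ) by positivity)
    have i3 := mul_le_mul_of_nonneg_left (ih (r + 2))
      (show 0 ≤ ((r : ℝ) + 2) * (2 * δ) by positivity)
    have j1 := mul_le_mul_of_nonneg_left b5 ha
    have j2 := mul_le_mul_of_nonneg_left b3 ha
    have j3 := mul_le_mul_of_nonneg_left b4 (mul_nonneg ha hδ0)
    have j4 := mul_le_mul_of_nonneg_left hδ1 (mul_nonneg ha hs0)
    rw [e]
    have := hrec p r
    nlinarith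

variable {V : Type} [NormedAddCommGroup V] [InnerProductSpace ℝ V]
variable {U : Type}

/-- action on one half -/
def inc (b : Bool) : Perm U →* Perm (U × Bool) where
  toFun α :=
    { toFun := fun x => (if x.2 = b then α x.1 else x.1, x.2)
      invFun := fun x => (if x.2 = b then α⁻¹ x.1 else x.1, x.2)
      left_inv := fun x => by by_cases h : x.2 = b <;> simp [h, Prod.ext_iff]
      right_inv := fun x => by by_cases h : x.2 = b <;> simp [h, Prod.ext_iff] }
  map_one' := by ext x <;> simp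
  map_mul' α β := by
    ext x
    · by_cases h : x.2 = b <;> simp [h]
    · simp

theorem inc_apply (b : Bool) (α : Perm U) (x : U × Bool) :
    inc b α x = (if x.2 = b then α x.1 else x.1, x.2) := rfl

theorem inc_comm (α β : Perm U) : inc false α * inc true β = inc true β * inc false α := by
  ext ⟨u, b⟩ : 1
  cases b <;> simp [inc_apply]

variable [DecidableEq U]

theorem inc_swap (b : Bool) (u v : U) : inc b (swap u v) = swap (u, b) (v, b) := by
  ext ⟨w, c⟩ : 1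
  rw [inc_apply, swap_apply_def, swap_apply_def]
  by_cases h : c = b <;> by_cases h1 : w = u <;> by_cases h2 : w = v <;> simp_all

variable {ρ : Perm (U × Bool) →* Module.End ℝ V}

theorem ee_inc (b : Bool) (u v : U) : ee (ρ.comp (inc b)) u v = ee ρ (u, b) (v, b) := by
  unfold ee
  rw [MonoidHom.comp_apply, inc_swap]

variable [Fintype U]

/-- pair interaction -/
noncomputable def Mz (ρ : Perm (U × Bool) →* Module.End ℝ V) (p : U × U) : Module.End ℝ V :=
  (4 * (Fintype.card U : ℝ))⁻¹ • (ee ρ (p.1, false) (p.2, true) + ee ρ (p.1, true) (p.2, false)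
    - ee ρ (p.1, false) (p.2, false) - ee ρ (p.1, true) (p.2, true))

/-- one-site imbalance -/
noncomputable def Jd (ρ : Perm (U × Bool) →* Module.End ℝ V) (u : U) : Module.End ℝ V :=
  (2 * (Fintype.card U : ℝ))⁻¹ • (∑ j, ee ρ (u, false) j - ∑ j, ee ρ (u, true) j)

theorem Z_eq : Lap ρ - Lap (ρ.comp (inc false)) - Lap (ρ.comp (inc true)) = ∑ p, Mz ρ p := by
  unfold Lap Mz EE
  simp only [ee_inc, Fintype.sum_prod_type, Fintype.sum_bool, ← smul_sum, sum_add_distrib,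
    sum_sub_distrib, Fintype.card_prod, Fintype.card_bool]
  have : (2 * (Fintype.card U : ℝ))⁻¹ = 2 * (4 * (Fintype.card U : ℝ))⁻¹ := by
    rw [mul_inv, mul_inv]; ring
  rw [this]
  have : (2 * ((Fintype.card U * 2 : ℕ) : ℝ))⁻¹ = (4 * (Fintype.card U : ℝ))⁻¹ := by
    push_cast; ring_nf
  rw [this]
  module

theorem D_eq : Lap (ρ.comp (inc false)) - Lap (ρ.comp (inc true)) = ∑ u, Jd ρ u := by
  unfold Lap Jd EE
  simp only [ee_inc, Fintype.sum_prod_type, Fintype.sum_bool, ← smul_sum, sum_add_distrib,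
    sum_sub_distrib]
  have : ∑ x : U, ∑ y : U, ee ρ (x, false) (y, true) = ∑ x : U, ∑ y : U, ee ρ (x, true) (y, false) := by
    rw [sum_comm]
    simp only [ee_comm (ρ := ρ) (_, false) (_, true)]
  rw [this]
  module

theorem Mz_homog (p : U × U) : Homog ρ (Mz ρ p) ({p.1} ∆ {p.2}) := by
  intro s
  rw [chi_symmDiff, chi_singleton, chi_singleton]
  unfold Mz
  simp only [mul_smul_comm, smul_mul_assoc, mul_add, mul_sub, add_mul, sub_mul, ee_conj, sw_apply]
  cases s p.1 <;> cases s p.2 <;> simp <;> module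

theorem Jd_homog (u : U) : Homog ρ (Jd ρ u) {u} := by
  intro s
  rw [chi_singleton]
  unfold Jd
  have e : ∀ i, ρ (sw s) * ∑ j, ee ρ i j = (∑ j, ee ρ (sw s i) j) * ρ (sw s) := by
    intro i
    simp only [mul_sum, sum_mul, ee_conj]
    exact Equiv.sum_comp (sw s) fun j => ee ρ (sw s i) j * ρ (sw s)
  simp only [mul_smul_comm, smul_mul_assoc, mul_sub, sub_mul, e, sw_apply]
  cases s u
  · simp
  · simp
    module

theorem Mz_symm (hρ : Orth ρ) (p : U × U) : (Mz ρ p).IsSymmetric := by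
  intro v w
  unfold Mz
  simp only [LinearMap.smul_apply, LinearMap.add_apply, LinearMap.sub_apply, real_inner_smul_left,
    real_inner_smul_right, inner_add_left, inner_add_right, inner_sub_left, inner_sub_right,
    ee_symm hρ _ _ v w]

theorem Jd_symm (hρ : Orth ρ) (u : U) : (Jd ρ u).IsSymmetric := by
  intro v w
  unfold Jd
  simp only [LinearMap.smul_apply, LinearMap.sub_apply, LinearMap.sum_apply, real_inner_smul_left,
    real_inner_smul_right, inner_sub_left, inner_sub_right, sum_inner, inner_sum,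
    ee_symm hρ _ _ v w]

/-- an eigenspace of the Laplacian -/
def Eig {Y : Type} [Fintype Y] [DecidableEq Y] (ρ : Perm Y →* Module.End ℝ V) (x : ℝ) :
    Submodule ℝ V where
  carrier := {v | Lap ρ v = x • v}
  add_mem' := by
    intro a b ha hb
    simp only [Set.mem_ofPred_eq] at ha hb ⊢
    rw [map_add, ha, hb, smul_add]
  zero_mem' := by simp
  smul_mem' := by
    intro c a ha
    simp only [Set.mem_ofPred_eq] at ha ⊢
    rw [map_smul, ha, smul_comm]

theorem Eig_rep {Y : Type} [Fintype Y] [DecidableEq Y] (ρ : Perm Y →* Module.End ℝ V) (x : ℝ) :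
    ∀ g, ∀ v ∈ Eig ρ x, ρ g v ∈ Eig ρ x := fun g _ hv => Lap_eig_rep hv g

theorem ee_mem {Y : Type} [DecidableEq Y] {ρ : Perm Y →* Module.End ℝ V} {W : Submodule ℝ V}
    (hW : ∀ g, ∀ v ∈ W, ρ g v ∈ W) (i j : Y) {v : V} (hv : v ∈ W) : ee ρ i j v ∈ W :=
  W.sub_mem hv (hW _ v hv)

theorem Mz_mem {W : Submodule ℝ V} (hW : ∀ g, ∀ v ∈ W, ρ g v ∈ W) (p : U × U) :
    ∀ v ∈ W, Mz ρ p v ∈ W := fun _ hv =>
  W.smul_mem _ (W.sub_mem (W.sub_mem (W.add_mem (ee_mem hW _ _ hv) (ee_mem hW _ _ hv))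
    (ee_mem hW _ _ hv)) (ee_mem hW _ _ hv))

theorem Jd_mem {W : Submodule ℝ V} (hW : ∀ g, ∀ v ∈ W, ρ g v ∈ W) (u : U) :
    ∀ v ∈ W, Jd ρ u v ∈ W := by
  intro v hv
  unfold Jd
  rw [LinearMap.smul_apply, LinearMap.sub_apply, LinearMap.sum_apply, LinearMap.sum_apply]
  exact W.smul_mem _ (W.sub_mem (W.sum_mem fun _ _ => ee_mem hW _ _ hv)
    (W.sum_mem fun _ _ => ee_mem hW _ _ hv))

variable [Nonempty U]

theorem sum_ee_sq (hρ : Orth ρ) {l : ℝ} {y : V} (hy : y ∈ Eig ρ l) :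
    ∑ i, ∑ j, ‖ee ρ i j y‖ ^ 2 = 8 * Fintype.card U * l * ‖y‖ ^ 2 := by
  simp only [ee_norm_sq hρ, ← mul_sum]
  rw [EE_inner_of_eig hy, Fintype.card_prod, Fintype.card_bool]
  push_cast
  ring

theorem Mz_norm (hρ : Orth ρ) (p : U × U) (y : V) :
    ‖Mz ρ p y‖ ≤ 2 / (Fintype.card U : ℝ) * ‖y‖ := by
  have hc : (0 : ℝ) < Fintype.card U := by exact_mod_cast Fintype.card_pos
  unfold Mz
  rw [LinearMap.smul_apply, norm_smul, Real.norm_eq_abs, abs_of_pos (by positivity),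
    inv_mul_le_iff₀ (by positivity)]
  simp only [LinearMap.add_apply, LinearMap.sub_apply]
  have e : 4 * (Fintype.card U : ℝ) * (2 / (Fintype.card U : ℝ) * ‖y‖) = 8 * ‖y‖ := by
    field_simp
    ring
  rw [e]
  refine (norm_sub_le _ _).trans ?_
  have a1 := norm_sub_le (ee ρ (p.1, false) (p.2, true) y + ee ρ (p.1, true) (p.2, false) y)
    (ee ρ (p.1, false) (p.2, false) y)
  have a2 := norm_add_le (ee ρ (p.1, false) (p.2, true) y) (ee ρ (p.1, true) (p.2, false) y)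
  linarith [ee_norm_le hρ (p.1, false) (p.2, true) y, ee_norm_le hρ (p.1, true) (p.2, false) y,
    ee_norm_le hρ (p.1, false) (p.2, false) y, ee_norm_le hρ (p.1, true) (p.2, true) y]

theorem Mz_col (hρ : Orth ρ) {l δ : ℝ} (hδ : l / (2 * Fintype.card U) ≤ δ ^ 2) :
    ∀ y ∈ Eig ρ l, ∑ p, ‖Mz ρ p y‖ ^ 2 ≤ (2 * δ) ^ 2 * ‖y‖ ^ 2 := by
  intro y hy
  have hc : (0 : ℝ) < Fintype.card U := by exact_mod_cast Fintype.card_pos
  have h := sum_ee_sq hρ hy
  have h1 : ∀ p : U × U, ‖Mz ρ p y‖ ^ 2 ≤ (4 * (Fintype.card U : ℝ) ^ 2)⁻¹ *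
      (‖ee ρ (p.1, true) (p.2, true) y‖ ^ 2 + ‖ee ρ (p.1, true) (p.2, false) y‖ ^ 2
        + (‖ee ρ (p.1, false) (p.2, true) y‖ ^ 2 + ‖ee ρ (p.1, false) (p.2, false) y‖ ^ 2)) := by
    intro p
    unfold Mz
    rw [LinearMap.smul_apply, norm_smul, Real.norm_eq_abs, abs_of_pos (by positivity), mul_pow]
    simp only [LinearMap.add_apply, LinearMap.sub_apply]
    set a := ee ρ (p.1, false) (p.2, true) y
    set b := ee ρ (p.1, true) (p.2, false) y
    set c := ee ρ (p.1, false) (p.2, false) y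
    set d := ee ρ (p.1, true) (p.2, true) y
    have n1 : ‖a + b - c - d‖ ≤ ‖a‖ + ‖b‖ + ‖c‖ + ‖d‖ := by
      linarith [norm_sub_le (a + b - c) d, norm_sub_le (a + b) c, norm_add_le a b]
    have n2 := pow_le_pow_left₀ (norm_nonneg _) n1 2
    have n3 : (‖a‖ + ‖b‖ + ‖c‖ + ‖d‖) ^ 2 ≤ 4 * (‖d‖ ^ 2 + ‖b‖ ^ 2 + (‖a‖ ^ 2 + ‖c‖ ^ 2)) := by
      nlinarith [sq_nonneg (‖a‖ - ‖b‖), sq_nonneg (‖a‖ - ‖c‖), sq_nonneg (‖a‖ - ‖d‖),
        sq_nonneg (‖b‖ - ‖c‖), sq_nonneg (‖b‖ - ‖d‖), sq_nonneg (‖c‖ - ‖d‖)]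
    have e : ((4 * (Fintype.card U : ℝ))⁻¹) ^ 2 * 4 = (4 * (Fintype.card U : ℝ) ^ 2)⁻¹ := by
      field_simp
    rw [← e, mul_assoc]
    exact mul_le_mul_of_nonneg_left (n2.trans n3) (by positivity)
  refine (sum_le_sum fun p _ => h1 p).trans ?_
  rw [← mul_sum]
  simp only [Fintype.sum_prod_type, Fintype.sum_bool, sum_add_distrib] at h ⊢
  rw [inv_mul_le_iff₀ (by positivity)]
  rw [div_le_iff₀ (by positivity)] at hδ
  have := mul_le_mul_of_nonneg_left hδ (show 0 ≤ 8 * (Fintype.card U : ℝ) * ‖y‖ ^ 2 by positivity)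
  nlinarith

theorem Jd_col (hρ : Orth ρ) {l σ : ℝ} (hσ : 8 * l ≤ σ ^ 2) :
    ∀ y ∈ Eig ρ l, ∑ u, ‖Jd ρ u y‖ ^ 2 ≤ σ ^ 2 * ‖y‖ ^ 2 := by
  intro y hy
  have hc : (0 : ℝ) < Fintype.card U := by exact_mod_cast Fintype.card_pos
  have h := sum_ee_sq hρ hy
  have h1 : ∀ u : U, ‖Jd ρ u y‖ ^ 2 ≤ ((Fintype.card U : ℝ))⁻¹ *
      (∑ j, ‖ee ρ (u, true) j y‖ ^ 2 + ∑ j, ‖ee ρ (u, false) j y‖ ^ 2) := by
    intro u
    unfold Jd
    rw [LinearMap.smul_apply, norm_smul, Real.norm_eq_abs, abs_of_pos (by positivity), mul_pow,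
      LinearMap.sub_apply, LinearMap.sum_apply, LinearMap.sum_apply]
    have a1 := norm_sq_sum_le univ fun j => ee ρ (u, true) j y
    have a2 := norm_sq_sum_le univ fun j => ee ρ (u, false) j y
    rw [card_univ, Fintype.card_prod, Fintype.card_bool] at a1 a2
    push_cast at a1 a2
    set a := ∑ j, ee ρ (u, true) j y
    set b := ∑ j, ee ρ (u, false) j y
    have n2 := pow_le_pow_left₀ (norm_nonneg _) (norm_sub_le b a) 2
    have n3 : (‖b‖ + ‖a‖) ^ 2 ≤ 2 * (‖a‖ ^ 2 + ‖b‖ ^ 2) := by nlinarith [sq_nonneg (‖a‖ - ‖b‖)]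
    have e : ((Fintype.card U : ℝ))⁻¹ = ((2 * (Fintype.card U : ℝ))⁻¹) ^ 2 *
        (4 * Fintype.card U) := by
      field_simp
      ring
    rw [e, mul_assoc]
    refine mul_le_mul_of_nonneg_left ?_ (by positivity)
    nlinarith
  refine (sum_le_sum fun p _ => h1 p).trans ?_
  rw [← mul_sum]
  rw [Fintype.sum_prod_type] at h
  simp only [Fintype.sum_bool] at h
  rw [h, inv_mul_le_iff₀ (by positivity)]
  have := mul_le_mul_of_nonneg_left hσ (show 0 ≤ (Fintype.card U : ℝ) * ‖y‖ ^ 2 by positivity)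
  nlinarith

omit [Nonempty U] in
theorem Un_split {P : Type} [Fintype P] (M : P → Module.End ℝ V) (c1 c2 c3 : Finset U → Finset P)
    (r : ℕ) (v : V) (h : ∀ T, ∑ p, pr ρ T (M p v) = ∑ p ∈ c1 T, pr ρ T (M p v)
      + ∑ p ∈ c2 T, pr ρ T (M p v) + ∑ p ∈ c3 T, pr ρ T (M p v)) :
    Un ρ r ((∑ p, M p) v) ≤ ‖comp ρ M c1 r v‖ + ‖comp ρ M c2 r v‖ + ‖comp ρ M c3 r v‖ := by
  refine le_trans (le_of_eq ?_) norm_add₃_le
  unfold Un comp
  rw [← sum_add_distrib, ← sum_add_distrib]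
  congr 1
  refine sum_congr rfl fun T _ => ?_
  rw [LinearMap.sum_apply, map_sum, h]

theorem D_rec (hρ : Orth ρ) {l σ : ℝ} (hσ0 : 0 ≤ σ) (hσ : 8 * l ≤ σ ^ 2) {v : V}
    (hv : v ∈ Eig ρ l) (r : ℕ) :
    Un ρ r ((∑ u, Jd ρ u) v) ≤ √r * σ * Un ρ (r - 1) v + √(r + 1) * σ * Un ρ (r + 1) v := by
  have h := Un_split (ρ := ρ) (Jd ρ) (fun T => T) (fun T => Tᶜ) (fun _ => ∅) r v fun T => by
    rw [sum_empty, add_zero, sum_add_sum_compl]
  have h1 := comp_col (Jd ρ) (fun u => {u}) hρ Jd_homog _ (Eig_rep ρ l) hσ0 (Jd_col hρ hσ)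
    (fun T => T) r (r - 1) (fun T u h1 h2 => by
      rw [← h1, ← card_erase_of_mem h2]
      congr 1
      ext x
      by_cases hx : x = u <;> simp [mem_symmDiff, hx, h2]) (Real.sqrt_nonneg r)
    (fun T hT => by rw [Real.sq_sqrt (Nat.cast_nonneg _), hT]) hv
  have h2 := comp_row (Jd ρ) (fun u => {u}) hρ Jd_homog (Jd_symm hρ) _ (Eig_rep ρ l)
    (Jd_mem (Eig_rep ρ l)) hσ0 (Jd_col hρ hσ) (fun T => Tᶜ) (fun T => T) r (r + 1)
    (fun T u h1 h2 => by
      have h2' : u ∉ T := mem_compl.1 h2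
      have : T ∆ {u} = insert u T := by
        ext x
        by_cases hx : x = u <;> simp [mem_symmDiff, hx, h2']
      rw [this, card_insert_of_notMem h2', h1]
      exact ⟨rfl, mem_insert_self _ _⟩) (Real.sqrt_nonneg (r + 1))
    (fun T hT => by rw [Real.sq_sqrt (by positivity), hT]; push_cast; rfl) hv
  have h3 : ‖comp ρ (Jd ρ) (fun _ => ∅) r v‖ = 0 := by simp [comp]
  linarith

theorem D_mom (hρ : Orth ρ) {l σ : ℝ} (hσ0 : 0 ≤ σ) (hσ : 8 * l ≤ σ ^ 2) {v : V}
    (hv : v ∈ Eig ρ l) (q : ℕ) : ((∑ u, Jd ρ u) ^ q) (pr ρ ∅ v) ∈ Eig ρ l ∧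
      ∀ r, Un ρ r (((∑ u, Jd ρ u) ^ q) (pr ρ ∅ v))
        ≤ if r ≤ q then (2 * σ * √q) ^ q * ‖pr ρ ∅ v‖ else 0 := by
  induction q with
  | zero =>
    refine ⟨pr_mem _ (Eig_rep ρ l) _ hv, fun r => ?_⟩
    simpa using Un_base hρ v r
  | succ q ih =>
    obtain ⟨hm, ih⟩ := ih
    rw [pow_succ', Module.End.mul_apply]
    refine ⟨?_, fun r => ?_⟩
    · rw [LinearMap.sum_apply]
      exact Submodule.sum_mem _ fun u _ => Jd_mem (Eig_rep ρ l) u _ hm
    refine (D_rec hρ hσ0 hσ hm r).trans ?_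
    have i1 := mul_le_mul_of_nonneg_left (ih (r - 1)) (show 0 ≤ √r * σ by positivity)
    have i2 := mul_le_mul_of_nonneg_left (ih (r + 1)) (show 0 ≤ √(r + 1) * σ by positivity)
    refine (add_le_add i1 i2).trans ?_
    by_cases hr : r ≤ q + 1
    · rw [if_pos hr, if_pos (by omega)]
      have s1 : √(r : ℝ) ≤ √((q + 1 : ℕ) : ℝ) := Real.sqrt_le_sqrt (by exact_mod_cast hr)
      have s2 : (2 * σ * √q) ^ q ≤ (2 * σ * √((q + 1 : ℕ) : ℝ)) ^ q :=
        pow_le_pow_left₀ (by positivity) (mul_le_mul_of_nonneg_left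
          (Real.sqrt_le_sqrt (by push_cast; linarith)) (by positivity)) q
      have s3 : √((r : ℝ) + 1) * σ * (if r + 1 ≤ q then (2 * σ * √q) ^ q * ‖pr ρ ∅ v‖ else 0)
          ≤ √((q + 1 : ℕ) : ℝ) * σ * ((2 * σ * √q) ^ q * ‖pr ρ ∅ v‖) := by
        split_ifs with h
        · refine mul_le_mul_of_nonneg_right (mul_le_mul_of_nonneg_right
            (Real.sqrt_le_sqrt ?_) hσ0) (by positivity)
          have : (r : ℝ) + 1 ≤ q := by exact_mod_cast h
          push_cast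
          linarith
        · rw [mul_zero]
          positivity
      have s4 := mul_le_mul_of_nonneg_right (mul_le_mul_of_nonneg_right s1 hσ0)
        (show 0 ≤ (2 * σ * √q) ^ q * ‖pr ρ ∅ v‖ by positivity)
      have s5 := mul_le_mul_of_nonneg_left (mul_le_mul_of_nonneg_right s2 (norm_nonneg (pr ρ ∅ v)))
        (show 0 ≤ 2 * σ * √((q + 1 : ℕ) : ℝ) by positivity)
      rw [pow_succ']
      nlinarith
    · rw [if_neg hr, if_neg (by omega), if_neg (by omega)]
      simp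

theorem Z_rec (hρ : Orth ρ) {l δ : ℝ} (hδ0 : 0 ≤ δ) (hδ : l / (2 * Fintype.card U) ≤ δ ^ 2)
    {v : V} (hv : v ∈ Eig ρ l) (r : ℕ) :
    Un ρ r ((∑ p, Mz ρ p) v) ≤ 5 * r * Un ρ r v + r * (2 * δ) * Un ρ (r - 2) v
      + (r + 2) * (2 * δ) * Un ρ (r + 2) v := by
  have hc : (0 : ℝ) < Fintype.card U := by exact_mod_cast Fintype.card_pos
  let c0 : Finset U → Finset (U × U) := fun T => univ.filter fun p =>
    (p.1 ∈ T ∧ (p.2 ∉ T ∨ p.1 = p.2)) ∨ (p.1 ∉ T ∧ p.2 ∈ T)
  let c0' : Finset U → Finset (U × U) := fun T => (T ×ˢ univ) ∪ (univ ×ˢ T)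
  let cp : Finset U → Finset (U × U) := fun T => univ.filter fun p =>
    p.1 ∈ T ∧ p.2 ∈ T ∧ p.1 ≠ p.2
  let cm : Finset U → Finset (U × U) := fun T => univ.filter fun p =>
    p.1 ∉ T ∧ p.2 ∉ T ∧ p.1 ≠ p.2
  have h := Un_split (ρ := ρ) (Mz ρ) c0 cp cm r v fun T => by
    simp only [c0, cp, cm, sum_filter, ← sum_add_distrib]
    refine sum_congr rfl fun p _ => ?_
    obtain ⟨a, b⟩ := p
    by_cases h3 : a = b
    · subst h3
      by_cases h1 : a ∈ T
      · simp [h1]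
      · have e0 : pr ρ T (Mz ρ (a, a) v) = 0 := by
          rw [(Mz_homog _).pr_apply, symmDiff_self, symmDiff_bot]
          have e : ee ρ (a, false) (a, true) (pr ρ T v) = 0 := by
            rw [ee_apply, ← sw_single, sw_pr, chi_single, if_neg h1, one_smul, sub_self]
          unfold Mz
          simp only [LinearMap.smul_apply, LinearMap.add_apply, LinearMap.sub_apply, ee_self,
            ee_comm (ρ := ρ) (a, true) (a, false), e]
          simp
        simp [e0]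
    · by_cases h1 : a ∈ T <;> by_cases h2 : b ∈ T <;> simp [h1, h2, h3]
  have hc0' : ∀ T : Finset U, T.card = r → ((c0' T).card : ℝ) ≤ 2 * r * Fintype.card U := by
    intro T hT
    have := card_union_le (T ×ˢ (univ : Finset U)) (univ ×ˢ T)
    rw [card_product, card_product, hT, card_univ] at this
    have h2 : ((c0' T).card : ℝ) ≤ ((r * Fintype.card U + Fintype.card U * r : ℕ) : ℝ) := by
      exact_mod_cast this
    push_cast at h2
    linarith
  have h0 := comp_mix (Mz ρ) (fun p => {p.1} ∆ {p.2}) hρ Mz_homog (by positivity) (Mz_norm hρ)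
    c0 c0' r (fun T p h1 h2 => by
      obtain ⟨a, b⟩ := p
      simp only [c0, mem_filter, mem_univ, true_and] at h2
      simp only [c0', mem_union, mem_product, mem_univ, and_true, true_and]
      rcases h2 with ⟨ha, hb | hb⟩ | ⟨ha, hb⟩
      · have hab : a ≠ b := fun h => hb (h ▸ ha)
        have : T ∆ ({a} ∆ {b}) = insert b (T.erase a) := by
          ext x
          by_cases hx : x = a <;> by_cases hy : x = b <;> simp_all [mem_symmDiff]
        rw [this, card_insert_of_notMem (by simp [hb]), card_erase_add_one ha]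
        exact ⟨h1, Or.inr (mem_insert_self _ _)⟩
      · subst hb
        rw [symmDiff_self, symmDiff_bot]
        exact ⟨h1, Or.inl ha⟩
      · have hab : a ≠ b := fun h => ha (h ▸ hb)
        have : T ∆ ({a} ∆ {b}) = insert a (T.erase b) := by
          ext x
          by_cases hx : x = a <;> by_cases hy : x = b <;> simp_all [mem_symmDiff]
        rw [this, card_insert_of_notMem (by simp [ha]), card_erase_add_one hb]
        exact ⟨h1, Or.inl (mem_insert_self _ _)⟩)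
    (a := 2 * r * Fintype.card U) (by positivity)
    (fun T hT => le_trans (by
      refine Nat.cast_le.2 (card_le_card fun p hp => ?_)
      simp only [c0, mem_filter, mem_univ, true_and] at hp
      simp only [c0', mem_union, mem_product, mem_univ, and_true, true_and]
      tauto) (hc0' T hT)) hc0' v
  have hp := comp_col (Mz ρ) (fun p => {p.1} ∆ {p.2}) hρ Mz_homog _ (Eig_rep ρ l)
    (by positivity) (Mz_col hρ hδ) cp r (r - 2) (fun T p h1 h2 => by
      obtain ⟨a, b⟩ := p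
      simp only [cp, mem_filter, mem_univ, true_and] at h2
      obtain ⟨ha, hb, hab⟩ := h2
      have : T ∆ ({a} ∆ {b}) = (T.erase a).erase b := by
        ext x
        by_cases hx : x = a <;> by_cases hy : x = b <;> simp_all [mem_symmDiff]
      rw [this, card_erase_of_mem (mem_erase.2 ⟨hab.symm, hb⟩), card_erase_of_mem ha, h1]
      omega) (Nat.cast_nonneg r) (fun T hT => by
      have : (cp T).card ≤ (T ×ˢ T).card := card_le_card fun p hp => by
        simp only [cp, mem_filter, mem_univ, true_and] at hp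
        exact mem_product.2 ⟨hp.1, hp.2.1⟩
      rw [card_product, hT] at this
      rw [sq]
      exact_mod_cast this) hv
  have hm := comp_row (Mz ρ) (fun p => {p.1} ∆ {p.2}) hρ Mz_homog (Mz_symm hρ) _ (Eig_rep ρ l)
    (Mz_mem (Eig_rep ρ l)) (by positivity) (Mz_col hρ hδ) cm (fun T => T ×ˢ T) r (r + 2)
    (fun T p h1 h2 => by
      obtain ⟨a, b⟩ := p
      simp only [cm, mem_filter, mem_univ, true_and] at h2
      obtain ⟨ha, hb, hab⟩ := h2
      have : T ∆ ({a} ∆ {b}) = insert a (insert b T) := by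
        ext x
        by_cases hx : x = a <;> by_cases hy : x = b <;> simp_all [mem_symmDiff]
      rw [this, card_insert_of_notMem (by simp [ha, hab]), card_insert_of_notMem hb, h1]
      simp) (a := (r : ℝ) + 2) (by positivity)
    (fun T hT => by rw [card_product, hT, sq]; push_cast; rfl) hv
  have e : 2 * (r : ℝ) * Fintype.card U * (2 / Fintype.card U) = 4 * r := by
    field_simp
    ring
  rw [e] at h0
  have := mul_nonneg (Nat.cast_nonneg (α := ℝ) r) (Un_nonneg (ρ := ρ) r v)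
  nlinarith

omit [Nonempty U] in
theorem Z_mem {l : ℝ} {v : V} (hv : v ∈ Eig ρ l) (q : ℕ) :
    ((∑ p, Mz ρ p) ^ q) (pr ρ ∅ v) ∈ Eig ρ l := by
  induction q with
  | zero => exact pr_mem _ (Eig_rep ρ l) _ hv
  | succ q ih =>
    rw [pow_succ', Module.End.mul_apply, LinearMap.sum_apply]
    exact Submodule.sum_mem _ fun u _ => Mz_mem (Eig_rep ρ l) u _ ih

theorem Z_mom (hρ : Orth ρ) {l ε : ℝ} (hε0 : 0 ≤ ε) (hε : ε ≤ 1 / 2)
    (hl : l / (2 * Fintype.card U) ≤ 16 * ε ^ 4) {v : V} (hv : v ∈ Eig ρ l) (q : ℕ) :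
    |⟪pr ρ ∅ v, ((∑ p, Mz ρ p) ^ q) (pr ρ ∅ v)⟫| ≤ ‖pr ρ ∅ v‖ ^ 2 *
      ∑ i ∈ range (Fintype.card U + 1), ε ^ i * (21 * (i : ℝ)) ^ q := by
  have h := supersol (Fintype.card U + 1) (Nat.succ_pos _) hε0 hε (δ := 4 * ε ^ 2)
    (by positivity) le_rfl (norm_nonneg (pr ρ ∅ v))
    (fun q r => Un ρ r (((∑ p, Mz ρ p) ^ q) (pr ρ ∅ v))) (fun r => Un_base hρ v r)
    (fun q r hr => (Un_big r hr _).le) (fun q r => by
      rw [pow_succ', Module.End.mul_apply]
      exact Z_rec hρ (by positivity) (by nlinarith) (Z_mem hv q) r) q 0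
  rw [← range_eq_Ico] at h
  refine (inner_le_Un hρ _ _).trans ?_
  rw [sq, mul_assoc]
  exact mul_le_mul_of_nonneg_left h (norm_nonneg _)

theorem Z_first (hρ : Orth ρ) {l : ℝ} {v : V} (hv : v ∈ Eig ρ l) :
    ⟪pr ρ ∅ v, (∑ p, Mz ρ p) (pr ρ ∅ v)⟫ = 0 := by
  have h := Z_rec hρ (δ := |l / (2 * Fintype.card U)| + 1) (by positivity) (by
    nlinarith [le_abs_self (l / (2 * Fintype.card U)), abs_nonneg (l / (2 * Fintype.card U))])
    (pr_mem _ (Eig_rep ρ l) ∅ hv) 0
  have h2 := Un_base hρ v (0 + 2)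
  rw [if_neg (by omega)] at h2
  have h3 : Un ρ (0 + 2) (pr ρ ∅ v) = 0 := le_antisymm h2 (Un_nonneg _ _)
  rw [h3] at h
  simp only [Nat.cast_zero, mul_zero, zero_mul, add_zero] at h
  have h4 := inner_le_Un hρ v ((∑ p, Mz ρ p) (pr ρ ∅ v))
  have h5 := mul_le_mul_of_nonneg_left h (norm_nonneg (pr ρ ∅ v))
  rw [mul_zero] at h5
  exact abs_nonpos_iff.1 (h4.trans h5)

end Vale.Agent.P162
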