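import Vale.Agent.P162.Stab

/-! Operator norm of the butterfly operator on the eigenspaces of the Laplacian. -/

namespace Vale.Agent.P162

open scoped RealInnerProductSpace
open Finset Equiv

variable {V : Type} [NormedAddCommGroup V] [InnerProductSpace ℝ V]

theorem Aop_succ {d : ℕ} (ρ : Perm (Q d × Bool) →* Module.End ℝ V) :
    Aop (d + 1) ρ = (Ex fun ω => ρ (inc false (bf d ω))) * (Ex fun ω => ρ (inc true (bf d ω))) *
      pr ρ ∅ := by
  have h := Ex_split fun s a b => ρ (pair (bf d a) (bf d b) * sw s)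
  refine h.trans ?_
  unfold pr
  simp only [chi_empty, one_smul, pair, map_mul]
  rw [End_mul_Ex]
  refine Ex_congr fun s => ?_
  rw [Ex_mul_End, Ex_mul_End]
  refine Ex_congr fun a => ?_
  rw [End_mul_Ex, Ex_mul_End]

theorem eig_zero {ρ : Perm (Q 0) →* Module.End ℝ V} {l : ℝ} {v : V} (hv : Lap ρ v = l • v)
    (hne : v ≠ 0) : l = 0 := by
  have h0 : Lap ρ v = 0 := Lap_of_fix fun g => by
    have : g = 1 := by ext; rfl
    simp [this]
  rw [h0] at hv
  exact (smul_eq_zero.1 hv.symm).resolve_right hne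

theorem Aop_le {d : ℕ} {ρ : Perm (Q d) →* Module.End ℝ V} (hρ : Orth ρ) (v : V) :
    ‖Aop d ρ v‖ ^ 2 ≤ ‖v‖ ^ 2 :=
  pow_le_pow_left₀ (norm_nonneg _) (hρ.norm_Ex _ v) 2

variable [FiniteDimensional ℝ V]

/-- rate in the heat bound -/
noncomputable def tt (d : ℕ) : ℝ := (1 + (17 / 20) ^ d) / 4000000

theorem heat (d : ℕ) : ∀ (ρ : Perm (Q d) →* Module.End ℝ V), Orth ρ → ∀ l v, Lap ρ v = l • v →
    ‖Aop d ρ v‖ ^ 2 ≤ Real.exp (-(tt d * l)) * ‖v‖ ^ 2 := by
  induction d with
  | zero =>
    intro ρ hρ l v hv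
    by_cases hne : v = 0
    · simp [hne]
    · simpa [eig_zero hv hne] using Aop_le hρ v
  | succ d ih =>
    have key : ∀ (ρ : Perm (Q d × Bool) →* Module.End ℝ V), Orth ρ → ∀ l v, Lap ρ v = l • v →
        ‖Aop (d + 1) ρ v‖ ^ 2 ≤ Real.exp (-(tt (d + 1) * l)) * ‖v‖ ^ 2 := by
      intro ρ hρ l v hv
      by_cases hne : v = 0
      · simp [hne]
      by_cases hl : l = 0
      · simpa [hl] using Aop_le (d := d + 1) hρ v
      have h1 := half_le_eig hρ hv hne hl
      have h2 := eig_le_card hρ hv hne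
      rw [Fintype.card_prod, Fintype.card_bool] at h2
      obtain ⟨s, w, hw, -, hA, -, -, hE⟩ := joint_exp hρ (bf d) (fun x => Real.exp (-(tt d * x)))
        (fun _ => (Real.exp_pos _).le) (fun b x w hw => ih _ (hρ.comp (inc b)) x w hw) (v := v) hv
      rw [Aop_succ]
      refine hA.trans ?_
      have hq : (0 : ℝ) < (17 / 20) ^ d := by positivity
      have hq1 : (17 / 20 : ℝ) ^ d ≤ 1 := pow_le_one₀ (by norm_num) (by norm_num)
      have ht : 0 ≤ tt d := by unfold tt; positivity
      have ht' : tt d ≤ 1 / 2000000 := by unfold tt; linarith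
      have hc : ((Fintype.card (Q d) : ℕ) : ℝ) = 2 ^ d := by rw [card_Q]; push_cast; rfl
      have h3 := hE (tt d) (min (1 / 2) (l * (17 / 20) ^ d)) ht (by linarith) (by positivity)
        (min_le_left _ _) (by
          rw [div_le_iff₀ (by positivity)]
          rcases min_choice (1 / 2 : ℝ) (l * (17 / 20) ^ d) with h | h <;> rw [h]
          · push_cast at h2
            linarith
          · have a : (1 : ℝ) ≤ ((17 / 20) ^ d) ^ 4 * 2 ^ d := by
              rw [← pow_mul, mul_comm d, pow_mul, ← mul_pow]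
              exact one_le_pow₀ (by norm_num)
            have b : 1 / 8 ≤ l ^ 3 := by
              have := pow_le_pow_left₀ (by norm_num) h1 3
              linarith
            rw [hc]
            calc l ≤ l * (32 * l ^ 3) * 1 := by nlinarith
              _ ≤ l * (32 * l ^ 3) * (((17 / 20) ^ d) ^ 4 * 2 ^ d) :=
                mul_le_mul_of_nonneg_left a (by positivity)
              _ = _ := by ring)
      have e : ∑ z ∈ s, w z * (Real.exp (-(tt d * z.1)) * Real.exp (-(tt d * z.2)))
          = Real.exp (-(tt d * l)) * ∑ z ∈ s, w z * Real.exp (tt d * (l - z.1 - z.2)) := by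
        rw [mul_sum]
        refine sum_congr rfl fun z _ => ?_
        rw [mul_left_comm (Real.exp _), ← Real.exp_add, ← Real.exp_add]
        congr 2
        ring
      rw [e]
      refine (mul_le_mul_of_nonneg_left h3 (Real.exp_pos _).le).trans ?_
      rw [← mul_assoc]
      refine mul_le_mul_of_nonneg_right ?_ (sq_nonneg _)
      refine (mul_le_mul_of_nonneg_left ((add_comm _ _).le.trans (Real.add_one_le_exp _))
        (Real.exp_pos _).le).trans ?_
      rw [← Real.exp_add, Real.exp_le_exp]
      have h4 : min (1 / 2) (l * (17 / 20) ^ d) * tt d ^ 2 ≤ l * (17 / 20) ^ d * (1 / 2000000) ^ 2 :=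
        mul_le_mul (min_le_right _ _) (pow_le_pow_left₀ ht ht' 2) (by positivity) (by positivity)
      have h5 : tt (d + 1) = tt d - 3 / 80000000 * (17 / 20) ^ d := by
        unfold tt
        ring
      rw [h5]
      nlinarith [mul_pos hq (show 0 < l by linarith)]
    exact key

/-- constant of the sparse bound -/
noncomputable def KK : ℝ := 2 * 32000 ^ 2 * Real.exp 64002

theorem KK_pos : 0 < KK := by unfold KK; positivity

theorem log_KK : 64002 ≤ Real.log KK := by
  rw [Real.le_log_iff_exp_le KK_pos]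
  unfold KK
  nlinarith [Real.exp_pos (64002 : ℝ)]

/-- the sparse bound -/
noncomputable def ph (n x : ℝ) : ℝ :=
  if x = 0 then 1 else Real.exp (-2 + x * Real.log (KK * x / n) / 16000)

theorem ph_nonneg (n x : ℝ) : 0 ≤ ph n x := by
  unfold ph
  split_ifs
  · norm_num
  · exact (Real.exp_pos _).le

theorem ph_le {m x l : ℝ} (hm : 0 < m) (hx : 0 ≤ x) (hl : 0 < l) :
    ph m x ≤ Real.exp (-2 + (if x = 0 then 2 else 0) +
      (2 * x ^ 2 / l - x + x * Real.log (KK * l / (2 * m))) / 16000) := by
  unfold ph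
  split_ifs with h
  · simp [h]
  · have hx : 0 < x := lt_of_le_of_ne hx (Ne.symm h)
    have e : KK * x / m = (2 * x / l) * (KK * l / (2 * m)) := by field_simp
    have := KK_pos
    rw [e, Real.log_mul (by positivity) (by positivity), Real.exp_le_exp]
    have h1 := mul_le_mul_of_nonneg_left
      (Real.log_le_sub_one_of_pos (show 0 < 2 * x / l by positivity)) hx.le
    have e2 : x * (2 * x / l - 1) = 2 * x ^ 2 / l - x := by ring
    linarith

theorem ph_mul {m x y l : ℝ} (hm : 0 < m) (hx : 0 ≤ x) (hy : 0 ≤ y) (hl : 16000 ≤ l)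
    (hs : x + y ≤ 2 * l) (hΛ : Real.log (KK * l / (2 * m)) ≤ 2) :
    ph m x * ph m y ≤ Real.exp (-4 + l * Real.log (KK * l / (2 * m)) / 16000) *
      (Real.exp ((768 * l)⁻¹ * (x - y) ^ 2) *
      Real.exp (((6 - Real.log (KK * l / (2 * m))) / 16000 + 1 / 1000) * |l - x - y|)) := by
  have hl0 : 0 < l := by linarith
  refine (mul_le_mul (ph_le hm hx hl0) (ph_le hm hy hl0) (ph_nonneg _ _)
    (Real.exp_pos _).le).trans ?_
  rw [← Real.exp_add, ← Real.exp_add, ← Real.exp_add, Real.exp_le_exp]
  set Λ := Real.log (KK * l / (2 * m))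
  set D := (x - y) ^ 2 / l with hD
  have hD0 : 0 ≤ D := by positivity
  have e1 : (768 * l)⁻¹ * (x - y) ^ 2 = D / 768 := by rw [hD]; field_simp
  have e2 : 2 * x ^ 2 / l + 2 * y ^ 2 / l - (x + y) = D - (x + y) / l * (l - x - y) := by
    rw [hD]; field_simp; ring
  have h1 : -((x + y) / l * (l - x - y)) ≤ 2 * |l - x - y| := by
    have a : (x + y) / l ≤ 2 := by rw [div_le_iff₀ hl0]; exact hs
    have b : 0 ≤ (x + y) / l := by positivity
    nlinarith [neg_abs_le (l - x - y), abs_nonneg (l - x - y)]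
  have h2 : -((l - x - y) * Λ) ≤ (4 - Λ) * |l - x - y| := by
    rcases abs_cases (l - x - y) with h | h <;> rw [h.1] <;> nlinarith [h.2]
  have h3 : (if x = 0 then (2 : ℝ) else 0) + (if y = 0 then 2 else 0)
      ≤ (D + |l - x - y|) / 1000 := by
    have a : x = 0 ∨ y = 0 → 3 / 4 * l ≤ D + |l - x - y| := by
      intro h
      have b := le_abs_self (l - x - y)
      have c : x + y - l / 4 ≤ D := by
        rw [hD, le_div_iff₀ hl0]
        have := sq_nonneg (x + y - l / 2)
        rcases h with h | h <;> subst h <;> nlinarith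
      linarith
    have := abs_nonneg (l - x - y)
    split_ifs with h h' h'
    · linarith [a (Or.inl h)]
    · linarith [a (Or.inl h)]
    · linarith [a (Or.inr h')]
    · linarith
  rw [e1]
  nlinarith

theorem sparse (d : ℕ) : ∀ (ρ : Perm (Q d) →* Module.End ℝ V), Orth ρ → ∀ l v, Lap ρ v = l • v →
    ‖Aop d ρ v‖ ^ 2 ≤ ph (2 ^ d) l * ‖v‖ ^ 2 := by
  induction d with
  | zero =>
    intro ρ hρ l v hv
    by_cases hne : v = 0
    · simp [hne]
    · simpa [eig_zero hv hne, ph] using Aop_le hρ v
  | succ d ih =>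
    have key : ∀ (ρ : Perm (Q d × Bool) →* Module.End ℝ V), Orth ρ → ∀ l v, Lap ρ v = l • v →
        ‖Aop (d + 1) ρ v‖ ^ 2 ≤ ph (2 ^ (d + 1)) l * ‖v‖ ^ 2 := by
      intro ρ hρ l v hv
      by_cases hne : v = 0
      · simp [hne]
      by_cases hl : l = 0
      · simpa [hl, ph] using Aop_le (d := d + 1) hρ v
      have h1 := half_le_eig hρ hv hne hl
      have hK := KK_pos
      have hn : (0 : ℝ) < 2 ^ (d + 1) := by positivity
      have triv : 32000 ≤ l * Real.log (KK * l / 2 ^ (d + 1)) →
          ‖Aop (d + 1) ρ v‖ ^ 2 ≤ ph (2 ^ (d + 1)) l * ‖v‖ ^ 2 := fun h => by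
        refine (Aop_le (d := d + 1) hρ v).trans (le_mul_of_one_le_left (sq_nonneg _) ?_)
        unfold ph
        rw [if_neg hl]
        exact Real.one_le_exp (by linarith)
      by_cases hA : l < 16000
      · by_cases hB : (2 : ℝ) ^ (d + 1) ≤ 32000 ^ 2 * Real.exp 2
        · refine triv ?_
          have : 64000 ≤ Real.log (KK * l / 2 ^ (d + 1)) := by
            rw [Real.le_log_iff_exp_le (by positivity), le_div_iff₀ hn]
            unfold KK
            rw [show (64002 : ℝ) = 64000 + 2 by norm_num, Real.exp_add]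
            have a := mul_le_mul_of_nonneg_left hB (Real.exp_pos (64000 : ℝ)).le
            have b : 0 < Real.exp 64000 * Real.exp 2 := by positivity
            nlinarith
          nlinarith
        refine (small (d := d + 1) hρ 32000 hl (by push_cast; linarith) hv).trans
          (mul_le_mul_of_nonneg_right ?_ (sq_nonneg _))
        unfold ph
        rw [if_neg hl, Real.exp_add]
        push_cast
        have hb : (32000 : ℝ) ^ 2 / 2 ^ (d + 1) ≤ Real.exp (-2) := by
          rw [div_le_iff₀ hn, Real.exp_neg, ← div_eq_inv_mul, le_div_iff₀ (Real.exp_pos _)]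
          linarith
        by_cases hC : 0 ≤ Real.log (KK * l / 2 ^ (d + 1))
        · exact hb.trans (le_mul_of_one_le_right (Real.exp_pos _).le
            (Real.one_le_exp (by positivity)))
        · have a : KK * l / 2 ^ (d + 1)
              ≤ Real.exp (l * Real.log (KK * l / 2 ^ (d + 1)) / 16000) := by
            conv_lhs => rw [← Real.exp_log (show 0 < KK * l / 2 ^ (d + 1) by positivity)]
            rw [Real.exp_le_exp]
            nlinarith
          refine le_trans ?_ (mul_le_mul_of_nonneg_left a (Real.exp_pos _).le)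
          rw [← mul_div_assoc]
          refine div_le_div_of_nonneg_right ?_ hn.le
          unfold KK
          have b : (1 : ℝ) ≤ Real.exp (-2) * Real.exp 64002 := by
            rw [← Real.exp_add]
            exact Real.one_le_exp (by norm_num)
          nlinarith
      push Not at hA
      by_cases hB : 2 ≤ Real.log (KK * l / 2 ^ (d + 1))
      · exact triv (by nlinarith)
      push Not at hB
      have e2 : (2 : ℝ) ^ (d + 1) = 2 * 2 ^ d := by ring
      rw [e2] at hB
      obtain ⟨s, w, hw, hs, hA', hE1, hE2, -⟩ := joint_exp hρ (bf d) (ph (2 ^ d))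
        (ph_nonneg _) (fun b x w hw => ih _ (hρ.comp (inc b)) x w hw) (v := v) hv
      rw [Aop_succ]
      refine hA'.trans ?_
      set Λ := Real.log (KK * l / (2 * 2 ^ d)) with hΛ
      set τ := (6 - Λ) / 16000 + 1 / 1000 with hτ
      have hc : ((Fintype.card (Q d) : ℕ) : ℝ) = 2 ^ d := by rw [card_Q]; push_cast; rfl
      have hτ0 : 0 ≤ τ := by rw [hτ]; linarith
      have k1 := hE1 (2 * τ) (Real.exp (-(42 * τ)) / 2) (by positivity) (by positivity) (by
          have a : l / (2 * 2 ^ d) = Real.exp (Λ - Real.log KK) := by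
            rw [Real.exp_sub, hΛ, Real.exp_log (by positivity), Real.exp_log hK]
            field_simp
          rw [hc, a, div_pow, ← Real.exp_nat_mul]
          have b : Real.exp (Λ - Real.log KK) ≤ Real.exp ((4 : ℕ) * -(42 * τ)) := by
            rw [Real.exp_le_exp, hτ]
            have := log_KK
            push_cast
            linarith
          exact b.trans (le_of_eq (by ring))) (by
          rw [div_mul_eq_mul_div, ← Real.exp_add, show -(42 * τ) + 21 * (2 * τ) = 0 by ring,
            Real.exp_zero])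
      have k2 := hE2 (by linarith)
      have k3 : ∑ z ∈ s, w z * (ph (2 ^ d) z.1 * ph (2 ^ d) z.2) ≤ ∑ z ∈ s,
          Real.exp (-4 + l * Λ / 16000) / 2 * (w z * Real.exp ((384 * l)⁻¹ * (z.1 - z.2) ^ 2)
            + w z * Real.exp (2 * τ * |l - z.1 - z.2|)) := by
        refine sum_le_sum fun z hz => ?_
        by_cases h0 : w z = 0
        · simp [h0]
        obtain ⟨a, b, c⟩ := hs z hz h0
        refine (mul_le_mul_of_nonneg_left (ph_mul (by positivity) a b hA c hB.le) (hw z)).trans ?_
        rw [← hΛ, ← hτ]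
        have e3 : Real.exp ((384 * l)⁻¹ * (z.1 - z.2) ^ 2)
            = Real.exp ((768 * l)⁻¹ * (z.1 - z.2) ^ 2) ^ 2 := by
          rw [← Real.exp_nat_mul]
          congr 1
          push_cast
          field_simp
          ring
        have e4 : Real.exp (2 * τ * |l - z.1 - z.2|) = Real.exp (τ * |l - z.1 - z.2|) ^ 2 := by
          rw [← Real.exp_nat_mul]
          congr 1
          push_cast
          ring
        rw [e3, e4]
        nlinarith [mul_nonneg (mul_nonneg (hw z) (Real.exp_pos (-4 + l * Λ / 16000)).le)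
          (sq_nonneg (Real.exp ((768 * l)⁻¹ * (z.1 - z.2) ^ 2) - Real.exp (τ * |l - z.1 - z.2|)))]
      rw [← mul_sum, sum_add_distrib] at k3
      refine k3.trans ((mul_le_mul_of_nonneg_left (add_le_add k2 k1) (by positivity)).trans ?_)
      unfold ph
      rw [if_neg hl, e2, ← hΛ, show -2 + l * Λ / 16000 = 2 + (-4 + l * Λ / 16000) by ring,
        Real.exp_add 2]
      have := Real.add_one_le_exp (2 : ℝ)
      nlinarith [mul_nonneg (Real.exp_pos (-4 + l * Λ / 16000)).le (sq_nonneg ‖v‖)]
    exact key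

theorem opnorm : ∃ c : ℝ, 0 < c ∧ c ≤ 1 ∧ ∀ (d : ℕ) (V : Type) [NormedAddCommGroup V]
    [InnerProductSpace ℝ V] [FiniteDimensional ℝ V] (ρ : Perm (Q d) →* Module.End ℝ V), Orth ρ →
    ∀ (κ l : ℝ) (v : V), 0 < κ → κ ≤ 2 * l → Lap ρ v = l • v →
    ‖Aop d ρ v‖ ^ 2 ≤ Real.exp (-(c * (κ * (1 + Real.log (2 ^ d / κ))))) * ‖v‖ ^ 2 := by
  have hK := log_KK
  refine ⟨(8000000 * (2 * Real.log KK + 2))⁻¹, by positivity,
    inv_le_one_of_one_le₀ (by linarith), fun d V _ _ _ ρ hρ κ l v hκ hl hv => ?_⟩
  by_cases hne : v = 0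
  · simp [hne]
  have hl0 : 0 < l := by linarith
  have h2 := eig_le_card hρ hv hne
  rw [card_Q] at h2
  push_cast at h2
  have hn : (0 : ℝ) < 2 ^ d := by positivity
  have hL : 0 ≤ Real.log (2 ^ d / l) := Real.log_nonneg (by rw [le_div_iff₀ hl0]; linarith)
  have mono : κ * (1 + Real.log (2 ^ d / κ)) ≤ 2 * (l * (1 + Real.log (2 ^ d / l))) := by
    have e : (2 : ℝ) ^ d / κ = 2 ^ d / l * (l / κ) := by field_simp
    rw [e, Real.log_mul (by positivity) (by positivity)]
    have a := mul_le_mul_of_nonneg_left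
      (Real.log_le_sub_one_of_pos (show 0 < l / κ by positivity)) hκ.le
    have b : κ * (l / κ - 1) = l - κ := by field_simp
    nlinarith
  set L := Real.log (2 ^ d / l) with hLd
  set c := (8000000 * (2 * Real.log KK + 2))⁻¹ with hc
  have hc0 : 0 < c := by positivity
  have hc1 : c * (8000000 * (2 * Real.log KK + 2)) = 1 := inv_mul_cancel₀ (by positivity)
  have fin : ∀ E : ℝ, ‖Aop d ρ v‖ ^ 2 ≤ Real.exp E * ‖v‖ ^ 2 → E ≤ -(2 * c * (l * (1 + L))) →
      ‖Aop d ρ v‖ ^ 2 ≤ Real.exp (-(c * (κ * (1 + Real.log (2 ^ d / κ))))) * ‖v‖ ^ 2 :=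
    fun E h1 h2 => h1.trans (mul_le_mul_of_nonneg_right (Real.exp_le_exp.2 (by
      nlinarith [mul_le_mul_of_nonneg_left mono hc0.le])) (sq_nonneg _))
  by_cases hB : L ≤ 2 * Real.log KK + 1
  · refine fin _ (heat d ρ hρ l v hv) ?_
    have a : 1 / 4000000 ≤ tt d := by
      unfold tt
      have : (0 : ℝ) < (17 / 20) ^ d := by positivity
      linarith
    have b : c * (1 + L) ≤ c * (2 * Real.log KK + 2) :=
      mul_le_mul_of_nonneg_left (by linarith) hc0.le
    have e : 2 * c * (1 + L) ≤ tt d := by linarith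
    nlinarith
  · have h := sparse d ρ hρ l v hv
    unfold ph at h
    rw [if_neg hl0.ne'] at h
    refine fin _ h ?_
    have e : Real.log (KK * l / 2 ^ d) = Real.log KK - L := by
      have := KK_pos
      rw [hLd, ← Real.log_div (by positivity) (by positivity)]
      congr 1
      field_simp
    rw [e]
    have a : c ≤ 1 / 64000 := by nlinarith
    have b : 2 * c * (1 + L) ≤ (L - Real.log KK) / 16000 := by nlinarith
    nlinarith

end Vale.Agent.P162
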