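import Vale.Agent.P162.OpNorm

/-! The regular representation and the count of large singular values. -/

namespace Vale.Agent.P162

open scoped RealInnerProductSpace
open Finset Equiv Module

theorem exists_frame {V : Type} [NormedAddCommGroup V] [InnerProductSpace ℝ V]
    [FiniteDimensional ℝ V] (U : Submodule ℝ V) :
    ∃ b : Fin (finrank ℝ U) → V, (∀ i, b i ∈ U) ∧ (∀ i, ‖b i‖ = 1) ∧
      (∀ x, ∑ i, ⟪b i, x⟫ ^ 2 ≤ ‖x‖ ^ 2) ∧ ∀ u ∈ U, ∑ i, ⟪b i, u⟫ • b i = u := by
  let b := stdOrthonormalBasis ℝ U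
  have hb : Orthonormal ℝ fun i => (b i : V) := b.orthonormal.comp_linearIsometry U.subtypeₗᵢ
  refine ⟨fun i => b i, fun i => (b i).2, hb.1, fun x => ?_, fun u hu => ?_⟩
  · simpa using hb.sum_inner_products_le (s := univ) x
  · have := congrArg Subtype.val (b.sum_repr' ⟨u, hu⟩)
    simpa using this

section reg
variable {G : Type} [Group G] [Fintype G]

/-- left regular representation -/
def Lr (G : Type) [Group G] [Fintype G] : G →* Module.End ℝ (EuclideanSpace ℝ G) where
  toFun g :=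
    { toFun := fun f => WithLp.toLp 2 fun x => f (g⁻¹ * x)
      map_add' := fun _ _ => rfl
      map_smul' := fun _ _ => rfl }
  map_one' := by ext f x; simp
  map_mul' g h := by
    ext f x
    exact congrArg f.ofLp (by rw [mul_inv_rev, mul_assoc])

/-- right regular representation -/
def Rr (G : Type) [Group G] [Fintype G] : G →* Module.End ℝ (EuclideanSpace ℝ G) where
  toFun g :=
    { toFun := fun f => WithLp.toLp 2 fun x => f (x * g)
      map_add' := fun _ _ => rfl
      map_smul' := fun _ _ => rfl }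
  map_one' := by ext f x; simp
  map_mul' g h := by
    ext f x
    exact congrArg f.ofLp (mul_assoc x g h).symm

theorem Lr_apply (g : G) (f : EuclideanSpace ℝ G) (x : G) : Lr G g f x = f (g⁻¹ * x) := rfl
theorem Rr_apply (g : G) (f : EuclideanSpace ℝ G) (x : G) : Rr G g f x = f (x * g) := rfl

omit [Group G] in
theorem inner_eq_sum (f h : EuclideanSpace ℝ G) : ⟪f, h⟫ = ∑ x, f x * h x := by
  simp [PiLp.inner_apply, mul_comm]

omit [Group G] [Fintype G] in
theorem Ex_coord {Ω : Type} [Fintype Ω] (f : Ω → EuclideanSpace ℝ G) (x : G) :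
    Ex f x = Ex fun ω => f ω x := by
  unfold Ex
  simp

theorem Lr_orth : Orth (Lr G) := fun g v w => by
  simp only [inner_eq_sum, Lr_apply]
  exact Equiv.sum_comp (Equiv.mulLeft g⁻¹) fun x => v x * w x

theorem Rr_orth : Orth (Rr G) := fun g v w => by
  simp only [inner_eq_sum, Rr_apply]
  exact Equiv.sum_comp (Equiv.mulRight g) fun x => v x * w x

theorem Rr_Lr (g h : G) : Rr G g * Lr G h = Lr G h * Rr G g := by
  ext f x
  simp [Lr_apply, Rr_apply, mul_assoc]

end reg

theorem Lap_LR {Y : Type} [Fintype Y] [DecidableEq Y] :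
    Lap (Rr (Perm Y)) = Lap (Lr (Perm Y)) := by
  unfold Lap EE
  congr 1
  ext f x
  simp only [LinearMap.sum_apply, ee_apply, WithLp.ofLp_sum, Finset.sum_apply, PiLp.sub_apply,
    Lr_apply,
    Rr_apply, swap_inv, Equiv.mul_swap_eq_swap_mul]
  refine (Equiv.sum_comp x fun i => ∑ j, (f x - f (swap i (x j) * x))).trans
    (sum_congr rfl fun i _ => Equiv.sum_comp x fun j => f x - f (swap i j * x))

theorem card_small {Y : Type} [Fintype Y] [DecidableEq Y] {k : ℕ} (hk : 0 < k)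
    (hn : k ≤ Fintype.card Y) : (Fintype.card {S : Finset Y // S.card ≤ k} : ℝ)
      ≤ Real.exp (k * (1 + Real.log (Fintype.card Y / k))) := by
  have hk' : (0 : ℝ) < k := by exact_mod_cast hk
  have hn' : (k : ℝ) ≤ Fintype.card Y := by exact_mod_cast hn
  have hn0 : (0 : ℝ) < Fintype.card Y := by linarith
  set a : ℝ := k / Fintype.card Y with ha
  have a0 : 0 < a := by positivity
  have a1 : a ≤ 1 := div_le_one_of_le₀ hn' hn0.le
  have h1 : (Fintype.card {S : Finset Y // S.card ≤ k} : ℝ) * a ^ k ≤ ∑ S : Finset Y, a ^ S.card := by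
    rw [Fintype.card_subtype, ← nsmul_eq_mul, ← sum_const]
    refine le_trans (sum_le_sum fun S hS => pow_le_pow_of_le_one a0.le a1 (mem_filter.1 hS).2)
      (sum_le_sum_of_subset_of_nonneg (filter_subset _ _) fun _ _ _ => by positivity)
  have h2 : ∑ S : Finset Y, a ^ S.card = (1 + a) ^ Fintype.card Y := by
    rw [← card_univ, ← prod_const, prod_one_add, powerset_univ]
    simp
  have h3 : (1 + a) ^ Fintype.card Y ≤ Real.exp k := by
    refine (pow_le_pow_left₀ (by positivity) ((add_comm _ _).le.trans (Real.add_one_le_exp a))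
      _).trans (le_of_eq ?_)
    rw [← Real.exp_nat_mul, ha]
    congr 1
    field_simp
  have h4 : Real.exp (k * (1 + Real.log (Fintype.card Y / k))) * a ^ k = Real.exp k := by
    rw [mul_add, mul_one, Real.exp_add, Real.exp_nat_mul (Real.log _),
      Real.exp_log (by positivity), mul_assoc, ← mul_pow, ha]
    field_simp
    simp
  exact le_of_mul_le_mul_right (by linarith) (pow_pos a0 k)

variable {d : ℕ}

theorem rank_inv (S : Finset (Q d)) (y : ℝ)
    (U : Submodule ℝ (EuclideanSpace ℝ (Perm (Q d))))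
    (hU : ∀ u ∈ U, Inv (Rr _) Sᶜ u ∧ Real.exp (-y) * ‖u‖ ^ 2 ≤ ⟪u, Bop d (Lr _) u⟫) :
    (finrank ℝ U : ℝ) ≤ Real.exp (64 * 8193 * S.card + 130 * y + 130) := by
  obtain ⟨b, hb1, hb2, hb3, -⟩ := exists_frame U
  set H : ℝ := 64 * (8193 * S.card + 2 * y + 2) with hH
  set θ := Real.exp (-y) with hθ
  have hθ0 : 0 < θ := Real.exp_pos _
  set N : ℝ := ((Fintype.card (Q d) - S.card).factorial : ℝ) with hN
  have hN0 : 0 < N := by positivity
  let good : Perm (Q d) → (Sw d → Bool) → (Sw d → Bool) → Prop :=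
    fun h ω ω' => Nt d (S.image h) ω ω' ≤ H
  have hbad : ∀ h, (Ex fun ω => Ex fun ω' => ind (¬ good h ω ω')) ≤ θ ^ 2 / 4 := by
    intro h
    refine Ex_le_const fun ω => ?_
    have a : ∀ ω', ind (¬ good h ω ω')
        ≤ Real.exp (-(H / 64)) * Real.exp (1 / 64 * Nt d (S.image h) ω ω') := by
      intro ω'
      by_cases hg : good h ω ω'
      · rw [ind_neg (not_not.2 hg)]
        positivity
      · rw [ind_pos hg, ← Real.exp_add]
        refine Real.one_le_exp ?_
        have : H < Nt d (S.image h) ω ω' := not_le.1 hg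
        linarith
    refine (Ex_mono a).trans ?_
    rw [Ex_mul_left]
    refine (mul_le_mul_of_nonneg_left (Nt_mgf d _ ω) (Real.exp_pos _).le).trans ?_
    rw [← Real.exp_add, card_image_of_injective _ h.injective, hθ, ← Real.exp_nat_mul,
      show -(H / 64) + 8193 * (S.card : ℝ) = (2 : ℕ) * -y + -2 by rw [hH]; push_cast; ring,
      Real.exp_add, Real.exp_neg 2, ← div_eq_mul_inv]
    refine div_le_div_of_nonneg_left (Real.exp_pos _).le (by norm_num) ?_
    have := Real.add_one_le_exp (1 : ℝ)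
    rw [show (2 : ℝ) = 1 + 1 by norm_num, Real.exp_add]
    nlinarith
  let κ : Perm (Q d) → EuclideanSpace ℝ (Perm (Q d)) := fun h => WithLp.toLp 2 fun g =>
    N⁻¹ * Ex fun ω => Ex fun ω' => ind (good h ω ω') * ind (∀ x ∈ S, g x = (ben d ω ω' * h) x)
  have hκ : ∀ h g, κ h g = N⁻¹ * Ex fun ω => Ex fun ω' =>
    ind (good h ω ω') * ind (∀ x ∈ S, g x = (ben d ω ω' * h) x) := fun _ _ => rfl
  have hκ1 : ∀ h (f : Perm (Q d) → ℝ), (∀ g g', (∀ x ∈ S, g' x = x) → f (g * g') = f g) →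
      ∑ g, f g * κ h g = Ex fun ω => Ex fun ω' => ind (good h ω ω') * f (ben d ω ω' * h) := by
    intro h f hf
    simp only [hκ, ← Ex_mul_left, ← Ex_sum]
    refine Ex_congr fun ω => Ex_congr fun ω' => ?_
    have := sum_agree_mul S f hf (ben d ω ω' * h)
    rw [← hN] at this
    calc _ = N⁻¹ * ind (good h ω ω') *
          ∑ g : Perm (Q d), ind (∀ x ∈ S, g x = (ben d ω ω' * h) x) * f g := by
          rw [mul_sum]
          exact sum_congr rfl fun g _ => by ring
      _ = _ := by rw [this]; field_simp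
  have hκ2 : ∀ h, ‖κ h‖ ^ 2 ≤ N⁻¹ * (Real.exp H * ((1 / 2) ^ d) ^ S.card) := by
    intro h
    have a : ∀ g, κ h g ≤ N⁻¹ * (Real.exp H * ((1 / 2) ^ d) ^ S.card) := by
      intro g
      rw [hκ]
      refine mul_le_mul_of_nonneg_left ?_ (by positivity)
      have := kraft d (S.image h) (g * h⁻¹ : Perm (Q d)) (g * h⁻¹).injective.injOn
      rw [card_image_of_injective _ h.injective] at this
      refine le_trans ?_ (mul_le_mul_of_nonneg_left this (Real.exp_pos H).le)
      simp only [← Ex_mul_left, ind_congr (agree_iff S g _ h)]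
      refine Ex_mono fun ω => Ex_mono fun ω' => ?_
      rw [mul_left_comm, mul_comm]
      refine mul_le_mul_of_nonneg_left ?_ (ind_nonneg _)
      by_cases hg : good h ω ω'
      · rw [ind_pos hg, ← Real.exp_add]
        exact Real.one_le_exp (sub_nonneg.2 hg)
      · rw [ind_neg hg]
        positivity
    have a0 : ∀ g, 0 ≤ κ h g := fun g => by
      rw [hκ]
      exact mul_nonneg (by positivity) (Ex_nonneg fun _ => Ex_nonneg fun _ =>
        mul_nonneg (ind_nonneg _) (ind_nonneg _))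
    have c := hκ1 h (fun _ => 1) fun _ _ _ => rfl
    have c' : ∑ g, κ h g ≤ 1 := by
      simp only [one_mul, mul_one] at c
      rw [c]
      exact Ex_le_const fun _ => Ex_le_const fun _ => ind_le_one _
    rw [EuclideanSpace.real_norm_sq_eq]
    calc _ ≤ ∑ g, N⁻¹ * (Real.exp H * ((1 / 2) ^ d) ^ S.card) * κ h g :=
          sum_le_sum fun g _ => by rw [sq]; exact mul_le_mul_of_nonneg_right (a g) (a0 g)
      _ ≤ _ := by
          rw [← mul_sum]
          exact mul_le_of_le_one_right (by positivity) c'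
  have low : ∀ i, θ ^ 2 / 4 ≤ ∑ h, ⟪b i, κ h⟫ ^ 2 := by
    intro i
    obtain ⟨hI, hB⟩ := hU _ (hb1 i)
    set f := b i
    have hf : ∀ g g', (∀ x ∈ S, g' x = x) → f (g * g') = f g := fun g g' hg => by
      rw [← Rr_apply, hI.fix g' hg]
    have n1 : ∑ h, f h ^ 2 = 1 := by rw [← EuclideanSpace.real_norm_sq_eq, hb2, one_pow]
    have e1 : ⟪f, Bop d (Lr _) f⟫ = ∑ h, Ex fun ω => Ex fun ω' => f (ben d ω ω' * h) * f h := by
      unfold Bop
      simp only [Ex_apply, inner_Ex, ← Ex_sum]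
      refine Ex_congr fun ω => Ex_congr fun ω' => ?_
      rw [inner_eq_sum, ← Equiv.sum_comp (Equiv.mulLeft (ben d ω ω'))]
      simp [Lr_apply]
    have e2 : ∀ h, (Ex fun ω => Ex fun ω' => f (ben d ω ω' * h) * f h) ≤
        (⟪f, κ h⟫ ^ 2 / θ + θ / 2 * f h ^ 2) +
          θ / 4 * Ex fun ω => Ex fun ω' => f (ben d ω ω' * h) ^ 2 := by
      intro h
      have a : ∀ ω ω', f (ben d ω ω' * h) * f h ≤ ind (good h ω ω') * f (ben d ω ω' * h) * f h
          + (ind (¬ good h ω ω') * (f h ^ 2 / θ) + θ / 4 * f (ben d ω ω' * h) ^ 2) := by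
        intro ω ω'
        by_cases hg : good h ω ω'
        · rw [ind_pos hg, ind_neg (not_not.2 hg)]
          nlinarith [mul_nonneg hθ0.le (sq_nonneg (f (ben d ω ω' * h)))]
        · rw [ind_neg hg, ind_pos hg]
          have : f h ^ 2 / θ + θ / 4 * f (ben d ω ω' * h) ^ 2 - f (ben d ω ω' * h) * f h
              = (f h - θ / 2 * f (ben d ω ω' * h)) ^ 2 / θ := by field_simp; ring
          have : 0 ≤ (f h - θ / 2 * f (ben d ω ω' * h)) ^ 2 / θ := by positivity
          linarith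
      refine (Ex_mono fun ω => Ex_mono fun ω' => a ω ω').trans ?_
      simp only [Ex_add, Ex_mul_right, Ex_mul_left]
      rw [← hκ1 h f hf, ← inner_eq_sum]
      have c := mul_le_mul_of_nonneg_right (hbad h) (show 0 ≤ f h ^ 2 / θ by positivity)
      have c1 : θ ^ 2 / 4 * (f h ^ 2 / θ) = θ / 4 * f h ^ 2 := by field_simp
      have c2 : ⟪f, κ h⟫ ^ 2 / θ + θ / 4 * f h ^ 2 - ⟪f, κ h⟫ * f h
          = (⟪f, κ h⟫ - θ / 2 * f h) ^ 2 / θ := by field_simp; ring
      have c3 : 0 ≤ (⟪f, κ h⟫ - θ / 2 * f h) ^ 2 / θ := by positivity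
      linarith
    have e3 : ∑ h, (Ex fun ω => Ex fun ω' => f (ben d ω ω' * h) ^ 2) = 1 := by
      simp only [← Ex_sum]
      have : ∀ g : Perm (Q d), ∑ h, f (g * h) ^ 2 = 1 := fun g =>
        (Equiv.sum_comp (Equiv.mulLeft g) fun h => f h ^ 2).trans n1
      simp only [this, Ex_const]
    have e4 := sum_le_sum fun h (_ : h ∈ univ) => e2 h
    rw [← e1, sum_add_distrib, sum_add_distrib, ← mul_sum, ← mul_sum, ← sum_div, n1, e3] at e4
    rw [hb2] at hB
    have e5 : θ / 4 ≤ (∑ h, ⟪f, κ h⟫ ^ 2) / θ := by linarith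
    rw [le_div_iff₀ hθ0] at e5
    linarith
  have tot : (finrank ℝ U : ℝ) * (θ ^ 2 / 4) ≤ Real.exp H := by
    have a := sum_le_sum fun i (_ : i ∈ univ) => low i
    rw [sum_comm, sum_const, card_univ, Fintype.card_fin, nsmul_eq_mul] at a
    refine a.trans ((sum_le_sum fun h _ => (hb3 _).trans (hκ2 h)).trans ?_)
    rw [sum_const, card_univ, Fintype.card_perm, nsmul_eq_mul]
    have c := desc_le (card_le_univ S)
    rw [← hN, show ((Fintype.card (Q d) : ℕ) : ℝ) = 2 ^ d by rw [card_Q]; push_cast; rfl] at c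
    refine (mul_le_mul_of_nonneg_right c (by positivity)).trans (le_of_eq ?_)
    rw [one_div, inv_pow, inv_pow]
    field_simp
  have fin : Real.exp H ≤ Real.exp (64 * 8193 * S.card + 130 * y + 130) * (θ ^ 2 / 4) := by
    rw [hθ, ← Real.exp_nat_mul, ← mul_div_assoc, ← Real.exp_add,
      show 64 * 8193 * (S.card : ℝ) + 130 * y + 130 + (2 : ℕ) * -y = H + 1 + 1 by
        rw [hH]; push_cast; ring, Real.exp_add, Real.exp_add]
    have := Real.add_one_le_exp (1 : ℝ)
    have := Real.exp_pos H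
    have : 4 ≤ Real.exp 1 * Real.exp 1 := by nlinarith
    nlinarith
  exact le_of_mul_le_mul_right (tot.trans fin) (by positivity)

theorem rank_low {k : ℕ} (hk : 0 < k) (hn : k ≤ Fintype.card (Q d)) (y : ℝ)
    (U : Submodule ℝ (EuclideanSpace ℝ (Perm (Q d)))) (hR : ∀ g, ∀ u ∈ U, Rr _ g u ∈ U)
    (hE : ∀ u ∈ U, u ≠ 0 →
      ⟪u, Lap (Lr _) u⟫ < ((k : ℝ) + 1) / 2 * ‖u‖ ^ 2 ∨ Fintype.card (Q d) ≤ k)
    (hB : ∀ u ∈ U, Real.exp (-y) * ‖u‖ ^ 2 ≤ ⟪u, Bop d (Lr _) u⟫) :
    (finrank ℝ U : ℝ) ≤ Real.exp (k * (1 + Real.log (Fintype.card (Q d) / k))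
      + (64 * 8193 * k + 130 * y + 130)) := by
  let W : {S : Finset (Q d) // S.card ≤ k} → Submodule ℝ (EuclideanSpace ℝ (Perm (Q d))) :=
    fun S =>
    { carrier := {u | u ∈ U ∧ Inv (Rr _) S.1ᶜ u}
      add_mem' := fun ha hb => ⟨U.add_mem ha.1 hb.1, fun a h1 b h2 => by
        rw [map_add, ha.2 a h1 b h2, hb.2 a h1 b h2]⟩
      zero_mem' := ⟨U.zero_mem, fun _ _ _ _ => map_zero _⟩
      smul_mem' := fun c a ha => ⟨U.smul_mem c ha.1, fun a h1 b h2 => by
        rw [map_smul, ha.2 a h1 b h2]⟩ }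
  let Φ : U →ₗ[ℝ] (∀ S, W S) :=
    LinearMap.pi fun S => (W S).orthogonalProjectionOnto.toLinearMap ∘ₗ U.subtype
  have hΦ : Function.Injective Φ := by
    rw [injective_iff_map_eq_zero]
    intro v hv
    by_contra hne
    have hne' : (v : EuclideanSpace ℝ (Perm (Q d))) ≠ 0 := fun h => hne (Subtype.ext h)
    obtain ⟨S, hS, u, hu, hI, h⟩ := exists_inv' Rr_orth U hR k v.2 hne'
      (Lap_LR (Y := Q d) ▸ hE _ v.2 hne')
    have h0 : (W ⟨S, hS⟩).orthogonalProjectionOnto v = 0 := congrFun hv ⟨S, hS⟩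
    rw [Submodule.orthogonalProjectionOnto_eq_zero_iff] at h0
    exact h (Submodule.inner_left_of_mem_orthogonal (K := W ⟨S, hS⟩) ⟨hu, hI⟩ h0)
  have h1 := LinearMap.finrank_le_finrank_of_injective hΦ
  rw [Module.finrank_pi_fintype] at h1
  have h2 : (finrank ℝ U : ℝ) ≤ ∑ S, (finrank ℝ (W S) : ℝ) := by exact_mod_cast h1
  refine h2.trans ((sum_le_card_nsmul _ _ (Real.exp (64 * 8193 * k + 130 * y + 130))
    fun S _ => ?_).trans ?_)
  · refine (rank_inv S.1 y (W S) fun u hu => ⟨hu.2, hB u hu.1⟩).trans (Real.exp_le_exp.2 ?_)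
    have : (S.1.card : ℝ) ≤ k := by exact_mod_cast S.2
    linarith
  · rw [nsmul_eq_mul, card_univ, Real.exp_add (k * _)]
    exact mul_le_mul_of_nonneg_right (card_small hk hn) (Real.exp_pos _).le

end Vale.Agent.P162
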