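import Mathlib

/-! Spectral projections, averages and scalar lemmas. -/

namespace Vale.Agent.P162

open scoped RealInnerProductSpace
open Finset

section ex
variable {M : Type} [AddCommGroup M] [Module ℝ M] {Ω Ω' : Type} [Fintype Ω] [Fintype Ω']

/-- uniform average -/
noncomputable def Ex (f : Ω → M) : M := (Fintype.card Ω : ℝ)⁻¹ • ∑ ω, f ω

theorem Ex_equiv (e : Ω ≃ Ω') (f : Ω' → M) : Ex (fun ω => f (e ω)) = Ex f := by
  unfold Ex
  rw [Fintype.card_congr e, Equiv.sum_comp e f]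

theorem Ex_congr {f g : Ω → M} (h : ∀ ω, f ω = g ω) : Ex f = Ex g := by
  rw [funext h]

theorem Ex_const [Nonempty Ω] (c : M) : Ex (fun _ : Ω => c) = c := by
  unfold Ex
  rw [sum_const, card_univ, ← Nat.cast_smul_eq_nsmul ℝ, smul_smul, inv_mul_cancel₀, one_smul]
  exact_mod_cast Fintype.card_ne_zero

theorem Ex_prod (f : Ω × Ω' → M) : Ex f = Ex fun a => Ex fun b => f (a, b) := by
  unfold Ex
  rw [Fintype.card_prod, Fintype.sum_prod_type, ← smul_sum, smul_smul, Nat.cast_mul, mul_inv]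

theorem Ex_comm (f : Ω → Ω' → M) :
    (Ex fun a => Ex fun b => f a b) = Ex fun b => Ex fun a => f a b := by
  unfold Ex
  rw [← smul_sum, ← smul_sum, smul_comm, sum_comm]

theorem Ex_add (f g : Ω → M) : Ex (fun ω => f ω + g ω) = Ex f + Ex g := by
  unfold Ex
  rw [sum_add_distrib, smul_add]

theorem Ex_sub (f g : Ω → M) : Ex (fun ω => f ω - g ω) = Ex f - Ex g := by
  unfold Ex
  rw [sum_sub_distrib, smul_sub]

theorem Ex_smul (c : ℝ) (f : Ω → M) : Ex (fun ω => c • f ω) = c • Ex f := by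
  unfold Ex
  rw [← smul_sum, smul_comm]

theorem Ex_sum {ι : Type} (s : Finset ι) (f : ι → Ω → M) :
    Ex (fun ω => ∑ i ∈ s, f i ω) = ∑ i ∈ s, Ex (f i) := by
  unfold Ex
  rw [sum_comm, smul_sum]

theorem Ex_map {N : Type} [AddCommGroup N] [Module ℝ N] (φ : M →ₗ[ℝ] N) (f : Ω → M) :
    φ (Ex f) = Ex fun ω => φ (f ω) := by
  unfold Ex
  rw [map_smul, map_sum]

theorem Ex_mul_left (c : ℝ) (f : Ω → ℝ) : Ex (fun ω => c * f ω) = c * Ex f := Ex_smul c f

theorem Ex_mul_right (c : ℝ) (f : Ω → ℝ) : Ex (fun ω => f ω * c) = Ex f * c := by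
  simp only [mul_comm _ c]
  exact Ex_smul c f

theorem Ex_mono {f g : Ω → ℝ} (h : ∀ ω, f ω ≤ g ω) : Ex f ≤ Ex g := by
  unfold Ex
  exact mul_le_mul_of_nonneg_left (sum_le_sum fun ω _ => h ω) (by positivity)

theorem Ex_nonneg {f : Ω → ℝ} (h : ∀ ω, 0 ≤ f ω) : 0 ≤ Ex f := by
  unfold Ex
  exact mul_nonneg (by positivity) (sum_nonneg fun ω _ => h ω)

theorem Ex_le_const [Nonempty Ω] {f : Ω → ℝ} {c : ℝ} (h : ∀ ω, f ω ≤ c) : Ex f ≤ c :=
  (Ex_mono h).trans (Ex_const c).le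

theorem Ex_mul_Ex (f : Ω → ℝ) (g : Ω' → ℝ) :
    (Ex fun a => Ex fun b => f a * g b) = Ex f * Ex g := by
  simp only [Ex_mul_left, Ex_mul_right]

theorem exists_Ex_le [Nonempty Ω] (f : Ω → ℝ) : ∃ ω, Ex f ≤ f ω := by
  obtain ⟨ω, hω⟩ := Finite.exists_max f
  exact ⟨ω, Ex_le_const hω⟩

theorem sq_Ex_le [Nonempty Ω] (f : Ω → ℝ) : Ex f ^ 2 ≤ Ex fun ω => f ω ^ 2 := by
  have h : 0 ≤ Ex fun ω => (f ω - Ex f) ^ 2 := Ex_nonneg fun _ => sq_nonneg _
  have e : (Ex fun ω => (f ω - Ex f) ^ 2) = Ex (fun ω => f ω ^ 2) - Ex f ^ 2 := by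
    have : ∀ ω, (f ω - Ex f) ^ 2 = (f ω ^ 2 - (2 * Ex f) * f ω) + Ex f ^ 2 := fun ω => by ring
    simp only [this]
    rw [Ex_add, Ex_sub, Ex_mul_left, Ex_const]
    ring
  linarith

end ex

variable {V : Type} [NormedAddCommGroup V] [InnerProductSpace ℝ V]

theorem Ex_apply {Ω : Type} [Fintype Ω] (f : Ω → Module.End ℝ V) (v : V) :
    (Ex f) v = Ex fun ω => f ω v := by
  unfold Ex
  rw [LinearMap.smul_apply, LinearMap.sum_apply]

theorem inner_Ex {Ω : Type} [Fintype Ω] (f : Ω → V) (v : V) :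
    ⟪v, Ex f⟫ = Ex fun ω => ⟪v, f ω⟫ := by
  unfold Ex
  rw [inner_smul_right, inner_sum, smul_eq_mul]

theorem Ex_inner {Ω : Type} [Fintype Ω] (f : Ω → V) (v : V) :
    ⟪Ex f, v⟫ = Ex fun ω => ⟪f ω, v⟫ := by
  rw [real_inner_comm, inner_Ex]
  simp only [real_inner_comm]

theorem norm_Ex_le {Ω : Type} [Fintype Ω] (f : Ω → V) : ‖Ex f‖ ≤ Ex fun ω => ‖f ω‖ := by
  unfold Ex
  rw [norm_smul, Real.norm_eq_abs, abs_of_nonneg (by positivity), smul_eq_mul]
  exact mul_le_mul_of_nonneg_left (norm_sum_le _ _) (by positivity)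

theorem Ex_mul_End {Ω : Type} [Fintype Ω] (f : Ω → Module.End ℝ V) (T : Module.End ℝ V) :
    Ex f * T = Ex fun ω => f ω * T := by
  unfold Ex
  rw [smul_mul_assoc, sum_mul]

theorem End_mul_Ex {Ω : Type} [Fintype Ω] (f : Ω → Module.End ℝ V) (T : Module.End ℝ V) :
    T * Ex f = Ex fun ω => T * f ω := by
  unfold Ex
  rw [mul_smul_comm, mul_sum]

theorem pyth {ι : Type} (s : Finset ι) (u : ι → V)
    (h : ∀ i ∈ s, ∀ j ∈ s, i ≠ j → ⟪u i, u j⟫ = 0) :
    ‖∑ i ∈ s, u i‖ ^ 2 = ∑ i ∈ s, ‖u i‖ ^ 2 := by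
  classical
  rw [← real_inner_self_eq_norm_sq, sum_inner]
  refine sum_congr rfl fun i hi => ?_
  rw [inner_sum, sum_eq_single i (fun j hj hne => h i hi j hj hne.symm) (fun h => absurd hi h),
    real_inner_self_eq_norm_sq]

theorem eig_orth {T : Module.End ℝ V} (hT : T.IsSymmetric) {x y : ℝ} {v w : V}
    (hv : T v = x • v) (hw : T w = y • w) (hxy : x ≠ y) : ⟪v, w⟫ = 0 := by
  have := hT v w
  rw [hv, hw, real_inner_smul_left, real_inner_smul_right] at this
  have h : (x - y) * ⟪v, w⟫ = 0 := by linarith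
  rcases mul_eq_zero.1 h with h | h
  · exact absurd (sub_eq_zero.1 h) hxy
  · exact h

omit [InnerProductSpace ℝ V] in
theorem norm_sq_sum_le {ι : Type} (s : Finset ι) (u : ι → V) :
    ‖∑ i ∈ s, u i‖ ^ 2 ≤ s.card * ∑ i ∈ s, ‖u i‖ ^ 2 :=
  (pow_le_pow_left₀ (norm_nonneg _) (norm_sum_le _ _) 2).trans sq_sum_le_card_mul_sum_sq

/-- spectral projections -/
structure SpecData (T : Module.End ℝ V) where
  X : Finset ℝ
  p : ℝ → Module.End ℝ V
  sum_eq : ∀ v, ∑ x ∈ X, p x v = v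
  eig : ∀ x ∈ X, ∀ v, T (p x v) = x • p x v
  mem : ∀ (W : Submodule ℝ V), (∀ v ∈ W, T v ∈ W) → ∀ x, ∀ v ∈ W, p x v ∈ W
  comm : ∀ S : Module.End ℝ V, S * T = T * S → ∀ x, S * p x = p x * S

theorem exists_spec [FiniteDimensional ℝ V] {T : Module.End ℝ V} (hT : T.IsSymmetric) :
    Nonempty (SpecData T) := by
  classical
  let b := hT.eigenvectorBasis rfl
  let l := hT.eigenvalues rfl
  have hb : ∀ i, T (b i) = l i • b i := fun i => hT.apply_eigenvectorBasis rfl i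
  let X : Finset ℝ := univ.image l
  let p : ℝ → Module.End ℝ V := fun x => Polynomial.aeval T (Lagrange.basis X id x)
  have hp : ∀ x ∈ X, ∀ i, p x (b i) = if l i = x then b i else 0 := by
    intro x hx i
    have hi : l i ∈ X := mem_image_of_mem _ (mem_univ i)
    simp only [p]
    rw [Module.End.aeval_apply_of_mem_apply_eq_smul (hb i)]
    split_ifs with h
    · have := Lagrange.eval_basis_self (s := X) (v := id) (Set.injOn_id _) hx
      rw [h]
      simp only [id] at this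
      rw [this, one_smul]
    · have := Lagrange.eval_basis_of_ne (s := X) (v := id) (Ne.symm h) hi
      simp only [id] at this
      rw [this, zero_smul]
  refine ⟨⟨X, p, ?_, ?_, ?_, ?_⟩⟩
  · intro v
    conv_lhs => rw [← b.sum_repr v]
    conv_rhs => rw [← b.sum_repr v]
    simp only [map_sum, map_smul]
    rw [sum_comm]
    refine sum_congr rfl fun i _ => ?_
    rw [← smul_sum, sum_congr rfl fun x hx => hp x hx i, sum_ite_eq,
      if_pos (mem_image_of_mem _ (mem_univ i))]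
  · intro x hx v
    rw [← b.sum_repr v]
    simp only [map_sum, map_smul, smul_sum]
    refine sum_congr rfl fun i _ => ?_
    rw [hp x hx i]
    split_ifs with h
    · rw [hb, h, smul_comm]
    · simp
  · intro W hW x v hv
    simp only [p]
    generalize Lagrange.basis X id x = q
    induction q using Polynomial.induction_on' with
    | add q r hq hr => rw [map_add, LinearMap.add_apply]; exact W.add_mem hq hr
    | monomial n a =>
      rw [Polynomial.aeval_monomial, Module.End.mul_apply, Module.algebraMap_end_apply]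
      refine W.smul_mem _ ?_
      induction n with
      | zero => simpa using hv
      | succ n ih => rw [pow_succ', Module.End.mul_apply]; exact hW _ ih
  · intro S hS x
    simp only [p]
    generalize Lagrange.basis X id x = q
    induction q using Polynomial.induction_on' with
    | add q r hq hr => rw [map_add, mul_add, add_mul, hq, hr]
    | monomial n a =>
      rw [Polynomial.aeval_monomial, Algebra.algebraMap_eq_smul_one, smul_mul_assoc, one_mul,
        mul_smul_comm, smul_mul_assoc, (Commute.pow_right hS n).eq]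

theorem SpecData.norm_sq {T : Module.End ℝ V} (hT : T.IsSymmetric) (s : SpecData T) (v : V) :
    ‖v‖ ^ 2 = ∑ x ∈ s.X, ‖s.p x v‖ ^ 2 := by
  conv_lhs => rw [← s.sum_eq v]
  exact pyth _ _ fun x hx y hy h => eig_orth hT (s.eig x hx v) (s.eig y hy v) h

theorem SpecData.inner_eq {T : Module.End ℝ V} (hT : T.IsSymmetric) (s : SpecData T) {x : ℝ}
    (hx : x ∈ s.X) (v w : V) : ⟪s.p x v, w⟫ = ⟪s.p x v, s.p x w⟫ := by
  conv_lhs => rw [← s.sum_eq w]
  rw [inner_sum, sum_eq_single x (fun y hy hne => eig_orth hT (s.eig x hx v) (s.eig y hy w)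
    hne.symm) (fun h => absurd hx h)]

theorem SpecData.symm {T : Module.End ℝ V} (hT : T.IsSymmetric) (s : SpecData T) {x : ℝ}
    (hx : x ∈ s.X) : (s.p x).IsSymmetric := by
  intro v w
  rw [s.inner_eq hT hx, real_inner_comm, ← s.inner_eq hT hx, real_inner_comm]

theorem SpecData.inner_T {T : Module.End ℝ V} (hT : T.IsSymmetric) (s : SpecData T) (v : V) :
    ⟪v, T v⟫ = ∑ x ∈ s.X, x * ‖s.p x v‖ ^ 2 := by
  conv_lhs => rw [← s.sum_eq v, map_sum, inner_sum]
  refine sum_congr rfl fun x hx => ?_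
  rw [s.sum_eq v, s.eig x hx, real_inner_smul_right, real_inner_comm, s.inner_eq hT hx,
    real_inner_self_eq_norm_sq]

theorem quad_ge_of_eig [FiniteDimensional ℝ V] {T : Module.End ℝ V} (hT : T.IsSymmetric)
    (W : Submodule ℝ V) (hW : ∀ v ∈ W, T v ∈ W) (c : ℝ)
    (h : ∀ x, ∀ v ∈ W, v ≠ 0 → T v = x • v → c ≤ x) : ∀ v ∈ W, c * ‖v‖ ^ 2 ≤ ⟪v, T v⟫ := by
  intro v hv
  obtain ⟨s⟩ := exists_spec hT
  rw [s.inner_T hT, s.norm_sq hT, mul_sum]
  refine sum_le_sum fun x hx => ?_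
  by_cases h0 : s.p x v = 0
  · simp [h0]
  · exact mul_le_mul_of_nonneg_right (h x _ (s.mem W hW x v hv) h0 (s.eig x hx v)) (sq_nonneg _)

theorem quad_le_of_eig [FiniteDimensional ℝ V] {T : Module.End ℝ V} (hT : T.IsSymmetric)
    (W : Submodule ℝ V) (hW : ∀ v ∈ W, T v ∈ W) (c : ℝ)
    (h : ∀ x, ∀ v ∈ W, v ≠ 0 → T v = x • v → x ≤ c) : ∀ v ∈ W, ⟪v, T v⟫ ≤ c * ‖v‖ ^ 2 := by
  intro v hv
  obtain ⟨s⟩ := exists_spec hT
  rw [s.inner_T hT, s.norm_sq hT, mul_sum]
  refine sum_le_sum fun x hx => ?_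
  by_cases h0 : s.p x v = 0
  · simp [h0]
  · exact mul_le_mul_of_nonneg_right (h x _ (s.mem W hW x v hv) h0 (s.eig x hx v)) (sq_nonneg _)

/-! moments to exponential moments -/

theorem series_le {ι κ : Type} (s : Finset ι) (t : Finset κ) (w z : ι → ℝ) (a b : κ → ℝ)
    (c : ℕ → ℝ) (hc : ∀ p, 0 ≤ c p) (F : ℝ → ℝ)
    (hF : ∀ x, HasSum (fun p => c p * x ^ p) (F x))
    (h : ∀ p, c p ≠ 0 → ∑ i ∈ s, w i * z i ^ p ≤ ∑ j ∈ t, a j * b j ^ p) :
    ∑ i ∈ s, w i * F (z i) ≤ ∑ j ∈ t, a j * F (b j) := by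
  have h1 := hasSum_sum (s := s) fun i _ => (hF (z i)).mul_left (w i)
  have h2 := hasSum_sum (s := t) fun j _ => (hF (b j)).mul_left (a j)
  refine hasSum_le (fun p => ?_) h1 h2
  have e1 : ∑ i ∈ s, w i * (c p * z i ^ p) = c p * ∑ i ∈ s, w i * z i ^ p := by
    rw [mul_sum]; exact sum_congr rfl fun i _ => by ring
  have e2 : ∑ j ∈ t, a j * (c p * b j ^ p) = c p * ∑ j ∈ t, a j * b j ^ p := by
    rw [mul_sum]; exact sum_congr rfl fun i _ => by ring
  rw [e1, e2]
  by_cases h0 : c p = 0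
  · simp [h0]
  · exact mul_le_mul_of_nonneg_left (h p h0) (hc p)

theorem hasSum_exp (θ x : ℝ) :
    HasSum (fun p => θ ^ p / (p.factorial : ℝ) * x ^ p) (Real.exp (θ * x)) := by
  have := NormedSpace.expSeries_div_hasSum_exp (θ * x)
  rw [← Real.exp_eq_exp_ℝ] at this
  have e : (fun p : ℕ => θ ^ p / (p.factorial : ℝ) * x ^ p)
      = fun n : ℕ => (θ * x) ^ n / (n.factorial : ℝ) := by
    ext p
    rw [mul_pow]
    ring
  rw [e]
  exact this

theorem hasSum_exp2 (θ x : ℝ) :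
    HasSum (fun p => (if p < 2 then 0 else θ ^ p / (p.factorial : ℝ)) * x ^ p)
      (Real.exp (θ * x) - 1 - θ * x) := by
  have h := hasSum_exp θ x
  have h2 : HasSum (fun p : ℕ => if p < 2 then θ ^ p / (p.factorial : ℝ) * x ^ p else 0)
      (∑ p ∈ range 2, if p < 2 then θ ^ p / (p.factorial : ℝ) * x ^ p else 0) :=
    hasSum_sum_of_ne_finset_zero fun p hp => if_neg (by simpa using hp)
  have h3 := h.sub h2
  have e : (fun p : ℕ => θ ^ p / (p.factorial : ℝ) * x ^ p -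
      if p < 2 then θ ^ p / (p.factorial : ℝ) * x ^ p else 0)
      = fun p => (if p < 2 then 0 else θ ^ p / (p.factorial : ℝ)) * x ^ p := by
    ext p
    split_ifs <;> simp
  rw [e] at h3
  have e2 : (∑ p ∈ range 2, if p < 2 then θ ^ p / (p.factorial : ℝ) * x ^ p else 0)
      = 1 + θ * x := by
    simp [sum_range_succ]
  rw [e2, ← sub_sub] at h3
  exact h3

end Vale.Agent.P162
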