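import Vale.Agent.P162.LD

/-! Pointwise stabilisers and the operator norm on low eigenspaces. -/

namespace Vale.Agent.P162

open scoped RealInnerProductSpace
open Finset Equiv

variable {V : Type} [NormedAddCommGroup V] [InnerProductSpace ℝ V]

section gen
variable {Y : Type} [Fintype Y] [DecidableEq Y] {ρ : Perm Y →* Module.End ℝ V}

theorem Inv.fix {S : Finset Y} {u : V} (h : Inv ρ Sᶜ u) (g : Perm Y) (hg : ∀ x ∈ S, g x = x) :
    ρ g u = u := by
  obtain ⟨g', e⟩ := (Perm.subtypeEquivSubtypePerm fun x => x ∈ Sᶜ).surjective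
    ⟨g, fun a ha => hg a (by simpa using ha)⟩
  have e' : Perm.ofSubtype g' = g := congrArg Subtype.val e
  rw [← e']
  clear e e'
  induction g' using Perm.swap_induction_on with
  | one => simp
  | swap_mul f x y _ ih =>
    rw [map_mul, Perm.ofSubtype_swap_eq, ← rep_mul, ih, h _ x.2 _ y.2]

theorem Inv.rep {S : Finset Y} {u : V} (h : Inv ρ Sᶜ u) (g : Perm Y) :
    Inv ρ (S.image g)ᶜ (ρ g u) := by
  intro a ha b hb
  obtain ⟨a, rfl⟩ := g.surjective a
  obtain ⟨b, rfl⟩ := g.surjective b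
  rw [rep_mul, ← Equiv.mul_swap_eq_swap_mul, ← rep_mul, h a ?_ b ?_]
  · exact mem_compl.2 fun hs => mem_compl.1 ha (mem_image_of_mem _ hs)
  · exact mem_compl.2 fun hs => mem_compl.1 hb (mem_image_of_mem _ hs)

theorem sum_agree (S : Finset Y) (σ : Perm Y) :
    ∑ g : Perm Y, ind (∀ x ∈ S, g x = σ x) = ((Fintype.card Y - S.card).factorial : ℝ) := by
  classical
  rw [← Equiv.sum_comp (Equiv.mulLeft σ)]
  have e : ∀ g : Perm Y, ind (∀ x ∈ S, (Equiv.mulLeft σ g) x = σ x)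
      = if ∀ a, ¬ (a ∈ Sᶜ) → g a = a then 1 else 0 := by
    intro g
    unfold ind
    simp
  simp only [e]
  rw [sum_boole, ← Fintype.card_subtype,
    ← Fintype.card_congr (Perm.subtypeEquivSubtypePerm fun x => x ∈ Sᶜ), Fintype.card_perm,
    Fintype.card_coe, card_compl]

theorem sum_agree_mul (S : Finset Y) (f : Perm Y → ℝ)
    (hf : ∀ g h, (∀ x ∈ S, h x = x) → f (g * h) = f g) (σ : Perm Y) :
    ∑ g : Perm Y, ind (∀ x ∈ S, g x = σ x) * f g
      = ((Fintype.card Y - S.card).factorial : ℝ) * f σ := by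
  rw [← sum_agree S σ, sum_mul]
  refine sum_congr rfl fun g _ => ?_
  by_cases h : ∀ x ∈ S, g x = σ x
  · rw [← hf σ (σ⁻¹ * g) fun x hx => by simp [h x hx], mul_inv_cancel_left]
  · rw [ind_neg h, zero_mul, zero_mul]

theorem desc_ge {n s : ℕ} (hs : s ≤ n) (hn : 0 < n) :
    (1 - (s : ℝ) ^ 2 / n) * ((n - s).factorial * (n : ℝ) ^ s) ≤ n.factorial := by
  have h1 : ((n - s).factorial : ℝ) * n.descFactorial s = n.factorial := by
    exact_mod_cast Nat.factorial_mul_descFactorial hs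
  have h2 : ((n - s : ℕ) : ℝ) ^ s ≤ n.descFactorial s := by
    exact_mod_cast (Nat.pow_le_pow_left (by omega) s).trans (Nat.pow_sub_le_descFactorial n s)
  have hn' : (0 : ℝ) < n := by exact_mod_cast hn
  have hs' : (s : ℝ) ≤ n := by exact_mod_cast hs
  have h3 := one_add_mul_le_pow (a := -((s : ℝ) / n))
    (by have := div_le_one_of_le₀ hs' hn'.le; linarith) s
  have h4 : ((n - s : ℕ) : ℝ) = n * (1 + -((s : ℝ) / n)) := by
    rw [Nat.cast_sub hs]
    field_simp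
    ring
  rw [h4, mul_pow] at h2
  have h5 : (1 - (s : ℝ) ^ 2 / n) = 1 + s * -((s : ℝ) / n) := by ring
  rw [← h1, h5, mul_left_comm]
  refine mul_le_mul_of_nonneg_left (le_trans ?_ h2) (by positivity)
  rw [mul_comm]
  exact mul_le_mul_of_nonneg_left h3 (by positivity)

theorem desc_le {n s : ℕ} (hs : s ≤ n) :
    (n.factorial : ℝ) ≤ (n - s).factorial * (n : ℝ) ^ s := by
  rw [← Nat.factorial_mul_descFactorial hs]
  exact_mod_cast Nat.mul_le_mul_left _ (Nat.descFactorial_le_pow n s)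

theorem exists_inv' [FiniteDimensional ℝ V] [Nonempty Y] (hρ : Orth ρ) (W : Submodule ℝ V)
    (hW : ∀ g, ∀ v ∈ W, ρ g v ∈ W) (k : ℕ) {v : V} (hv : v ∈ W) (hne : v ≠ 0)
    (hlow : ⟪v, Lap ρ v⟫ < ((k : ℝ) + 1) / 2 * ‖v‖ ^ 2 ∨ Fintype.card Y ≤ k) :
    ∃ S : Finset Y, S.card ≤ k ∧ ∃ u ∈ W, Inv ρ Sᶜ u ∧ ⟪v, u⟫ ≠ 0 := by
  by_contra hcon
  push Not at hcon
  let W' : Submodule ℝ V :=
    { carrier := {w | w ∈ W ∧ ∀ S : Finset Y, S.card ≤ k → ∀ u ∈ W, Inv ρ Sᶜ u → ⟪w, u⟫ = 0}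
      add_mem' := fun ha hb => ⟨W.add_mem ha.1 hb.1, fun S hS u hu hI => by
        rw [inner_add_left, ha.2 S hS u hu hI, hb.2 S hS u hu hI, add_zero]⟩
      zero_mem' := ⟨W.zero_mem, fun S hS u hu hI => inner_zero_left _⟩
      smul_mem' := fun c a ha => ⟨W.smul_mem c ha.1, fun S hS u hu hI => by
        rw [real_inner_smul_left, ha.2 S hS u hu hI, mul_zero]⟩ }
  obtain ⟨S, hS, u, hu, hu0, hI⟩ := exists_inv hρ W' (fun g w hw => ⟨hW g w hw.1,
    fun S hS u hu hI => by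
      rw [hρ.adj]
      exact hw.2 _ (card_image_le.trans hS) _ (hW _ _ hu) (hI.rep g⁻¹)⟩) k
    (v := v) ⟨hv, hcon⟩ hne hlow
  exact hu0 (inner_self_eq_zero.1 (hu.2 S hS u hu.1 hI))

theorem Lap_of_fix {u : V} (h : ∀ g, ρ g u = u) : Lap ρ u = 0 := by
  unfold Lap EE
  simp [LinearMap.sum_apply, ee_apply, h]

theorem half_le_eig [FiniteDimensional ℝ V] [Nonempty Y] (hρ : Orth ρ) {l : ℝ} {v : V}
    (hv : Lap ρ v = l • v) (hne : v ≠ 0) (hl : l ≠ 0) : 1 / 2 ≤ l := by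
  by_contra h
  obtain ⟨S, hS, u, hu, hu0, hI⟩ := exists_inv hρ (Eig ρ l) (Eig_rep ρ l) 0 (v := v) hv hne
    (Or.inl (by
      rw [hv, real_inner_smul_right, real_inner_self_eq_norm_sq]
      have : 0 < ‖v‖ ^ 2 := by positivity
      push_cast
      nlinarith))
  have hS : S = ∅ := card_eq_zero.1 (by omega)
  have h0 := Lap_of_fix fun g => hI.fix g (by simp [hS])
  have h1 : Lap ρ u = l • u := hu
  rw [h0] at h1
  exact hu0 ((smul_eq_zero.1 h1.symm).resolve_left hl)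

theorem Ex_rep_eq_zero {l : ℝ} {u : V} (hu : u ∈ Eig ρ l) (hl : l ≠ 0) :
    (Ex fun g => ρ g u) = 0 := by
  have h1 : (Ex fun g => ρ g u) ∈ Eig ρ l :=
    Submodule.smul_mem _ _ (Submodule.sum_mem _ fun g _ => Eig_rep ρ l g u hu)
  have h0 : Lap ρ (Ex fun g => ρ g u) = 0 := Lap_of_fix fun h => by
    rw [Ex_map, ← Ex_equiv (Equiv.mulLeft h) fun g => ρ g u]
    exact Ex_congr fun g => rep_mul _ _ _ _
  have h2 : Lap ρ (Ex fun g => ρ g u) = l • Ex fun g => ρ g u := h1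
  rw [h0] at h2
  exact (smul_eq_zero.1 h2.symm).resolve_left hl

end gen

/-- the butterfly operator -/
noncomputable def Aop (d : ℕ) (ρ : Perm (Q d) →* Module.End ℝ V) : Module.End ℝ V :=
  Ex fun ω => ρ (bf d ω)

/-- the Benes operator -/
noncomputable def Bop (d : ℕ) (ρ : Perm (Q d) →* Module.End ℝ V) : Module.End ℝ V :=
  Ex fun ω => Ex fun ω' => ρ (ben d ω ω')

variable {d : ℕ} {ρ : Perm (Q d) →* Module.End ℝ V}

theorem inner_Bop (hρ : Orth ρ) (v w : V) : ⟪v, Bop d ρ w⟫ = ⟪Aop d ρ v, Aop d ρ w⟫ := by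
  unfold Aop Bop
  simp only [Ex_apply, inner_Ex, Ex_inner]
  refine Ex_congr fun ω => Ex_congr fun ω' => ?_
  rw [hρ.adj (bf d ω'), rep_mul]
  rfl

theorem Bop_symm (hρ : Orth ρ) : (Bop d ρ).IsSymmetric := fun v w => by
  rw [real_inner_comm, inner_Bop hρ, inner_Bop hρ, real_inner_comm]

theorem Aop_norm_sq (hρ : Orth ρ) (v : V) : ‖Aop d ρ v‖ ^ 2 = ⟪v, Bop d ρ v⟫ := by
  rw [inner_Bop hρ, real_inner_self_eq_norm_sq]

theorem Aop_mem (W : Submodule ℝ V) (hW : ∀ g, ∀ v ∈ W, ρ g v ∈ W) {v : V} (hv : v ∈ W) :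
    Aop d ρ v ∈ W := by
  unfold Aop
  rw [Ex_apply]
  exact W.smul_mem _ (W.sum_mem fun _ _ => hW _ v hv)

theorem Bop_mem (W : Submodule ℝ V) (hW : ∀ g, ∀ v ∈ W, ρ g v ∈ W) {v : V} (hv : v ∈ W) :
    Bop d ρ v ∈ W := by
  unfold Bop
  simp only [Ex_apply]
  exact W.smul_mem _ (W.sum_mem fun _ _ => W.smul_mem _ (W.sum_mem fun _ _ => hW _ v hv))

theorem agree_iff {Y : Type} [DecidableEq Y] (S : Finset Y) (g π σ : Perm Y) :
    (∀ x ∈ S, g x = (π * σ) x) ↔ ∀ y ∈ S.image σ, π y = (g * σ⁻¹) y := by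
  simp only [forall_mem_image, Perm.mul_apply]
  exact forall₂_congr fun _ _ => by simp [eq_comm]

theorem small [FiniteDimensional ℝ V] (hρ : Orth ρ) (k : ℕ) {l : ℝ} (hl : l ≠ 0)
    (hk : l < ((k : ℝ) + 1) / 2) {v : V} (hv : v ∈ Eig ρ l) :
    ‖Aop d ρ v‖ ^ 2 ≤ (k : ℝ) ^ 2 / 2 ^ d * ‖v‖ ^ 2 := by
  rw [Aop_norm_sq hρ]
  refine quad_le_of_eig (Bop_symm hρ) (Eig ρ l) (fun v hv => Bop_mem _ (Eig_rep ρ l) hv) _
    (fun μ v hv hne hμ => ?_) v hv
  obtain ⟨S, hS, u, hu, hI, huv⟩ := exists_inv' hρ _ (Eig_rep ρ l) k hv hne (Or.inl (by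
    have h : Lap ρ v = l • v := hv
    rw [h, real_inner_smul_right, real_inner_self_eq_norm_sq]
    exact mul_lt_mul_of_pos_right hk (by positivity)))
  let f : Perm (Q d) → ℝ := fun g => ⟪v, ρ g u⟫
  obtain ⟨σ, hσ⟩ := Finite.exists_max fun g => |f g|
  have hM : 0 < f σ ^ 2 := by
    have h1 : f 1 ≠ 0 := by simpa [f] using huv
    have := (abs_pos.2 h1).trans_le (hσ 1)
    exact sq_pos_of_ne_zero (abs_pos.1 this)
  let h : Perm (Q d) → ℝ := fun g => f σ ^ 2 - f σ * f g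
  have h0 : ∀ g, 0 ≤ h g := fun g => by
    have a := le_abs_self (f σ * f g)
    rw [abs_mul] at a
    have b := mul_le_mul_of_nonneg_left (hσ g) (abs_nonneg (f σ))
    rw [abs_mul_abs_self] at b
    simp only [h]
    linarith
  have hh : ∀ g g', (∀ x ∈ S, g' x = x) → h (g * g') = h g := fun g g' hg => by
    simp only [h, f]
    rw [← rep_mul, hI.fix g' hg]
  have e1 : (Ex fun ω => Ex fun ω' => h (ben d ω ω' * σ)) = f σ ^ 2 * (1 - μ) := by
    have : (Ex fun ω => Ex fun ω' => f (ben d ω ω' * σ)) = μ * f σ := by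
      simp only [f, ← rep_mul]
      rw [← real_inner_smul_left, ← hμ, Bop_symm hρ]
      unfold Bop
      simp only [Ex_apply, inner_Ex]
    simp only [h, Ex_sub, Ex_const, Ex_mul_left, this]
    ring
  have e2 : ∑ g, h g = (Fintype.card (Q d)).factorial * f σ ^ 2 := by
    have a : Ex f = 0 := by
      simp only [f]
      rw [← inner_Ex, Ex_rep_eq_zero hu hl, inner_zero_right]
    have b : ∑ g, f g = 0 := by
      unfold Ex at a
      exact (smul_eq_zero.1 a).resolve_left (by positivity)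
    simp only [h, sum_sub_distrib, ← mul_sum, b, sum_const, card_univ, Fintype.card_perm,
      nsmul_eq_mul]
    ring
  have e3 : ((1 / 2 : ℝ) ^ d) ^ S.card * ∑ g, h g ≤ (Fintype.card (Q d) - S.card).factorial *
      Ex fun ω => Ex fun ω' => h (ben d ω ω' * σ) := by
    simp only [← Ex_mul_left, ← sum_agree_mul S h hh, Ex_sum, Ex_mul_right]
    rw [mul_sum]
    refine sum_le_sum fun g _ => mul_le_mul_of_nonneg_right ?_ (h0 g)
    simp only [ind_congr (agree_iff S g _ σ)]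
    have := doeblin d (S.image σ) (g * σ⁻¹ : Perm (Q d)) (g * σ⁻¹).injective.injOn
    rwa [card_image_of_injective _ σ.injective] at this
  have e4 := desc_ge (card_le_univ S) (Fintype.card_pos (α := Q d))
  rw [e1, e2] at e3
  have hn : ((Fintype.card (Q d) : ℕ) : ℝ) = 2 ^ d := by rw [card_Q]; push_cast; rfl
  rw [hn] at e4
  have hF : (0 : ℝ) < (Fintype.card (Q d) - S.card).factorial := by positivity
  have e5 : ((1 / 2 : ℝ) ^ d) ^ S.card * ((2 : ℝ) ^ d) ^ S.card = 1 := by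
    rw [← mul_pow, ← mul_pow]
    norm_num
  have e6 : (1 - (S.card : ℝ) ^ 2 / 2 ^ d) * ((Fintype.card (Q d) - S.card).factorial * f σ ^ 2)
      ≤ (1 - μ) * ((Fintype.card (Q d) - S.card).factorial * f σ ^ 2) := by
    have := mul_le_mul_of_nonneg_left e4
      (show 0 ≤ ((1 / 2 : ℝ) ^ d) ^ S.card * f σ ^ 2 by positivity)
    calc _ = ((1 / 2 : ℝ) ^ d) ^ S.card * f σ ^ 2 * ((1 - (S.card : ℝ) ^ 2 / 2 ^ d) *
          ((Fintype.card (Q d) - S.card).factorial * ((2 : ℝ) ^ d) ^ S.card)) := by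
          linear_combination (-(1 - (S.card : ℝ) ^ 2 / 2 ^ d) *
            ((Fintype.card (Q d) - S.card).factorial * f σ ^ 2)) * e5
      _ ≤ _ := by linarith
  have e7 := le_of_mul_le_mul_right e6 (by positivity)
  have e8 : (S.card : ℝ) ^ 2 / 2 ^ d ≤ (k : ℝ) ^ 2 / 2 ^ d := by
    have : (S.card : ℝ) ≤ k := by exact_mod_cast hS
    gcongr
  linarith

end Vale.Agent.P162
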